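import Vale.Agent.P329.Defs

namespace Vale.Agent.P329

variable {A : Type}

/-- Predicate version of star-freeness. -/
def SF (p : List A → Prop) : Prop := ∃ e : GRE A, e.sh = 0 ∧ ∀ w, w ∈ e.lang ↔ p w

/-- Predicate version of generalized star height at most one. -/
def S1 (p : List A → Prop) : Prop := ∃ e : GRE A, e.sh ≤ 1 ∧ ∀ w, w ∈ e.lang ↔ p w

theorem SF.congr {p q : List A → Prop} (h : ∀ w, p w ↔ q w) (hp : SF p) : SF q := by
  obtain ⟨e, he, hw⟩ := hp
  exact ⟨e, he, fun w => (hw w).trans (h w)⟩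

theorem S1.congr {p q : List A → Prop} (h : ∀ w, p w ↔ q w) (hp : S1 p) : S1 q := by
  obtain ⟨e, he, hw⟩ := hp
  exact ⟨e, he, fun w => (hw w).trans (h w)⟩

theorem SF.false : SF (fun _ : List A => False) :=
  ⟨GRE.zero, rfl, fun _ => by simp [GRE.lang]⟩

theorem SF.nil : SF (fun w : List A => w = []) :=
  ⟨GRE.one, rfl, fun _ => by simp [GRE.lang]⟩

theorem SF.lit (a : A) : SF (fun w : List A => w = [a]) :=
  ⟨GRE.lit a, rfl, fun w => by
    simp only [GRE.lang]
    exact Iff.rfl⟩

theorem SF.or {p q : List A → Prop} (hp : SF p) (hq : SF q) : SF (fun w => p w ∨ q w) := by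
  obtain ⟨e, he, hw⟩ := hp
  obtain ⟨f, hf, hv⟩ := hq
  refine ⟨GRE.plus e f, by simp [GRE.sh, he, hf], fun w => ?_⟩
  simp only [GRE.lang, Language.mem_add, hw, hv]

theorem SF.not {p : List A → Prop} (hp : SF p) : SF (fun w => ¬ p w) := by
  obtain ⟨e, he, hw⟩ := hp
  refine ⟨GRE.compl e, by simpa [GRE.sh] using he, fun w => ?_⟩
  simp only [GRE.lang]
  exact not_congr (hw w)

theorem SF.cat {p q : List A → Prop} (hp : SF p) (hq : SF q) :
    SF (fun w => ∃ x y, w = x ++ y ∧ p x ∧ q y) := by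
  obtain ⟨e, he, hw⟩ := hp
  obtain ⟨f, hf, hv⟩ := hq
  refine ⟨GRE.mul e f, by simp [GRE.sh, he, hf], fun w => ?_⟩
  simp only [GRE.lang, Language.mem_mul, hw, hv]
  constructor
  · rintro ⟨x, hx, y, hy, rfl⟩
    exact ⟨x, y, rfl, hx, hy⟩
  · rintro ⟨x, y, rfl, hx, hy⟩
    exact ⟨x, hx, y, hy, rfl⟩

theorem SF.true : SF (fun _ : List A => True) :=
  (SF.false.not).congr (fun _ => by simp)

theorem SF.and {p q : List A → Prop} (hp : SF p) (hq : SF q) : SF (fun w => p w ∧ q w) :=
  ((hp.not.or hq.not).not).congr (fun w => by tauto)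

theorem SF.const (c : Prop) : SF (fun _ : List A => c) := by
  by_cases h : c
  · exact SF.true.congr (fun _ => by simp [h])
  · exact SF.false.congr (fun _ => by simp [h])

theorem SF.fin_exists {ι : Type} [Finite ι] {p : ι → List A → Prop} (h : ∀ i, SF (p i)) :
    SF (fun w => ∃ i, p i w) := by
  classical
  have := Fintype.ofFinite ι
  have key : ∀ s : Finset ι, SF (fun w => ∃ i ∈ s, p i w) := by
    intro s
    induction s using Finset.induction_on with
    | empty => exact SF.false.congr (fun _ => by simp)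
    | insert a s _ ih =>
      exact ((h a).or ih).congr (fun w => by simp)
  exact (key Finset.univ).congr (fun w => by simp)

theorem SF.fin_forall {ι : Type} [Finite ι] {p : ι → List A → Prop} (h : ∀ i, SF (p i)) :
    SF (fun w => ∀ i, p i w) :=
  ((SF.fin_exists (fun i => (h i).not)).not).congr (fun w => by simp)

theorem S1.of_SF {p : List A → Prop} (hp : SF p) : S1 p := by
  obtain ⟨e, he, hw⟩ := hp
  exact ⟨e, by omega, hw⟩

theorem S1.or {p q : List A → Prop} (hp : S1 p) (hq : S1 q) : S1 (fun w => p w ∨ q w) := by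
  obtain ⟨e, he, hw⟩ := hp
  obtain ⟨f, hf, hv⟩ := hq
  refine ⟨GRE.plus e f, by simp [GRE.sh, he, hf], fun w => ?_⟩
  simp only [GRE.lang, Language.mem_add, hw, hv]

theorem S1.not {p : List A → Prop} (hp : S1 p) : S1 (fun w => ¬ p w) := by
  obtain ⟨e, he, hw⟩ := hp
  refine ⟨GRE.compl e, by simpa [GRE.sh] using he, fun w => ?_⟩
  simp only [GRE.lang]
  exact not_congr (hw w)

theorem S1.cat {p q : List A → Prop} (hp : S1 p) (hq : S1 q) :
    S1 (fun w => ∃ x y, w = x ++ y ∧ p x ∧ q y) := by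
  obtain ⟨e, he, hw⟩ := hp
  obtain ⟨f, hf, hv⟩ := hq
  refine ⟨GRE.mul e f, by simp [GRE.sh, he, hf], fun w => ?_⟩
  simp only [GRE.lang, Language.mem_mul, hw, hv]
  constructor
  · rintro ⟨x, hx, y, hy, rfl⟩
    exact ⟨x, y, rfl, hx, hy⟩
  · rintro ⟨x, y, rfl, hx, hy⟩
    exact ⟨x, hx, y, hy, rfl⟩

theorem S1.star {p : List A → Prop} (hp : SF p) :
    S1 (fun w => ∃ L : List (List A), w = L.flatten ∧ ∀ y ∈ L, p y) := by
  obtain ⟨e, he, hw⟩ := hp
  refine ⟨GRE.star e, by simp [GRE.sh, he], fun w => ?_⟩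
  simp only [GRE.lang, Language.mem_kstar, hw]

theorem S1.false : S1 (fun _ : List A => False) := S1.of_SF SF.false

theorem S1.true : S1 (fun _ : List A => True) := S1.of_SF SF.true

theorem S1.and {p q : List A → Prop} (hp : S1 p) (hq : S1 q) : S1 (fun w => p w ∧ q w) :=
  ((hp.not.or hq.not).not).congr (fun w => by tauto)

theorem S1.const (c : Prop) : S1 (fun _ : List A => c) := S1.of_SF (SF.const c)

theorem S1.fin_exists {ι : Type} [Finite ι] {p : ι → List A → Prop} (h : ∀ i, S1 (p i)) :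
    S1 (fun w => ∃ i, p i w) := by
  classical
  have := Fintype.ofFinite ι
  have key : ∀ s : Finset ι, S1 (fun w => ∃ i ∈ s, p i w) := by
    intro s
    induction s using Finset.induction_on with
    | empty => exact S1.false.congr (fun _ => by simp)
    | insert a s _ ih =>
      exact ((h a).or ih).congr (fun w => by simp)
  exact (key Finset.univ).congr (fun w => by simp)

theorem S1.fin_forall {ι : Type} [Finite ι] {p : ι → List A → Prop} (h : ∀ i, S1 (p i)) :
    S1 (fun w => ∀ i, p i w) :=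
  ((S1.fin_exists (fun i => (h i).not)).not).congr (fun w => by simp)

theorem hasGSH_of_S1 {p : List A → Prop} (h : S1 p) : HasGSH 1 ({w | p w} : Language A) := by
  obtain ⟨e, he, hw⟩ := h
  exact ⟨e, Language.ext (fun w => hw w), he⟩

end Vale.Agent.P329
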