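import Vale.Agent.P329.MeasZ

/-!
Aligned blocks: the automaton that reads a word in blocks of length `d`.  Using it, the number of
occurrences of a letter at positions in a given residue class modulo `d`, modulo any integer, is
measurable.
-/

namespace Vale.Agent.P329

variable {B : Type} {d : ℕ}

/-- The step of the block automaton on plain lists. -/
def blk (d : ℕ) (ℓ : List B) (a : B) : List B := if ℓ.length + 1 < d then ℓ ++ [a] else []

theorem blk_length (hd : 0 < d) (ℓ : List B) (a : B) : (blk d ℓ a).length < d := by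
  unfold blk
  split_ifs with h
  · simpa using h
  · simpa using hd

/-- The states of the block automaton. -/
abbrev BQ (B : Type) (d : ℕ) := {ℓ : List B // ℓ.length < d}

instance [Finite B] : Finite (BQ B d) := (List.finite_length_lt B d).to_subtype

/-- The block automaton. -/
def blkQ (hd : 0 < d) (q : BQ B d) (a : B) : BQ B d := ⟨blk d q.1 a, blk_length hd q.1 a⟩

theorem run_blkQ (hd : 0 < d) (q : BQ B d) (x : List B) :
    (run (blkQ hd) q x).1 = run (blk d) q.1 x := by
  induction x generalizing q with
  | nil => rfl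
  | cons a x ih => simp only [run_cons, ih, blkQ]

theorem noJump_blkQ (hd : 0 < d) (J : List B → B → Prop) (q : BQ B d) (x : List B) :
    NoJump (blkQ hd) (fun q a => J q.1 a) q x ↔ NoJump (blk d) J q.1 x := by
  induction x generalizing q with
  | nil => exact Iff.rfl
  | cons a x ih =>
    simp only [NoJump]
    rw [ih]
    rfl

theorem mod_step_lt {n : ℕ} (hd : 0 < d) (h : n % d + 1 < d) : (n + 1) / d = n / d := by
  have h1 := Nat.div_add_mod n d
  refine Nat.div_eq_of_lt_le ?_ ?_
  · rw [Nat.mul_comm]
    omega
  · rw [Nat.add_mul, Nat.one_mul, Nat.mul_comm]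
    omega

theorem mod_step_eq {n : ℕ} (hd : 0 < d) (h : n % d + 1 = d) : (n + 1) / d * d = n + 1 ∧
    (n + 1) / d = n / d + 1 := by
  have h1 := Nat.div_add_mod n d
  have h2 : (n + 1) / d = n / d + 1 := by
    refine Nat.div_eq_of_lt_le ?_ ?_
    · rw [Nat.add_mul, Nat.one_mul, Nat.mul_comm]
      omega
    · have : (n / d + 1 + 1) * d = d * (n / d) + d + d := by ring
      omega
  refine ⟨?_, h2⟩
  rw [h2, Nat.add_mul, Nat.one_mul, Nat.mul_comm]
  omega

/-- The state reached is the tail of the word after the last complete block. -/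
theorem run_blk (hd : 0 < d) (ℓ x : List B) (hℓ : ℓ.length < d) :
    run (blk d) ℓ x = (ℓ ++ x).drop ((ℓ.length + x.length) / d * d) := by
  induction x using List.reverseRecOn with
  | nil =>
    simp [Nat.div_eq_of_lt hℓ]
  | append_singleton x a ih =>
    rw [run_append, ih]
    simp only [run_cons, run_nil, List.length_append, List.length_singleton, ← add_assoc]
    set y := ℓ ++ x with hy
    set n := ℓ.length + x.length with hn
    have hyl : y.length = n := by simp [hy, hn]
    have h1 := Nat.div_add_mod n d
    have h2 := Nat.mod_lt n hd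
    have hs : (y.drop (n / d * d)).length = n % d := by
      rw [List.length_drop, hyl, Nat.mul_comm]
      omega
    unfold blk
    rw [hs]
    have hle : n / d * d ≤ y.length := by
      rw [hyl, Nat.mul_comm]
      omega
    rw [← List.append_assoc, ← hy]
    split_ifs with h
    · rw [mod_step_lt hd h, List.drop_append_of_le_length hle]
    · have h3 : n % d + 1 = d := by omega
      rw [(mod_step_eq hd h3).1]
      rw [List.drop_of_length_le]
      simp [hyl]

theorem run_blk_length (hd : 0 < d) (ℓ x : List B) (hℓ : ℓ.length < d) :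
    (run (blk d) ℓ x).length = (ℓ.length + x.length) % d := by
  rw [run_blk hd ℓ x hℓ, List.length_drop, List.length_append]
  have h1 := Nat.div_add_mod (ℓ.length + x.length) d
  rw [Nat.mul_comm]
  omega

/-- The transitions completing a block other than the allowed one. -/
def blkJ (d : ℕ) (o : Option (List B)) (ℓ : List B) (a : B) : Prop :=
  ℓ.length + 1 = d ∧ some (ℓ ++ [a]) ≠ o

/-- Along a run without jumps all complete blocks are the allowed one. -/
theorem noJump_blocks (hd : 0 < d) (o : Option (List B)) (ℓ x : List B) (hℓ : ℓ.length < d)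
    (h : NoJump (blk d) (blkJ d o) ℓ x) (i : ℕ) (hi : i < (ℓ.length + x.length) / d * d) :
    ∃ z, o = some z ∧ z.length = d ∧ (ℓ ++ x)[i]? = z[i % d]? := by
  induction x using List.reverseRecOn generalizing i with
  | nil =>
    simp [Nat.div_eq_of_lt hℓ] at hi
  | append_singleton x a ih =>
    rw [noJump_append] at h
    have ih' := ih h.1
    simp only [List.length_append, List.length_singleton, ← add_assoc] at hi
    set n := ℓ.length + x.length with hn
    have hyl : (ℓ ++ x).length = n := by simp [hn]
    have h1 := Nat.div_add_mod n d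
    have h2 := Nat.mod_lt n hd
    have hle : n / d * d ≤ n := by
      rw [Nat.mul_comm]
      omega
    by_cases h3 : n % d + 1 < d
    · rw [mod_step_lt hd h3] at hi
      obtain ⟨z, hz, hzl, hzi⟩ := ih' i hi
      refine ⟨z, hz, hzl, ?_⟩
      rw [← hzi, ← List.append_assoc, List.getElem?_append_left (by omega)]
    · have h3' : n % d + 1 = d := by omega
      obtain ⟨h4, h5⟩ := mod_step_eq hd h3'
      have h6 := h.2.1
      have hrl : (run (blk d) ℓ x).length + 1 = d := by
        rw [run_blk_length hd ℓ x hℓ]
        exact h3'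
      have h7 : some (run (blk d) ℓ x ++ [a]) = o := by
        by_contra hne
        exact h6 ⟨hrl, hne⟩
      by_cases h8 : i < n / d * d
      · obtain ⟨z, hz, hzl, hzi⟩ := ih' i h8
        refine ⟨z, hz, hzl, ?_⟩
        rw [← hzi, ← List.append_assoc, List.getElem?_append_left (by omega)]
      · refine ⟨_, h7.symm, by simp [hrl], ?_⟩
        rw [run_blk hd ℓ x hℓ, ← hn]
        rw [← List.append_assoc]
        have hle' : n / d * d ≤ (ℓ ++ x).length := by rw [hyl]; exact hle
        rw [← List.drop_append_of_le_length hle', List.getElem?_drop]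
        have h9 : i = n / d * d + i % d := by
          have : i / d = n / d := by
            refine Nat.div_eq_of_lt_le ?_ ?_
            · rw [Nat.mul_comm] at *; omega
            · rw [h5, Nat.add_mul, Nat.one_mul] at hi
              rw [Nat.add_mul, Nat.one_mul]
              omega
          have h10 := Nat.div_add_mod i d
          rw [this, Nat.mul_comm] at h10
          omega
        rw [← h9]

/-- The `k`-th power of a word. -/
def wpow (u : List B) (k : ℕ) : List B := (List.replicate k u).flatten

@[simp] theorem wpow_zero (u : List B) : wpow u 0 = [] := rfl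

theorem wpow_succ (u : List B) (k : ℕ) : wpow u (k + 1) = u ++ wpow u k := by
  simp [wpow, List.replicate_succ]

theorem wpow_length (u : List B) (k : ℕ) : (wpow u k).length = k * u.length := by
  induction k with
  | zero => simp
  | succ k ih =>
    rw [wpow_succ, List.length_append, ih]
    ring

theorem lt_div_mul {m n : ℕ} (hd : 0 < d) (h : m + d ≤ n) : m < n / d * d := by
  have h1 := Nat.div_add_mod n d
  have h2 := Nat.mod_lt n hd
  rw [Nat.mul_comm] at h1
  omega

/-- The block automaton has a cut if the allowed block has no rotational symmetry. -/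
theorem blk_cut (hd : 0 < d) (o : Option (List B))
    (hNS : ∀ z, o = some z → ∀ τ, (∀ i, z[(i + τ) % d]? = z[i % d]?) → d ∣ τ) :
    Cut (blkQ (B := B) hd) ⟨[], hd⟩ (fun q a => blkJ d o q.1 a) := by
  refine ⟨?_, ?_⟩
  · rintro q a ⟨h, -⟩
    apply Subtype.ext
    show blk d q.1 a = []
    unfold blk
    rw [if_neg (by omega)]
  · intro u q hq
    by_cases hu : u = []
    · subst hu
      exact ⟨0, rfl⟩
    have hulen : 0 < u.length := List.length_pos_iff.2 hu
    set F : BQ B d → BQ B d := fun p => run (blkQ hd) p u with hF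
    have hFv : ∀ p : BQ B d, (F p).1 = run (blk d) p.1 u := fun p => run_blkQ hd p u
    have hN : ∀ (k : ℕ) (p : BQ B d), (∀ j, NoJump (blkQ hd) (fun q a => blkJ d o q.1 a) (F^[j] p) u) →
        NoJump (blk d) (blkJ d o) p.1 (wpow u k) := by
      intro k
      induction k with
      | zero => intro p _; trivial
      | succ k ih =>
        intro p hp
        rw [wpow_succ, noJump_append]
        refine ⟨(noJump_blkQ hd _ p u).1 (hp 0), ?_⟩
        rw [← hFv]
        apply ih
        intro j
        rw [← Function.iterate_succ_apply]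
        exact hp (j + 1)
    set ℓ := q.1 with hℓdef
    have hℓ : ℓ.length < d := q.2
    have hB : ∀ (k i : ℕ), i < (ℓ.length + (wpow u k).length) / d * d →
        ∃ z, o = some z ∧ z.length = d ∧ (ℓ ++ wpow u k)[i]? = z[i % d]? :=
      fun k i hi => noJump_blocks hd o ℓ (wpow u k) hℓ (hN k q hq) i hi
    have hbig : ∀ (k m : ℕ), m + d ≤ k → m < (ℓ.length + (wpow u k).length) / d * d := by
      intro k m hk
      apply lt_div_mul hd
      rw [wpow_length]
      have : k ≤ k * u.length := Nat.le_mul_of_pos_right k hulen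
      omega
    obtain ⟨z, hz, hzl, -⟩ := hB d 0 (hbig d 0 (by omega))
    have hB' : ∀ (k i : ℕ), i + d ≤ k → (ℓ ++ wpow u k)[i]? = z[i % d]? := by
      intro k i hk
      obtain ⟨z', hz', -, h⟩ := hB k i (hbig k i hk)
      rw [hz] at hz'
      cases hz'
      exact h
    -- the symmetry of the allowed block
    have hsym0 : ∀ i, ℓ.length ≤ i → z[(i + u.length) % d]? = z[i % d]? := by
      intro i hi
      set k := i + u.length + d with hk
      rw [← hB' (k + 1) (i + u.length) (by omega), ← hB' k i (by omega), wpow_succ]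
      rw [List.getElem?_append_right (by omega), List.getElem?_append_right (by omega),
        List.getElem?_append_right (by omega)]
      congr 1
      omega
    have hsym : ∀ i, z[(i + u.length) % d]? = z[i % d]? := by
      intro i
      have h1 := hsym0 (i + ℓ.length * d) (by
        have : ℓ.length ≤ ℓ.length * d := Nat.le_mul_of_pos_right _ hd
        omega)
      have h2 : (i + ℓ.length * d + u.length) % d = (i + u.length) % d := by
        rw [show i + ℓ.length * d + u.length = i + u.length + ℓ.length * d by ring,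
          Nat.add_mul_mod_self_right]
      rw [h2, Nat.add_mul_mod_self_right] at h1
      exact h1
    obtain ⟨t, ht⟩ := hNS z hz u.length hsym
    have ht0 : 0 < t := by
      rcases Nat.eq_zero_or_pos t with h | h
      · subst h
        simp at ht
        exact absurd ht hu
      · exact h
    have hdu : d ≤ u.length := by
      rw [ht]
      exact Nat.le_mul_of_pos_right d ht0
    refine ⟨0, ?_⟩
    show F q = q
    apply Subtype.ext
    rw [hFv, run_blk hd _ _ hℓ, ← hℓdef]
    have hdiv : (ℓ.length + u.length) / d * d = u.length := by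
      rw [ht, Nat.add_mul_div_left _ _ hd, Nat.div_eq_of_lt hℓ, Nat.zero_add, Nat.mul_comm]
    rw [hdiv]
    apply List.ext_getElem?
    intro j
    rw [List.getElem?_drop]
    by_cases hj : j < ℓ.length
    · have h1 := hB' (2 * (u.length + ℓ.length + d)) (u.length + j) (by omega)
      have h2 := hB' (2 * (u.length + ℓ.length + d)) j (by omega)
      have h3 : (u.length + j) % d = j % d := by
        rw [ht, Nat.mul_add_mod]
      rw [h3, ← h2] at h1
      rw [List.getElem?_append_left (l₂ := wpow u _) hj] at h1
      have h5 : (ℓ ++ wpow u (2 * (u.length + ℓ.length + d)))[u.length + j]? =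
          (ℓ ++ u)[u.length + j]? := by
        obtain ⟨K', hK'⟩ : ∃ K', 2 * (u.length + ℓ.length + d) = K' + 1 :=
          ⟨2 * (u.length + ℓ.length + d) - 1, by omega⟩
        rw [hK', wpow_succ, ← List.append_assoc]
        exact List.getElem?_append_left (by simp; omega)
      rw [← h5, h1]
    · rw [List.getElem?_eq_none (by simp; omega), List.getElem?_eq_none (by omega)]

section Weights

theorem sum_shift {g : ℕ → ℤ} (hg : Function.Periodic g d) (s : ℕ) :
    ∑ ρ ∈ Finset.range d, g (ρ + s) = ∑ ρ ∈ Finset.range d, g ρ := by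
  induction s with
  | zero => simp
  | succ s ih =>
    rw [← ih]
    have h1 := Finset.sum_range_succ' (fun ρ => g (ρ + s)) d
    have h2 := Finset.sum_range_succ (fun ρ => g (ρ + s)) d
    have h3 : g (d + s) = g (0 + s) := by
      rw [add_comm d s, hg s, zero_add]
    have h4 : ∑ ρ ∈ Finset.range d, g (ρ + (s + 1)) = ∑ ρ ∈ Finset.range d, g (ρ + 1 + s) :=
      Finset.sum_congr rfl (fun ρ _ => by congr 1; ring)
    rw [h4]
    linarith

/-- Average over the multiples of `d / e`. -/
def Ee (d e : ℕ) (f : ℕ → ℤ) (x : ℕ) : ℤ := ∑ j ∈ Finset.range e, f (x + j * (d / e))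

theorem Ee_periodic {e : ℕ} {f : ℕ → ℤ} (he : e ∣ d) (he0 : 0 < e) (hf : Function.Periodic f d) :
    Function.Periodic (Ee d e f) (d / e) := by
  intro x
  unfold Ee
  have h1 := Finset.sum_range_succ' (fun j => f (x + j * (d / e))) e
  have h2 := Finset.sum_range_succ (fun j => f (x + j * (d / e))) e
  have h3 : f (x + e * (d / e)) = f (x + 0 * (d / e)) := by
    rw [Nat.mul_div_cancel' he, hf x]
    simp
  have h4 : ∑ j ∈ Finset.range e, f (x + d / e + j * (d / e)) =
      ∑ j ∈ Finset.range e, f (x + (j + 1) * (d / e)) :=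
    Finset.sum_congr rfl (fun j _ => by congr 1; ring)
  rw [h4]
  linarith

theorem Ee_periodic' {e : ℕ} {f : ℕ → ℤ} (he : e ∣ d) (he0 : 0 < e) (hf : Function.Periodic f d) :
    Function.Periodic (Ee d e f) d := by
  have := (Ee_periodic he he0 hf).nat_mul e
  rwa [Nat.cast_id, Nat.mul_div_cancel' he] at this

theorem Ee_self {e : ℕ} {f : ℕ → ℤ} (he : e ∣ d) (he0 : 0 < e) (hf : Function.Periodic f d)
    (x : ℕ) : Ee d e (Ee d e f) x = e * Ee d e f x := by
  have h1 := Ee_periodic he he0 hf
  have h2 : ∀ j, Ee d e f (x + j * (d / e)) = Ee d e f x := fun j => by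
    have := (h1.nat_mul j) x
    exact this
  conv_lhs => unfold Ee
  simp only [Ee] at h2
  rw [Finset.sum_congr rfl (fun j _ => h2 j)]
  simp [Ee]

theorem Ee_comm (e e' : ℕ) (f : ℕ → ℤ) (x : ℕ) : Ee d e (Ee d e' f) x = Ee d e' (Ee d e f) x := by
  unfold Ee
  rw [Finset.sum_comm]
  refine Finset.sum_congr rfl (fun i _ => Finset.sum_congr rfl (fun j _ => ?_))
  congr 1
  ring

theorem Ee_sub_smul (e' : ℕ) (k : ℤ) (f g : ℕ → ℤ) (x : ℕ) :
    Ee d e' (fun y => k * f y - g y) x = k * Ee d e' f x - Ee d e' g x := by
  unfold Ee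
  rw [Finset.sum_sub_distrib, Finset.mul_sum]

variable [DecidableEq B] (c : B)

/-- The weight of the positions of `c`, as a function of the position. -/
noncomputable def Tf (f : ℕ → ℤ) (w : List B) : ℤ := psum c (fun p => f p.length) w

@[simp] theorem Tf_nil (f : ℕ → ℤ) : Tf c f [] = 0 := rfl

theorem Tf_snoc (f : ℕ → ℤ) (w : List B) (a : B) :
    Tf c f (w ++ [a]) = Tf c f w + if a = c then f w.length else 0 := psum_snoc _ _ _ _

theorem Tf_eq_sum (f : ℕ → ℤ) (w : List B) :
    Tf c f w = ∑ ρ ∈ Finset.range w.length, if w[ρ]? = some c then f ρ else 0 := by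
  induction w using List.reverseRecOn with
  | nil => simp
  | append_singleton w a ih =>
    rw [Tf_snoc, ih, List.length_append, List.length_singleton,
      Finset.sum_range_succ]
    congr 1
    · refine Finset.sum_congr rfl (fun ρ hρ => ?_)
      rw [List.getElem?_append_left (Finset.mem_range.1 hρ)]
    · simp

theorem Tf_zero_of_sym (hd : 0 < d) {f : ℕ → ℤ} (hf : Function.Periodic f d)
    (hprim : ∀ e, e ∣ d → 1 < e → ∀ x, Ee d e f x = 0) (z : List B) (hz : z.length = d) (τ : ℕ)
    (hτ : ¬ d ∣ τ) (sym : ∀ i, z[(i + τ) % d]? = z[i % d]?) : Tf c f z = 0 := by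
  classical
  set G : ℕ → ℤ := fun ρ => if z[ρ % d]? = some c then 1 else 0 with hG
  have hT : Tf c f z = ∑ ρ ∈ Finset.range d, G ρ * f ρ := by
    rw [Tf_eq_sum, hz]
    refine Finset.sum_congr rfl (fun ρ hρ => ?_)
    simp only [hG]
    rw [Nat.mod_eq_of_lt (Finset.mem_range.1 hρ)]
    split_ifs <;> simp
  have hGp : Function.Periodic G d := by
    intro x
    simp only [hG, Nat.add_mod_right]
  have hDlt : Nat.gcd τ d < d := by
    apply lt_of_le_of_ne (Nat.le_of_dvd hd (Nat.gcd_dvd_right τ d))
    intro h
    apply hτ
    rw [← h]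
    exact Nat.gcd_dvd_left τ d
  have hD0 : 0 < Nat.gcd τ d := Nat.gcd_pos_of_pos_right τ hd
  obtain ⟨m, -, hm⟩ := Nat.exists_mul_mod_eq_gcd hDlt
  have hsymm : ∀ (k i : ℕ), z[(i + τ * k) % d]? = z[i % d]? := by
    intro k
    induction k with
    | zero => simp
    | succ k ih =>
      intro i
      have := sym (i + τ * k)
      rw [show i + τ * (k + 1) = i + τ * k + τ by ring, this, ih]
  set D := Nat.gcd τ d with hDdef
  have hGD : ∀ ρ, G (ρ + D) = G ρ := by
    intro ρ
    simp only [hG]
    rw [← hm, Nat.add_mod_mod, hsymm]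
  have hGj : ∀ j ρ, G (ρ + j * D) = G ρ := by
    intro j
    induction j with
    | zero => simp
    | succ j ih =>
      intro ρ
      rw [show ρ + (j + 1) * D = ρ + j * D + D by ring, hGD, ih]
  have hDd : D ∣ d := Nat.gcd_dvd_right τ d
  set e := d / D with he
  have hed : e ∣ d := Nat.div_dvd_of_dvd hDd
  have hde : d / e = D := Nat.div_div_self hDd hd.ne'
  have hed' : e * D = d := Nat.div_mul_cancel hDd
  have he1 : 1 < e := by
    by_contra hcon
    have h1 : e ≤ 1 := by omega
    have h2 : e * D ≤ 1 * D := Nat.mul_le_mul_right D h1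
    omega
  have hHp : Function.Periodic (fun ρ => G ρ * f ρ) d := fun x => by
    simp only [hGp x, hf x]
  have hshift : ∀ j, ∑ ρ ∈ Finset.range d, G ρ * f ρ =
      ∑ ρ ∈ Finset.range d, G ρ * f (ρ + j * D) := by
    intro j
    have h1 := sum_shift hHp (j * D)
    rw [← h1]
    refine Finset.sum_congr rfl (fun ρ _ => ?_)
    rw [hGj]
  have hsum : (e : ℤ) * Tf c f z = 0 := by
    have h1 : (e : ℤ) * Tf c f z = ∑ _j ∈ Finset.range e, Tf c f z := by simp
    rw [h1, Finset.sum_congr rfl (fun j _ => by rw [hT, hshift j]), Finset.sum_comm]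
    apply Finset.sum_eq_zero
    intro ρ _
    rw [← Finset.mul_sum]
    have h2 := hprim e hed he1 ρ
    unfold Ee at h2
    rw [hde] at h2
    rw [h2, mul_zero]
  have he0 : (e : ℤ) ≠ 0 := by
    have : e ≠ 0 := by omega
    exact_mod_cast this
  exact (mul_eq_zero.1 hsum).resolve_left he0

/-- The weights of the complete blocks. -/
noncomputable def bg (f : ℕ → ℤ) (q : BQ B d) (a : B) : ℤ :=
  if q.1.length + 1 = d then Tf c f (q.1 ++ [a]) else 0

theorem Tf_decomp (hd : 0 < d) {f : ℕ → ℤ} (hf : Function.Periodic f d) (w : List B) :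
    Tf c f w = wsum (blkQ hd) (bg c f) ⟨[], hd⟩ w + Tf c f (run (blkQ hd) ⟨[], hd⟩ w).1 := by
  induction w using List.reverseRecOn with
  | nil => simp [wsum]
  | append_singleton w a ih =>
    rw [wsum_snoc, run_append]
    set q := run (blkQ hd) ⟨[], hd⟩ w with hq
    have hql : q.1.length = w.length % d := by
      rw [hq, run_blkQ, run_blk_length hd _ _ (by simpa using hd)]
      simp
    have hfq : f q.1.length = f w.length := by
      rw [hql]
      exact hf.map_mod_nat _
    have hlt : q.1.length < d := q.2
    rw [Tf_snoc, ih]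
    simp only [run_cons, run_nil]
    by_cases h : q.1.length + 1 < d
    · have h1 : (blkQ hd q a).1 = q.1 ++ [a] := by
        show blk d q.1 a = _
        unfold blk
        rw [if_pos h]
      have h2 : bg c f q a = 0 := by
        unfold bg
        rw [if_neg (by omega)]
      rw [h1, h2, Tf_snoc, hfq]
      ring
    · have h1 : (blkQ hd q a).1 = [] := by
        show blk d q.1 a = _
        unfold blk
        rw [if_neg h]
      have h2 : bg c f q a = Tf c f (q.1 ++ [a]) := by
        unfold bg
        rw [if_pos (by omega)]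
      rw [h1, h2, Tf_snoc, hfq]
      simp
      ring

/-- The primitive case. -/
theorem meas_prim [Finite B] (hd : 0 < d) {f : ℕ → ℤ} (hf : Function.Periodic f d)
    (hprim : ∀ e, e ∣ d → 1 < e → ∀ x, Ee d e f x = 0) : MeasZ (Tf c f) := by
  classical
  have := Fintype.ofFinite B
  have : Fintype (BQ B d) := Fintype.ofFinite _
  intro M _
  set q₀ : BQ B d := ⟨[], hd⟩ with hq₀
  have hrun : Meas (fun w => run (blkQ hd) q₀ w) :=
    fun q' => (blk_cut hd none (by simp)).s1 q₀ q'
  have hjc : ∀ (q' : BQ B d) (a' : B), bg c f q' a' = 0 ∨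
      Meas (fun w => ((jc (blkQ hd) (fun q'' a'' => q'' = q' ∧ a'' = a') q₀ w : ℕ) : ZMod M)) := by
    intro q' a'
    by_cases h0 : bg c f q' a' = 0
    · exact Or.inl h0
    · right
      have h1 : q'.1.length + 1 = d := by
        by_contra hcon
        apply h0
        unfold bg
        rw [if_neg hcon]
      have h2 : Tf c f (q'.1 ++ [a']) ≠ 0 := by
        intro hcon
        apply h0
        unfold bg
        rw [if_pos h1, hcon]
      have hzl : (q'.1 ++ [a']).length = d := by simp [h1]
      have hNS : ∀ z, some (q'.1 ++ [a']) = some z → ∀ τ, (∀ i, z[(i + τ) % d]? = z[i % d]?) →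
          d ∣ τ := by
        intro z hz τ hτ
        cases hz
        by_contra hcon
        exact h2 (Tf_zero_of_sym c hd hf hprim _ hzl τ hcon hτ)
      refine (blk_cut hd (some (q'.1 ++ [a'])) hNS).meas_free ?_ ?_ M q₀
      · rintro q a ⟨rfl, rfl⟩
        apply Subtype.ext
        show blk d q.1 a = []
        unfold blk
        rw [if_neg (by omega)]
      · rintro q a ⟨rfl, rfl⟩ ⟨-, h3⟩
        exact h3 rfl
  have hmain : Meas (fun w => (∑ q' : BQ B d, ∑ a' : B, ((bg c f q' a' : ℤ) : ZMod M) *
      ((jc (blkQ hd) (fun q'' a'' => q'' = q' ∧ a'' = a') q₀ w : ℕ) : ZMod M)) +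
      ((Tf c f (run (blkQ hd) q₀ w).1 : ℤ) : ZMod M)) := by
    refine Meas.add ?_ (hrun.comp (fun q => ((Tf c f q.1 : ℤ) : ZMod M)))
    refine Meas.finset_sum _ (fun q' => Meas.finset_sum _ (fun a' => ?_))
    rcases hjc q' a' with h0 | h1
    · rw [h0]
      simpa using Meas.const (0 : ZMod M)
    · exact (Meas.const _).mul h1
  refine hmain.congr (fun w => ?_)
  rw [Tf_decomp c hd hf w, wsum_eq_sum_jc]
  push_cast
  rfl

/-- Occurrences of a letter at positions weighted by a periodic function of the position. -/
theorem meas_len [Finite B] : ∀ d, 0 < d → ∀ f : ℕ → ℤ, Function.Periodic f d →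
    MeasZ (Tf c f) := by
  intro d
  induction d using Nat.strong_induction_on with
  | _ d IH =>
  intro hd
  have key : ∀ s : Finset ℕ, (∀ e ∈ s, e ∣ d ∧ 1 < e) → ∀ f : ℕ → ℤ, Function.Periodic f d →
      (∀ e, e ∣ d → 1 < e → e ∉ s → ∀ x, Ee d e f x = 0) → MeasZ (Tf c f) := by
    intro s
    induction s using Finset.induction_on with
    | empty =>
      intro _ f hf h0
      exact meas_prim c hd hf (fun e he he1 => h0 e he he1 (by simp))
    | insert e s hes ih =>
      intro hs f hf h0
      obtain ⟨hed, he1⟩ := hs e (by simp)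
      have he0 : 0 < e := by omega
      have hEp := Ee_periodic' hed he0 hf
      set g : ℕ → ℤ := fun y => (e : ℤ) * f y - Ee d e f y with hg
      have hgp : Function.Periodic g d := fun x => by
        simp only [hg, hf x, hEp x]
      have hTg : MeasZ (Tf c g) := by
        refine ih (fun e' he' => hs e' (by simp [he'])) g hgp ?_
        intro e' he' he1' hes' x
        rw [hg, Ee_sub_smul]
        by_cases hee : e' = e
        · subst hee
          rw [Ee_self he' he0 hf]
          ring
        · have h1 : ∀ x, Ee d e' f x = 0 := h0 e' he' he1' (by simp [hee, hes'])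
          rw [h1, Ee_comm]
          have h2 : Ee d e (Ee d e' f) x = 0 := by
            unfold Ee
            apply Finset.sum_eq_zero
            intro j _
            have := h1 (x + j * (d / e))
            unfold Ee at this
            exact this
          rw [h2]
          ring
      have hDlt : d / e < d := Nat.div_lt_self hd he1
      have hD0 : 0 < d / e := Nat.div_pos (Nat.le_of_dvd hd hed) he0
      have hTE : MeasZ (Tf c (Ee d e f)) := IH _ hDlt hD0 _ (Ee_periodic hed he0 hf)
      refine MeasZ.scale he0 ((hTg.add hTE).congr (fun w => ?_))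
      have h3 : Tf c g w = (e : ℤ) * Tf c f w - Tf c (Ee d e f) w := by
        simp only [Tf]
        rw [← psum_smul, ← psum_sub]
      rw [h3]
      ring
  intro f hf
  refine key (d.divisors.filter (fun e => 1 < e)) ?_ f hf ?_
  · intro e he
    simp only [Finset.mem_filter, Nat.mem_divisors] at he
    exact ⟨he.1.1, he.2⟩
  · intro e he he1 hn
    exfalso
    apply hn
    simp only [Finset.mem_filter, Nat.mem_divisors]
    exact ⟨⟨he, hd.ne'⟩, he1⟩

end Weights

end Vale.Agent.P329
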