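import Mathlib

/-!
Generalized regular expressions over a finite alphabet: constants, letters, union,
concatenation, complement (in the free monoid) and Kleene star, with the usual star height.
-/

namespace Vale.Agent.P329

open Computability

/-- Generalized regular expressions over the alphabet `A`. -/
inductive GRE (A : Type) : Type
  | zero : GRE A
  | one : GRE A
  | lit : A → GRE A
  | plus : GRE A → GRE A → GRE A
  | mul : GRE A → GRE A → GRE A
  | compl : GRE A → GRE A
  | star : GRE A → GRE A

namespace GRE

variable {A : Type}

/-- The language denoted by an expression; complement is taken in all of `List A`. -/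
def lang : GRE A → Language A
  | zero => 0
  | one => 1
  | lit a => {[a]}
  | plus P Q => lang P + lang Q
  | mul P Q => lang P * lang Q
  | compl P => (lang P)ᶜ
  | star P => (lang P)∗

/-- The star height of an expression: stars count, complement does not. -/
def sh : GRE A → ℕ
  | zero => 0
  | one => 0
  | lit _ => 0
  | plus P Q => max (sh P) (sh Q)
  | mul P Q => max (sh P) (sh Q)
  | compl P => sh P
  | star P => sh P + 1

end GRE

/-- The number of occurrences of `v` as a scattered subword of `w`: `List.sublists w` lists the
sublists of `w`, one for each subset of the positions of `w`. -/
def subwordCount {A : Type} [DecidableEq A] (v w : List A) : ℕ := w.sublists.count v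

/-- `L` has generalized star height at most `k` over `A`. -/
def HasGSH {A : Type} (k : ℕ) (L : Language A) : Prop :=
  ∃ e : GRE A, e.lang = L ∧ e.sh ≤ k

end Vale.Agent.P329
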