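import Vale.Agent.P329.Signed

/-!
Erasing letters: the preimage of a language under a letter-to-letter-or-nothing map has at most
the generalized star height of the language.
-/

namespace Vale.Agent.P329

variable {A B : Type}

theorem sf_erased [Finite A] (π : A → Option B) : SF (fun w : List A => w.filterMap π = []) :=
  (SF.allIn {a : A | π a = none}).congr (fun w => by
    simp only [Set.mem_setOf_eq, List.filterMap_eq_nil_iff])

theorem sf_erased_lit [Finite A] (π : A → Option B) (b : B) :
    SF (fun w : List A => w.filterMap π = [b]) := by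
  have h1 : SF (fun w : List A => ∃ a : A, ∃ x y, w = x ++ y ∧ x.filterMap π = [] ∧
      (∃ u v, y = u ++ v ∧ (u = [a] ∧ π a = some b) ∧ v.filterMap π = [])) :=
    SF.fin_exists (fun a => (sf_erased π).cat (((SF.lit a).and (SF.const _)).cat (sf_erased π)))
  refine h1.congr (fun w => ?_)
  constructor
  · rintro ⟨a, x, y, rfl, hx, u, v, rfl, ⟨rfl, ha⟩, hv⟩
    simp [List.filterMap_append, hx, hv, ha]
  · intro hw
    obtain ⟨l₁, a, l₂, rfl, h1, h2, h3⟩ := List.filterMap_eq_cons_iff.1 hw
    refine ⟨a, l₁, a :: l₂, rfl, ?_, [a], l₂, rfl, ⟨rfl, h2⟩, h3⟩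
    exact List.filterMap_eq_nil_iff.2 h1

theorem filterMap_star_split (π : A → Option B) (p : List B → Prop) (L : List (List B))
    (hne : L ≠ []) (hL : ∀ y ∈ L, p y) (w : List A) (hw : w.filterMap π = L.flatten) :
    ∃ L' : List (List A), w = L'.flatten ∧ ∀ x ∈ L', p (x.filterMap π) := by
  induction L generalizing w with
  | nil => exact absurd rfl hne
  | cons y L ih =>
    by_cases hL0 : L = []
    · subst hL0
      refine ⟨[w], by simp, ?_⟩
      intro x hx
      have : x = w := by simpa using hx
      subst this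
      rw [hw]
      simpa using hL y (by simp)
    · rw [List.flatten_cons] at hw
      obtain ⟨x, x', rfl, hx, hx'⟩ := List.filterMap_eq_append_iff.1 hw
      obtain ⟨L', rfl, hL'⟩ := ih hL0 (fun z hz => hL z (by simp [hz])) x' hx'
      refine ⟨x :: L', by simp, ?_⟩
      intro t ht
      rcases List.mem_cons.1 ht with rfl | ht
      · rw [hx]
        exact hL y (by simp)
      · exact hL' t ht

/-- Erasing letters does not increase the height. -/
theorem exists_erase [Finite A] (π : A → Option B) (e : GRE B) :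
    ∃ e' : GRE A, e'.sh ≤ e.sh ∧ ∀ w, w ∈ e'.lang ↔ w.filterMap π ∈ e.lang := by
  induction e with
  | zero => exact ⟨GRE.zero, by simp [GRE.sh], fun w => by simp [GRE.lang]⟩
  | one =>
    obtain ⟨e', h0, he'⟩ := sf_erased π
    refine ⟨e', by simp [GRE.sh, h0], fun w => ?_⟩
    rw [he']
    simp [GRE.lang]
  | lit b =>
    obtain ⟨e', h0, he'⟩ := sf_erased_lit π b
    refine ⟨e', by simp [GRE.sh, h0], fun w => ?_⟩
    rw [he']
    simp only [GRE.lang]
    exact Iff.rfl
  | plus P Q hP hQ =>
    obtain ⟨P', h1, h2⟩ := hP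
    obtain ⟨Q', h3, h4⟩ := hQ
    refine ⟨GRE.plus P' Q', ?_, fun w => ?_⟩
    · simp only [GRE.sh]
      omega
    · simp only [GRE.lang, Language.mem_add, h2, h4]
  | mul P Q hP hQ =>
    obtain ⟨P', h1, h2⟩ := hP
    obtain ⟨Q', h3, h4⟩ := hQ
    refine ⟨GRE.mul P' Q', ?_, fun w => ?_⟩
    · simp only [GRE.sh]
      omega
    · simp only [GRE.lang, Language.mem_mul, h2, h4]
      constructor
      · rintro ⟨x, hx, y, hy, rfl⟩
        exact ⟨_, hx, _, hy, by simp [List.filterMap_append]⟩
      · rintro ⟨x, hx, y, hy, hw⟩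
        obtain ⟨x', y', rfl, rfl, rfl⟩ := List.filterMap_eq_append_iff.1 hw.symm
        exact ⟨x', hx, y', hy, rfl⟩
  | compl P hP =>
    obtain ⟨P', h1, h2⟩ := hP
    refine ⟨GRE.compl P', by simpa [GRE.sh] using h1, fun w => ?_⟩
    simp only [GRE.lang]
    exact not_congr (h2 w)
  | star P hP =>
    obtain ⟨P', h1, h2⟩ := hP
    obtain ⟨C, h0, hC⟩ := sf_erased π
    refine ⟨GRE.plus (GRE.star P') C, ?_, fun w => ?_⟩
    · simp only [GRE.sh, h0]
      omega
    · simp only [GRE.lang, Language.mem_add, Language.mem_kstar, hC]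
      constructor
      · rintro (⟨L, rfl, hL⟩ | hw)
        · refine ⟨L.map (fun x => x.filterMap π), ?_, ?_⟩
          · rw [List.filterMap_flatten]
          · intro y hy
            obtain ⟨x, hx, rfl⟩ := List.mem_map.1 hy
            exact (h2 x).1 (hL x hx)
        · exact ⟨[], by simpa using hw, by simp⟩
      · rintro ⟨L, hw, hL⟩
        by_cases hL0 : L = []
        · subst hL0
          exact Or.inr (by simpa using hw)
        · left
          obtain ⟨L', hw', hL'⟩ := filterMap_star_split π (fun y => y ∈ P.lang) L hL0 hL w hw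
          exact ⟨L', hw', fun x hx => (h2 x).2 (hL' x hx)⟩

theorem S1.erase [Finite A] (π : A → Option B) {p : List B → Prop} (h : S1 p) :
    S1 (fun w : List A => p (w.filterMap π)) := by
  obtain ⟨e, he, hw⟩ := h
  obtain ⟨e', he', hw'⟩ := exists_erase π e
  exact ⟨e', he'.trans he, fun w => (hw' w).trans (hw _)⟩

theorem Meas.erase [Finite A] (π : A → Option B) {X : Type} {f : List B → X} (h : Meas f) :
    Meas (fun w : List A => f (w.filterMap π)) :=
  fun x => S1.erase π (h x)

end Vale.Agent.P329
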