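import Vale.Agent.P329.Sch

/-!
The feedback-vertex criterion.  If every run of a word power that avoids a centre state is
eventually constant, then all path languages of the automaton have generalized star height at
most one.  Towers of modular counters over such automata keep this property.
-/

namespace Vale.Agent.P329

variable {A Q : Type}

/-- The automaton with the centre `c` deleted: `some c` is a final state, leaving it kills the
run, and `none` is a sink. -/
noncomputable def del (δ : Q → A → Q) (c : Q) : Option Q → A → Option Q := by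
  classical
  exact fun x a => match x with
    | none => none
    | some q => if q = c then none else some (δ q a)

@[simp] theorem del_none (δ : Q → A → Q) (c : Q) (a : A) : del δ c none a = none := rfl

theorem del_center (δ : Q → A → Q) (c : Q) (a : A) : del δ c (some c) a = none := by
  simp [del]

theorem del_some (δ : Q → A → Q) (c : Q) {q : Q} (h : q ≠ c) (a : A) :
    del δ c (some q) a = some (δ q a) := by
  simp [del, h]

@[simp] theorem run_del_none (δ : Q → A → Q) (c : Q) (w : List A) :
    run (del δ c) none w = none := by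
  induction w with
  | nil => rfl
  | cons a w ih => simpa [run_cons] using ih

/-- No transition of `J` is used on the run from `q` reading `w`. -/
def NoJump (δ : Q → A → Q) (J : Q → A → Prop) : Q → List A → Prop
  | _, [] => True
  | q, a :: w => ¬ J q a ∧ NoJump δ J (δ q a) w

/-- `J` is a set of transitions into the centre `c` and runs of word powers that avoid `J` are
eventually constant. -/
structure Cut (δ : Q → A → Q) (c : Q) (J : Q → A → Prop) : Prop where
  land : ∀ q a, J q a → δ q a = c
  aper : ∀ (u : List A) (q : Q), (∀ k, NoJump δ J ((fun p => run δ p u)^[k] q) u) →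
    ∃ n, (fun p => run δ p u)^[n + 1] q = (fun p => run δ p u)^[n] q

theorem NoJump.mono {δ : Q → A → Q} {J J' : Q → A → Prop} (hJ : ∀ q a, J q a → J' q a)
    {q : Q} {w : List A} (h : NoJump δ J' q w) : NoJump δ J q w := by
  induction w generalizing q with
  | nil => trivial
  | cons a w ih => exact ⟨fun hh => h.1 (hJ _ _ hh), ih h.2⟩

/-- More transitions into the centre may always be added to a cut. -/
theorem Cut.mono {δ : Q → A → Q} {c : Q} {J J' : Q → A → Prop} (h : Cut δ c J)
    (hJ : ∀ q a, J q a → J' q a) (hl : ∀ q a, J' q a → δ q a = c) : Cut δ c J' :=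
  ⟨hl, fun u q hq => h.aper u q (fun k => (hq k).mono hJ)⟩

theorem run_del_ne_none {δ : Q → A → Q} {c : Q} {w : List A} {p : Q}
    (h : run (del δ c) (some p) w ≠ none) : run (del δ c) (some p) w = some (run δ p w) := by
  induction w generalizing p with
  | nil => rfl
  | cons a w ih =>
    by_cases hp : p = c
    · subst hp
      simp [del_center] at h
    · simp only [run_cons, del_some δ c hp] at h ⊢
      exact ih h

theorem run_del_eq_some {δ : Q → A → Q} {c : Q} {w : List A} {p q : Q}
    (h : run (del δ c) (some p) w = some q) : run δ p w = q := by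
  have h' : run (del δ c) (some p) w ≠ none := by rw [h]; simp
  rw [run_del_ne_none h'] at h
  exact Option.some.inj h

theorem run_del_jump {δ : Q → A → Q} {c : Q} {J : Q → A → Prop} (hl : ∀ q a, J q a → δ q a = c)
    {w : List A} {p : Q} (h : run (del δ c) (some p) w ≠ none) (hj : ¬ NoJump δ J p w) :
    run (del δ c) (some p) w = some c := by
  induction w generalizing p with
  | nil => exact absurd trivial hj
  | cons a w ih =>
    by_cases hp : p = c
    · subst hp
      simp [del_center] at h
    · simp only [run_cons, del_some δ c hp] at h ⊢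
      by_cases hJ : J p a
      · rw [hl p a hJ] at h ⊢
        cases w with
        | nil => rfl
        | cons b w => simp [del_center] at h
      · refine ih h (fun hn => hj ⟨hJ, hn⟩)

/-- A cut makes the deleted automaton aperiodic. -/
theorem Cut.aper_del {δ : Q → A → Q} {c : Q} {J : Q → A → Prop} (h : Cut δ c J) :
    Aper (del δ c) := by
  intro u x
  cases u with
  | nil => exact ⟨0, rfl⟩
  | cons a₀ u₀ =>
  set u := a₀ :: u₀ with hu
  let F : Option Q → Option Q := fun p => run (del δ c) p u
  let g : Q → Q := fun p => run δ p u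
  change ∃ n, F^[n + 1] x = F^[n] x
  by_cases hk : ∃ k, F^[k] x = none
  · obtain ⟨k, hk⟩ := hk
    refine ⟨k, ?_⟩
    rw [Function.iterate_succ_apply', hk]
    simp [F]
  · push Not at hk
    cases x with
    | none => exact absurd rfl (hk 0)
    | some q =>
      have hiter : ∀ k, F^[k] (some q) = some (g^[k] q) := by
        intro k
        induction k with
        | zero => rfl
        | succ k ih =>
          have h1 := hk (k + 1)
          rw [Function.iterate_succ_apply'] at h1 ⊢
          rw [ih] at h1 ⊢
          rw [Function.iterate_succ_apply']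
          exact run_del_ne_none h1
      have hcenter : ∀ k, g^[k] q ≠ c := by
        intro k hc
        have h1 := hk (k + 1)
        rw [Function.iterate_succ_apply', hiter, hc] at h1
        exact h1 (by simp [F, hu, del_center])
      have hno : ∀ k, NoJump δ J (g^[k] q) u := by
        intro k
        by_contra hn
        have h1 := hk (k + 1)
        rw [Function.iterate_succ_apply', hiter] at h1
        have h2 := run_del_jump h.land h1 hn
        have h3 := hk (k + 2)
        rw [Function.iterate_succ_apply', Function.iterate_succ_apply', hiter] at h3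
        apply h3
        show run (del δ c) (run (del δ c) (some (g^[k] q)) u) u = none
        rw [h2]
        simp [hu, del_center]
      obtain ⟨n, hn⟩ := h.aper u q hno
      refine ⟨n, ?_⟩
      rw [hiter, hiter]
      exact congrArg some hn

section Main

variable {δ : Q → A → Q} {c : Q}

/-- First visit decomposition. -/
theorem first_visit (w : List A) (q : Q) :
    (∃ w₁ w₂, w = w₁ ++ w₂ ∧ run (del δ c) (some q) w₁ = some c ∧ run δ c w₂ = run δ q w) ∨
    (run (del δ c) (some q) w = some (run δ q w) ∧ run δ q w ≠ c) := by
  induction w generalizing q with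
  | nil =>
    by_cases hq : q = c
    · subst hq
      exact Or.inl ⟨[], [], rfl, rfl, rfl⟩
    · exact Or.inr ⟨rfl, hq⟩
  | cons a w ih =>
    by_cases hq : q = c
    · subst hq
      exact Or.inl ⟨[], a :: w, rfl, rfl, rfl⟩
    · rcases ih (δ q a) with ⟨w₁, w₂, rfl, h1, h2⟩ | ⟨h1, h2⟩
      · left
        refine ⟨a :: w₁, w₂, rfl, ?_, h2⟩
        simp only [run_cons, del_some δ c hq]
        exact h1
      · right
        refine ⟨?_, h2⟩
        simp only [run_cons, del_some δ c hq]
        exact h1

variable [Finite Q] [Finite A]

/-- The loops at the centre form the star of a star-free language. -/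
theorem s1_center_loop (hA : Aper (del δ c)) : S1 (fun w : List A => run δ c w = c) := by
  have hY : ∀ q, SF (fun w : List A => run (del δ c) (some q) w = some c) :=
    fun q => aper_sf _ hA _ _
  have hX : SF (fun w : List A => ∃ a : A, ∃ x y, w = x ++ y ∧ x = [a] ∧
      run (del δ c) (some (δ c a)) y = some c) :=
    SF.fin_exists (fun a => (SF.lit a).cat (hY _))
  refine (S1.star hX).congr (fun w => ?_)
  constructor
  · rintro ⟨L, rfl, hL⟩
    induction L with
    | nil => rfl
    | cons y L ih =>
      obtain ⟨a, x, z, rfl, rfl, hz⟩ := hL y (by simp)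
      have h1 := run_del_eq_some hz
      rw [List.flatten_cons, run_append]
      simp only [List.singleton_append, run_cons, h1]
      exact ih (fun y hy => hL y (by simp [hy]))
  · intro hw
    induction hlen : w.length using Nat.strong_induction_on generalizing w with
    | _ m ih =>
    cases w with
    | nil => exact ⟨[], rfl, by simp⟩
    | cons a w' =>
      rcases first_visit (δ := δ) (c := c) w' (δ c a) with ⟨w₁, w₂, rfl, h1, h2⟩ | ⟨-, h2⟩
      · have h3 : run δ c w₂ = c := by rw [h2]; exact hw
        obtain ⟨L, hL, hL'⟩ := ih w₂.length (by simp at hlen; omega) w₂ h3 rfl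
        refine ⟨(a :: w₁) :: L, by simp [hL], ?_⟩
        intro y hy
        rcases List.mem_cons.1 hy with rfl | hy
        · exact ⟨a, [a], w₁, rfl, rfl, h1⟩
        · exact hL' y hy
      · exact absurd hw h2

/-- All path languages starting at the centre. -/
theorem s1_center_any (hA : Aper (del δ c)) (q' : Q) : S1 (fun w : List A => run δ c w = q') := by
  have hAv : ∀ q, SF (fun w : List A => run (del δ c) (some q) w = some q' ∧ q' ≠ c) :=
    fun q => (aper_sf _ hA _ _).and (SF.const _)
  have hZ : SF (fun w : List A => (w = [] ∧ q' = c) ∨ ∃ a : A, ∃ x y, w = x ++ y ∧ x = [a] ∧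
      (run (del δ c) (some (δ c a)) y = some q' ∧ q' ≠ c)) :=
    (SF.nil.and (SF.const _)).or (SF.fin_exists (fun a => (SF.lit a).cat (hAv _)))
  refine ((s1_center_loop hA).cat (S1.of_SF hZ)).congr (fun w => ?_)
  constructor
  · rintro ⟨x, y, rfl, hx, ⟨rfl, rfl⟩ | ⟨a, z, y', rfl, rfl, hy, -⟩⟩
    · simpa using hx
    · have h1 := run_del_eq_some hy
      simp only [run_append, hx, List.singleton_append, run_cons, h1]
  · intro hw
    induction hlen : w.length using Nat.strong_induction_on generalizing w with
    | _ m ih =>
    cases w with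
    | nil => exact ⟨[], [], rfl, rfl, Or.inl ⟨rfl, hw.symm⟩⟩
    | cons a w' =>
      rcases first_visit (δ := δ) (c := c) w' (δ c a) with ⟨w₁, w₂, rfl, h1, h2⟩ | ⟨h1, h2⟩
      · have h3 : run δ c w₂ = q' := by rw [h2]; exact hw
        obtain ⟨x, y, rfl, hx, hy⟩ := ih w₂.length (by simp at hlen; omega) w₂ h3 rfl
        refine ⟨a :: (w₁ ++ x), y, by simp, ?_, hy⟩
        simp only [run_cons, run_append, run_del_eq_some h1, hx]
      · have h3 : run δ (δ c a) w' = q' := hw
        rw [h3] at h1 h2
        exact ⟨[], a :: w', rfl, rfl, Or.inr ⟨a, [a], w', rfl, rfl, h1, h2⟩⟩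

/-- The feedback-vertex criterion: if the automaton with one state deleted is aperiodic then all
path languages have generalized star height at most one. -/
theorem s1_of_aper_del (hA : Aper (del δ c)) (q q' : Q) : S1 (fun w : List A => run δ q w = q') := by
  have h1 : SF (fun w : List A => run (del δ c) (some q) w = some q' ∧ q' ≠ c) :=
    (aper_sf _ hA _ _).and (SF.const _)
  have h2 : SF (fun w : List A => run (del δ c) (some q) w = some c) := aper_sf _ hA _ _
  refine ((S1.of_SF h1).or ((S1.of_SF h2).cat (s1_center_any hA q'))).congr (fun w => ?_)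
  constructor
  · rintro (⟨h, -⟩ | ⟨x, y, rfl, hx, hy⟩)
    · exact run_del_eq_some h
    · simp only [run_append, run_del_eq_some hx, hy]
  · intro hw
    rcases first_visit (δ := δ) (c := c) w q with ⟨w₁, w₂, rfl, h3, h4⟩ | ⟨h3, h4⟩
    · right
      exact ⟨w₁, w₂, rfl, h3, by rw [h4, hw]⟩
    · left
      rw [hw] at h3 h4
      exact ⟨h3, h4⟩

theorem Cut.s1 {J : Q → A → Prop} (h : Cut δ c J) (q q' : Q) :
    S1 (fun w : List A => run δ q w = q') :=
  s1_of_aper_del h.aper_del q q'

end Main

/-! ### Counters over cuts -/

open Classical in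
/-- The number of transitions of `J` used on the run from `q` reading `w`. -/
noncomputable def jc (δ : Q → A → Q) (J : Q → A → Prop) : Q → List A → ℕ
  | _, [] => 0
  | q, a :: w => (if J q a then 1 else 0) + jc δ J (δ q a) w

/-- Add a counter modulo `n`, increased along the transitions of `J`. -/
noncomputable def up (δ : Q → A → Q) (J : Q → A → Prop) (n : ℕ) : Q × ZMod n → A → Q × ZMod n := by
  classical
  exact fun s a => (δ s.1 a, if J s.1 a then s.2 + 1 else s.2)

/-- The carry transitions of the counter. -/
def carry (J : Q → A → Prop) (n : ℕ) : Q × ZMod n → A → Prop :=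
  fun s a => J s.1 a ∧ s.2 + 1 = 0

@[simp] theorem up_fst (δ : Q → A → Q) (J : Q → A → Prop) (n : ℕ) (s : Q × ZMod n) (a : A) :
    (up δ J n s a).1 = δ s.1 a := rfl

theorem up_snd_jump {δ : Q → A → Q} {J : Q → A → Prop} {n : ℕ} {s : Q × ZMod n} {a : A}
    (h : J s.1 a) : (up δ J n s a).2 = s.2 + 1 := by
  simp [up, h]

theorem up_snd_nojump {δ : Q → A → Q} {J : Q → A → Prop} {n : ℕ} {s : Q × ZMod n} {a : A}
    (h : ¬ J s.1 a) : (up δ J n s a).2 = s.2 := by
  simp [up, h]

theorem run_up_fst (δ : Q → A → Q) (J : Q → A → Prop) (n : ℕ) (w : List A) (s : Q × ZMod n) :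
    (run (up δ J n) s w).1 = run δ s.1 w := by
  induction w generalizing s with
  | nil => rfl
  | cons a w ih => simp only [run_cons, ih, up_fst]

theorem val_step {n : ℕ} [NeZero n] {y : ZMod n} (hy : y ≠ 0) : (y - 1).val + 1 = y.val := by
  have hpos : 0 < y.val := Nat.pos_of_ne_zero (by simpa [ZMod.val_eq_zero] using hy)
  have hn : 1 < n := by
    by_contra hcon
    have h1 : n = 1 := by
      have := NeZero.pos n
      omega
    subst h1
    exact hy (Subsingleton.elim _ _)
  have : Fact (1 < n) := ⟨hn⟩
  have h1 : (1 : ZMod n).val = 1 := ZMod.val_one n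
  have h2 : (y - 1).val = y.val - (1 : ZMod n).val := ZMod.val_sub (by omega)
  omega

/-- The potential: how many increments are still possible before the carry. -/
def pot {n : ℕ} (t : ZMod n) : ℕ := (-1 - t).val

theorem pot_step {n : ℕ} [NeZero n] {t : ZMod n} (h : t + 1 ≠ 0) : pot (t + 1) + 1 = pot t := by
  have h1 : (-1 - t : ZMod n) ≠ 0 := by
    intro h2
    apply h
    linear_combination -h2
  have h2 := val_step h1
  have h3 : (-1 - t - 1 : ZMod n) = -1 - (t + 1) := by ring
  rw [h3] at h2
  exact h2

theorem noJump_up_step {δ : Q → A → Q} {J : Q → A → Prop} {n : ℕ} [NeZero n] {w : List A}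
    {s : Q × ZMod n} (h : NoJump (up δ J n) (carry J n) s w) :
    pot (run (up δ J n) s w).2 ≤ pot s.2 ∧
    (¬ NoJump δ J s.1 w → pot (run (up δ J n) s w).2 < pot s.2) ∧
    (NoJump δ J s.1 w → (run (up δ J n) s w).2 = s.2) := by
  induction w generalizing s with
  | nil => exact ⟨le_refl _, fun h => absurd trivial h, fun _ => rfl⟩
  | cons a w ih =>
    obtain ⟨h0, h1⟩ := h
    obtain ⟨i1, i2, i3⟩ := ih h1
    simp only [run_cons] at i1 i2 i3 ⊢
    rw [up_fst] at i2 i3
    by_cases hJ : J s.1 a
    · have h2 : s.2 + 1 ≠ 0 := fun hh => h0 ⟨hJ, hh⟩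
      have h3 := pot_step h2
      rw [up_snd_jump hJ] at i1 i2 i3
      refine ⟨by omega, fun _ => by omega, fun hn => absurd hJ hn.1⟩
    · rw [up_snd_nojump hJ] at i1 i2 i3
      refine ⟨i1, fun hn => i2 (fun hm => hn ⟨hJ, hm⟩), fun hn => i3 hn.2⟩

/-- Towers: a modular counter over a cut has the carries as a cut. -/
theorem Cut.tower {δ : Q → A → Q} {c : Q} {J : Q → A → Prop} (h : Cut δ c J) (n : ℕ) [NeZero n] :
    Cut (up δ J n) (c, 0) (carry J n) := by
  refine ⟨?_, ?_⟩
  · rintro s a ⟨hJ, h0⟩
    apply Prod.ext
    · exact h.land _ _ hJ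
    · rw [up_snd_jump hJ]
      exact h0
  · intro u s hs
    let F : Q × ZMod n → Q × ZMod n := fun p => run (up δ J n) p u
    let g : Q → Q := fun p => run δ p u
    have hfst : ∀ (k : ℕ) (s : Q × ZMod n), (F^[k] s).1 = g^[k] s.1 := by
      intro k
      induction k with
      | zero => intro s; rfl
      | succ k ih =>
        intro s
        rw [Function.iterate_succ_apply', Function.iterate_succ_apply', ← ih]
        exact run_up_fst δ J n u _
    change ∃ m, F^[m + 1] s = F^[m] s
    change ∀ k, NoJump (up δ J n) (carry J n) (F^[k] s) u at hs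
    induction hm : pot s.2 using Nat.strong_induction_on generalizing s with
    | _ m ih =>
    have hmono : ∀ k, pot (F^[k] s).2 ≤ pot s.2 := by
      intro k
      induction k with
      | zero => exact le_refl _
      | succ k ih2 =>
        rw [Function.iterate_succ_apply']
        exact (noJump_up_step (hs k)).1.trans ih2
    by_cases hk : ∃ k, ¬ NoJump δ J (F^[k] s).1 u
    · obtain ⟨k, hk⟩ := hk
      have h1 : pot (F^[k + 1] s).2 < m := by
        rw [Function.iterate_succ_apply', ← hm]
        exact lt_of_lt_of_le ((noJump_up_step (hs k)).2.1 hk) (hmono k)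
      have h2 : ∀ k', NoJump (up δ J n) (carry J n) (F^[k'] (F^[k + 1] s)) u := by
        intro k'
        rw [← Function.iterate_add_apply]
        exact hs _
      obtain ⟨N, hN⟩ := ih _ h1 (F^[k + 1] s) h2 rfl
      refine ⟨N + (k + 1), ?_⟩
      have e1 : F^[N + (k + 1) + 1] s = F^[N + 1] (F^[k + 1] s) := by
        rw [← Function.iterate_add_apply]
        congr 1
        omega
      rw [e1, hN, ← Function.iterate_add_apply]
    · push Not at hk
      have hsnd : ∀ k, (F^[k] s).2 = s.2 := by
        intro k
        induction k with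
        | zero => rfl
        | succ k ih2 =>
          rw [Function.iterate_succ_apply']
          rw [← ih2]
          exact (noJump_up_step (hs k)).2.2 (hk k)
      have hg : ∀ k, NoJump δ J (g^[k] s.1) u := by
        intro k
        rw [← hfst]
        exact hk k
      obtain ⟨N, hN⟩ := h.aper u s.1 hg
      refine ⟨N, Prod.ext ?_ ?_⟩
      · rw [hfst, hfst]
        exact hN
      · rw [hsnd, hsnd]

/-- The counter is what it says. -/
theorem run_up_snd_eq_jc (δ : Q → A → Q) (J : Q → A → Prop) (n : ℕ) (w : List A) (q : Q)
    (t : ZMod n) : (run (up δ J n) (q, t) w).2 = t + (jc δ J q w : ZMod n) := by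
  classical
  induction w generalizing q t with
  | nil => simp [jc]
  | cons a w ih =>
    have : up δ J n (q, t) a = (δ q a, if J q a then t + 1 else t) := rfl
    simp only [run_cons, this, ih, jc]
    by_cases hJ : J q a <;> simp [hJ]
    ring

/-- Base of the towers: one state, any set of letters as jumps. -/
theorem cut_unit (F : A → Prop) : Cut (fun (_ : Unit) (_ : A) => ()) () (fun _ a => F a) :=
  ⟨fun _ _ _ => rfl, fun _ _ _ => ⟨0, rfl⟩⟩

end Vale.Agent.P329
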