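import Vale.Agent.P329.Feedback

/-!
Functions on words all of whose fibres have generalized star height at most one, and the
counting of transitions into the centre of a cut.
-/

namespace Vale.Agent.P329

variable {A : Type}

/-- All fibres of `f` have generalized star height at most one. -/
def Meas {X : Type} (f : List A → X) : Prop := ∀ x, S1 (fun w => f w = x)

theorem Meas.comp {X Y : Type} [Finite X] {f : List A → X} (hf : Meas f) (g : X → Y) :
    Meas (fun w => g (f w)) := by
  intro y
  have : S1 (fun w => ∃ x : X, f w = x ∧ g x = y) :=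
    S1.fin_exists (fun x => (hf x).and (S1.const _))
  refine this.congr (fun w => ?_)
  constructor
  · rintro ⟨x, rfl, h⟩
    exact h
  · intro h
    exact ⟨_, rfl, h⟩

theorem Meas.pair {X Y : Type} {f : List A → X} {g : List A → Y} (hf : Meas f) (hg : Meas g) :
    Meas (fun w => (f w, g w)) := by
  rintro ⟨x, y⟩
  refine ((hf x).and (hg y)).congr (fun w => ?_)
  simp [Prod.ext_iff]

theorem Meas.map₂ {X Y Z : Type} [Finite X] [Finite Y] {f : List A → X} {g : List A → Y}
    (hf : Meas f) (hg : Meas g) (k : X → Y → Z) : Meas (fun w => k (f w) (g w)) :=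
  (hf.pair hg).comp (fun p => k p.1 p.2)

theorem Meas.const {X : Type} (x₀ : X) : Meas (fun _ : List A => x₀) :=
  fun _ => S1.const _

section Ring

variable {n : ℕ} [NeZero n]

theorem Meas.add {f g : List A → ZMod n} (hf : Meas f) (hg : Meas g) :
    Meas (fun w => f w + g w) := hf.map₂ hg _

theorem Meas.sub {f g : List A → ZMod n} (hf : Meas f) (hg : Meas g) :
    Meas (fun w => f w - g w) := hf.map₂ hg _

theorem Meas.mul {f g : List A → ZMod n} (hf : Meas f) (hg : Meas g) :
    Meas (fun w => f w * g w) := hf.map₂ hg _

theorem Meas.finset_sum {ι : Type} (s : Finset ι) {f : ι → List A → ZMod n}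
    (h : ∀ i, Meas (f i)) : Meas (fun w => ∑ i ∈ s, f i w) := by
  classical
  induction s using Finset.induction_on with
  | empty => simpa using Meas.const (0 : ZMod n)
  | insert a s ha ih =>
    have := (h a).add ih
    simpa [Finset.sum_insert ha] using this

end Ring

theorem Meas.congr {X : Type} {f g : List A → X} (h : ∀ w, f w = g w) (hf : Meas f) : Meas g := by
  have : f = g := funext h
  rwa [← this]

/-- Reduction of the modulus. -/
theorem Meas.cast_of_dvd {n N : ℕ} [NeZero N] {f : List A → ℕ} (hd : n ∣ N)
    (hf : Meas (fun w => (f w : ZMod N))) : Meas (fun w => (f w : ZMod n)) := by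
  refine (hf.comp (ZMod.castHom hd (ZMod n))).congr (fun w => ?_)
  simp

section Cut

variable {Q : Type} {δ : Q → A → Q} {c : Q} {J : Q → A → Prop}

/-- The number of cut transitions along a run, modulo `n`, is measurable. -/
theorem Cut.meas_jc [Finite Q] [Finite A] (h : Cut δ c J) (n : ℕ) [NeZero n] (q : Q) :
    Meas (fun w => (jc δ J q w : ZMod n)) := by
  intro t
  have hT := h.tower n
  have : S1 (fun w : List A => ∃ q' : Q, run (up δ J n) (q, 0) w = (q', t)) :=
    S1.fin_exists (fun q' => hT.s1 _ _)
  refine this.congr (fun w => ?_)
  have h2 := run_up_snd_eq_jc δ J n w q 0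
  rw [zero_add] at h2
  constructor
  · rintro ⟨q', h1⟩
    rw [h1] at h2
    exact h2.symm
  · intro h1
    refine ⟨(run (up δ J n) (q, 0) w).1, Prod.ext rfl ?_⟩
    rw [h2]
    exact h1

theorem jc_union (δ : Q → A → Q) {J F : Q → A → Prop} (hd : ∀ q a, F q a → ¬ J q a) (q : Q)
    (w : List A) :
    jc δ (fun q a => J q a ∨ F q a) q w = jc δ J q w + jc δ F q w := by
  classical
  induction w generalizing q with
  | nil => rfl
  | cons a w ih =>
    simp only [jc, ih]
    by_cases h1 : J q a
    · have h2 : ¬ F q a := fun h => hd q a h h1
      simp [h1, h2]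
      ring
    · by_cases h2 : F q a
      · simp [h1, h2]
        ring
      · simp [h1, h2]

/-- Any set of transitions into the centre, disjoint from the cut, can be counted modulo `n`. -/
theorem Cut.meas_free [Finite Q] [Finite A] (h : Cut δ c J) {F : Q → A → Prop} (hF : ∀ q a, F q a → δ q a = c)
    (hd : ∀ q a, F q a → ¬ J q a) (n : ℕ) [NeZero n] (q : Q) :
    Meas (fun w => (jc δ F q w : ZMod n)) := by
  have h1 : Cut δ c (fun q a => J q a ∨ F q a) :=
    h.mono (fun _ _ hh => Or.inl hh) (fun q a hh => hh.elim (h.land q a) (hF q a))
  refine ((h1.meas_jc n q).sub (h.meas_jc n q)).congr (fun w => ?_)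
  rw [jc_union δ hd]
  push_cast
  ring

end Cut

open Classical in
/-- The number of letters of `w` satisfying `B`. -/
noncomputable def cnt (B : A → Prop) (w : List A) : ℕ := w.countP (fun a => decide (B a))

open Classical in
theorem cnt_cons (B : A → Prop) (a : A) (w : List A) :
    cnt B (a :: w) = (if B a then 1 else 0) + cnt B w := by
  by_cases h : B a <;> simp [cnt, h, add_comm]

open Classical in
theorem cnt_snoc (B : A → Prop) (a : A) (w : List A) :
    cnt B (w ++ [a]) = cnt B w + (if B a then 1 else 0) := by
  by_cases h : B a <;> simp [cnt, List.countP_append, h]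

@[simp] theorem cnt_nil (B : A → Prop) : cnt B ([] : List A) = 0 := rfl

/-- Sum over the occurrences of the letter `c` of a function of the prefix before it. -/
noncomputable def psumRev {R : Type} [AddCommMonoid R] [DecidableEq A] (c : A) (g : List A → R) :
    List A → R
  | [] => 0
  | a :: r => psumRev c g r + if a = c then g r.reverse else 0

/-- Sum over the occurrences of the letter `c` of a function of the prefix before it. -/
noncomputable def psum {R : Type} [AddCommMonoid R] [DecidableEq A] (c : A) (g : List A → R)
    (w : List A) : R := psumRev c g w.reverse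

section Psum

variable {R : Type} [DecidableEq A]

@[simp] theorem psum_nil [AddCommMonoid R] (c : A) (g : List A → R) : psum c g [] = 0 := rfl

theorem psum_snoc [AddCommMonoid R] (c : A) (g : List A → R) (w : List A) (a : A) :
    psum c g (w ++ [a]) = psum c g w + if a = c then g w else 0 := by
  simp [psum, psumRev]

theorem psum_add [AddCommMonoid R] (c : A) (g g' : List A → R) (w : List A) :
    psum c (fun p => g p + g' p) w = psum c g w + psum c g' w := by
  induction w using List.reverseRecOn with
  | nil => simp
  | append_singleton w a ih =>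
    rw [psum_snoc, psum_snoc, psum_snoc, ih]
    by_cases h : a = c <;> simp [h, add_assoc, add_left_comm, add_comm]

theorem psum_sub [AddCommGroup R] (c : A) (g g' : List A → R) (w : List A) :
    psum c (fun p => g p - g' p) w = psum c g w - psum c g' w := by
  induction w using List.reverseRecOn with
  | nil => simp
  | append_singleton w a ih =>
    rw [psum_snoc, psum_snoc, psum_snoc, ih]
    by_cases h : a = c
    · simp [h]
      abel
    · simp [h]

theorem psum_congr [AddCommMonoid R] (c : A) {g g' : List A → R} (h : ∀ p, g p = g' p)
    (w : List A) : psum c g w = psum c g' w := by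
  rw [funext h]

end Psum

section TheoremA

/-- The modular counter on one state. -/
noncomputable def phaseAut (B : A → Prop) (m : ℕ) : Unit × ZMod m → A → Unit × ZMod m :=
  up (fun (_ : Unit) (_ : A) => ()) (fun _ a => B a) m

theorem phaseAut_cut (B : A → Prop) (m : ℕ) [NeZero m] :
    Cut (phaseAut B m) ((), 0) (carry (fun _ a => B a) m) :=
  (cut_unit B).tower m

theorem run_phaseAut (B : A → Prop) (m : ℕ) (w : List A) (s : Unit × ZMod m) :
    (run (phaseAut B m) s w).2 = s.2 + (cnt B w : ZMod m) := by
  classical
  induction w generalizing s with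
  | nil => simp
  | cons a w ih =>
    simp only [run_cons, ih, cnt_cons]
    by_cases h : B a
    · have : (phaseAut B m s a).2 = s.2 + 1 := up_snd_jump h
      rw [this]
      simp [h]
      ring
    · have : (phaseAut B m s a).2 = s.2 := up_snd_nojump h
      rw [this]
      simp [h]

open Classical in
theorem jc_snoc {Q : Type} (δ : Q → A → Q) (J : Q → A → Prop) (q : Q) (w : List A) (a : A) :
    jc δ J q (w ++ [a]) = jc δ J q w + (if J (run δ q w) a then 1 else 0) := by
  induction w generalizing q with
  | nil =>
    simp only [List.nil_append, jc, run_nil, add_zero, zero_add]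
    congr
  | cons b w ih =>
    simp only [List.cons_append, jc, ih, run_cons, add_assoc]
    congr

/-- Theorem A: occurrences of the letter `c` in a given phase of the count of `B`, modulo `n`. -/
theorem meas_phase_count [Finite A] [DecidableEq A] (c : A) (B : A → Prop) (hc : ¬ B c) (m n : ℕ) [NeZero m]
    [NeZero n] (x : ZMod m) :
    Meas (fun w => psum c (fun p => if x + (cnt B p : ZMod m) = 0 then (1 : ZMod n) else 0) w) := by
  classical
  let F : Unit × ZMod m → A → Prop := fun s a => a = c ∧ s.2 = 0
  have hF : ∀ q a, F q a → phaseAut B m q a = ((), 0) := by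
    rintro ⟨⟨⟩, t⟩ a ⟨rfl, ht⟩
    refine Prod.ext rfl ?_
    have : (phaseAut B m ((), t) a).2 = t := up_snd_nojump hc
    rw [this]
    exact ht
  have hd : ∀ q a, F q a → ¬ carry (fun _ a => B a) m q a := by
    rintro q a ⟨rfl, -⟩ ⟨h, -⟩
    exact hc h
  have h1 := (phaseAut_cut B m).meas_free hF hd n ((), x)
  refine h1.congr (fun w => ?_)
  induction w using List.reverseRecOn with
  | nil => simp [jc]
  | append_singleton w a ih =>
    rw [jc_snoc, psum_snoc, ← ih]
    push_cast
    congr 1
    have h2 := run_phaseAut B m w ((), x)
    by_cases ha : a = c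
    · simp only [F, ha, true_and, h2, if_true]
    · simp [F, ha]

/-- Theorem A, general weights. -/
theorem meas_psum_phase [Finite A] [DecidableEq A] (c : A) (B : A → Prop) (hc : ¬ B c) (m n : ℕ) [NeZero m]
    [NeZero n] (h : ZMod m → ZMod n) :
    Meas (fun w => psum c (fun p => h (cnt B p : ZMod m)) w) := by
  classical
  have h1 : Meas (fun w => ∑ τ : ZMod m, h τ *
      psum c (fun p => if -τ + (cnt B p : ZMod m) = 0 then (1 : ZMod n) else 0) w) := by
    refine Meas.finset_sum _ (fun τ => ?_)
    exact (Meas.const (h τ)).mul (meas_phase_count c B hc m n (-τ))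
  refine h1.congr (fun w => ?_)
  induction w using List.reverseRecOn with
  | nil => simp
  | append_singleton w a ih =>
    rw [psum_snoc, ← ih]
    simp only [psum_snoc, mul_add, Finset.sum_add_distrib]
    congr 1
    by_cases ha : a = c
    · simp only [ha, if_true]
      rw [Finset.sum_eq_single ((cnt B w : ℕ) : ZMod m)]
      · simp
      · intro b _ hb
        have : -b + ((cnt B w : ℕ) : ZMod m) ≠ 0 := by
          intro h0
          apply hb
          linear_combination -h0
        simp [this]
      · simp
    · simp [ha]

end TheoremA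

end Vale.Agent.P329
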