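import Vale.Agent.P329.Erase

/-!
Integer valued functions on words all of whose reductions are measurable.  They form a ring, and
this ring is closed under division by nonzero integers.
-/

namespace Vale.Agent.P329

variable {A : Type}

/-- All reductions of the integer function `F` are measurable. -/
def MeasZ (F : List A → ℤ) : Prop := ∀ (M : ℕ) [NeZero M], Meas (fun w => ((F w : ℤ) : ZMod M))

theorem MeasZ.congr {F G : List A → ℤ} (h : ∀ w, F w = G w) (hF : MeasZ F) : MeasZ G := by
  have : F = G := funext h
  rwa [← this]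

theorem MeasZ.const (k : ℤ) : MeasZ (fun _ : List A => k) := fun M _ => Meas.const _

theorem MeasZ.add {F G : List A → ℤ} (hF : MeasZ F) (hG : MeasZ G) :
    MeasZ (fun w => F w + G w) := fun M _ =>
  ((hF M).add (hG M)).congr (fun w => by push_cast; rfl)

theorem MeasZ.sub {F G : List A → ℤ} (hF : MeasZ F) (hG : MeasZ G) :
    MeasZ (fun w => F w - G w) := fun M _ =>
  ((hF M).sub (hG M)).congr (fun w => by push_cast; rfl)

theorem MeasZ.mul {F G : List A → ℤ} (hF : MeasZ F) (hG : MeasZ G) :
    MeasZ (fun w => F w * G w) := fun M _ =>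
  ((hF M).mul (hG M)).congr (fun w => by push_cast; rfl)

theorem MeasZ.pow {F : List A → ℤ} (hF : MeasZ F) (k : ℕ) : MeasZ (fun w => F w ^ k) := by
  induction k with
  | zero => simpa using MeasZ.const (1 : ℤ)
  | succ k ih => exact (ih.mul hF).congr (fun w => by ring)

theorem MeasZ.smul {F : List A → ℤ} (k : ℤ) (hF : MeasZ F) : MeasZ (fun w => k * F w) :=
  (MeasZ.const k).mul hF

theorem MeasZ.neg {F : List A → ℤ} (hF : MeasZ F) : MeasZ (fun w => - F w) :=
  ((MeasZ.const 0).sub hF).congr (fun w => by ring)

theorem MeasZ.finset_sum {ι : Type} (s : Finset ι) {F : ι → List A → ℤ} (h : ∀ i, MeasZ (F i)) :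
    MeasZ (fun w => ∑ i ∈ s, F i w) := by
  classical
  induction s using Finset.induction_on with
  | empty => simpa using MeasZ.const (0 : ℤ)
  | insert a s ha ih =>
    have := (h a).add ih
    simpa [Finset.sum_insert ha] using this

/-- Division by a positive integer. -/
theorem MeasZ.scale {k : ℕ} (hk : 0 < k) {F : List A → ℤ} (h : MeasZ (fun w => (k : ℤ) * F w)) :
    MeasZ F := by
  intro M _
  have hM : NeZero (k * M) := ⟨by simp [hk.ne', NeZero.ne M]⟩
  have h1 := h (k * M)
  refine (h1.comp (fun t => ((t.val / k : ℕ) : ZMod M))).congr (fun w => ?_)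
  set x := F w
  have hkz : (0 : ℤ) < (k : ℤ) := by exact_mod_cast hk
  have hMz : (0 : ℤ) < (M : ℤ) := by exact_mod_cast Nat.pos_of_ne_zero (NeZero.ne M)
  have hv : ((((k : ℤ) * x : ℤ) : ZMod (k * M)).val : ℤ) = (k : ℤ) * (x % (M : ℤ)) := by
    rw [ZMod.val_intCast]
    push_cast
    rw [Int.mul_emod_mul_of_pos _ _ hkz]
  show ((((((k : ℤ) * x : ℤ) : ZMod (k * M)).val / k : ℕ)) : ZMod M) = _
  generalize (((k : ℤ) * x : ℤ) : ZMod (k * M)).val = v at hv
  have hq : ((v / k : ℕ) : ℤ) = x % (M : ℤ) := by
    rw [Int.natCast_ediv, hv, Int.mul_ediv_cancel_left _ hkz.ne']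
  have h2 : ((v / k : ℕ) : ZMod M) = (((v / k : ℕ) : ℤ) : ZMod M) := (Int.cast_natCast _).symm
  rw [h2, hq, ZMod.intCast_mod]

section Psum

variable [DecidableEq A]

theorem psum_smul (c : A) (k : ℤ) (g : List A → ℤ) (w : List A) :
    psum c (fun p => k * g p) w = k * psum c g w := by
  induction w using List.reverseRecOn with
  | nil => simp
  | append_singleton w a ih =>
    rw [psum_snoc, psum_snoc, ih]
    by_cases h : a = c <;> simp [h, mul_add]

theorem psum_cast (c : A) (g : List A → ℤ) (M : ℕ) (w : List A) :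
    ((psum c g w : ℤ) : ZMod M) = psum c (fun p => ((g p : ℤ) : ZMod M)) w := by
  induction w using List.reverseRecOn with
  | nil => simp
  | append_singleton w a ih =>
    rw [psum_snoc, psum_snoc]
    push_cast
    rw [ih]

theorem psum_finset_sum {R ι : Type} [AddCommMonoid R] (c : A) (s : Finset ι) (g : ι → List A → R)
    (w : List A) : psum c (fun p => ∑ i ∈ s, g i p) w = ∑ i ∈ s, psum c (g i) w := by
  induction w using List.reverseRecOn with
  | nil => simp
  | append_singleton w a ih =>
    simp only [psum_snoc, ih, Finset.sum_add_distrib]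
    by_cases h : a = c <;> simp [h]

/-- The counts of a letter. -/
def nn (b : A) (p : List A) : ℤ := (p.count b : ℤ)

@[simp] theorem nn_nil (b : A) : nn b [] = 0 := rfl

theorem nn_snoc (b : A) (p : List A) (a : A) : nn b (p ++ [a]) = nn b p + if a = b then 1 else 0 := by
  unfold nn
  rw [List.count_append, List.count_singleton]
  by_cases h : a = b <;> simp [h]

theorem nn_cons (b : A) (a : A) (p : List A) : nn b (a :: p) = nn b p + if a = b then 1 else 0 := by
  unfold nn
  rw [List.count_cons]
  by_cases h : a = b <;> simp [h]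

theorem nn_eq_cnt (b : A) (p : List A) : nn b p = (cnt (fun a => a = b) p : ℕ) := by
  classical
  induction p using List.reverseRecOn with
  | nil => simp [cnt]
  | append_singleton w a ih =>
    rw [nn_snoc, cnt_snoc, ih]
    by_cases h : a = b <;> simp [h]

theorem measZ_nn [Finite A] (b : A) : MeasZ (nn b) := by
  intro M _
  refine (meas_cnt (fun a => a = b) M).congr (fun w => ?_)
  rw [nn_eq_cnt]
  simp

end Psum

end Vale.Agent.P329
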