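import Vale.Agent.P329.Radon

/-!
Groups with an abelian normal subgroup whose quotient is an elementary abelian group.
-/

namespace Vale.Agent.P329

variable {A : Type}

theorem Meas.pi {ι X : Type} [Finite ι] {f : List A → ι → X} (h : ∀ i, Meas (fun w => f w i)) :
    Meas f := by
  intro g
  have : S1 (fun w => ∀ i, f w i = g i) := S1.fin_forall (fun i => h i (g i))
  exact this.congr (fun w => funext_iff.symm)

theorem hasGSH_of_meas {X : Type} [Finite X] {f : List A → X} (h : Meas f) (S : Set X) :
    HasGSH 1 ({w | f w ∈ S} : Language A) := by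
  refine hasGSH_of_S1 (p := fun w => f w ∈ S) ?_
  have h1 : S1 (fun w => ∃ x : X, f w = x ∧ x ∈ S) :=
    S1.fin_exists (fun x => (h x).and (S1.const _))
  refine h1.congr (fun w => ?_)
  constructor
  · rintro ⟨x, rfl, hx⟩
    exact hx
  · intro hx
    exact ⟨_, rfl, hx⟩

section Group

variable {G E K : Type} [Group G] [AddCommGroup E] [CommGroup K]

/-- The product of a word in a group that is an extension of an elementary abelian group by an
abelian group is measurable. -/
theorem meas_group (p : ℕ) [Fact p.Prime] [Module (ZMod p) E] [Finite A] [Finite E] [Finite K]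
    (ι : K →* G) (π : G → E) (hπ : ∀ g h, π (g * h) = π g + π h)
    (hsurj : Function.Surjective π) (hker : ∀ g, π g = 0 → ∃ k, ι k = g) (φ : A → G) :
    Meas (fun w : List A => (w.map φ).prod) := by
  classical
  have := Fintype.ofFinite E
  have := Fintype.ofFinite A
  choose s hs using hsurj
  have hπ1 : π 1 = 0 := by
    have := hπ 1 1
    simpa using this
  have hπinv : ∀ g, π g⁻¹ = - π g := by
    intro g
    have := hπ g⁻¹ g
    rw [inv_mul_cancel, hπ1] at this
    exact eq_neg_of_add_eq_zero_left this.symm
  let e : A → E := fun a => π (φ a)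
  have hprod : ∀ w : List A, π (w.map φ).prod = xi e w := by
    intro w
    induction w with
    | nil => simpa using hπ1
    | cons a w ih => simp [hπ, ih, e]
  have hm : ∀ x a, ∃ k, ι k = s x * φ a * (s (x + e a))⁻¹ := by
    intro x a
    apply hker
    simp [hπ, hπinv, hs, e]
  choose m hm using hm
  have key : ∀ w : List A, s 0 * (w.map φ).prod =
      ι (∏ z : E × A, m z.1 z.2 ^ occ z.2 (fun u => xi e u = z.1) w) * s (xi e w) := by
    intro w
    induction w using List.reverseRecOn with
    | nil => simp
    | append_singleton w a ih =>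
      have h1 : (∏ z : E × A, m z.1 z.2 ^ occ z.2 (fun u => xi e u = z.1) (w ++ [a])) =
          (∏ z : E × A, m z.1 z.2 ^ occ z.2 (fun u => xi e u = z.1) w) * m (xi e w) a := by
        simp only [occ_snoc, pow_add, Finset.prod_mul_distrib]
        congr 1
        rw [Finset.prod_eq_single (xi e w, a)]
        · simp
        · rintro ⟨x, b⟩ _ hne
          have : ¬ (a = b ∧ xi e w = x) := by
            rintro ⟨rfl, rfl⟩
            exact hne rfl
          simp [this]
        · intro h
          exact absurd (Finset.mem_univ _) h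
      rw [h1, map_mul, hm, List.map_append, List.prod_append, xi_append, ← mul_assoc, ih]
      simp [e, xi, mul_assoc]
  let M := Nat.card K
  have : NeZero M := ⟨Nat.card_pos.ne'⟩
  let tup : List A → E × A → ZMod M := fun w z => (occ z.2 (fun u => xi e u = z.1) w : ZMod M)
  have htup : Meas tup := Meas.pi (fun z => meas_occ_xi p e z.2 z.1 M)
  have hxi : Meas (fun w => xi e w) := meas_xi p e
  let F : (E × A → ZMod M) → E → G := fun c x =>
    (s 0)⁻¹ * (ι (∏ z : E × A, m z.1 z.2 ^ (c z).val) * s x)
  refine (htup.map₂ hxi F).congr (fun w => ?_)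
  have h2 : (∏ z : E × A, m z.1 z.2 ^ (tup w z).val) =
      ∏ z : E × A, m z.1 z.2 ^ occ z.2 (fun u => xi e u = z.1) w := by
    refine Finset.prod_congr rfl (fun z _ => ?_)
    simp only [tup]
    rw [ZMod.val_natCast, pow_mod_natCard]
  simp only [F]
  rw [h2, ← key w, inv_mul_cancel_left]

end Group

/-- Every language recognized by a finite group with an abelian normal subgroup whose quotient is
an elementary abelian group has generalized star height at most one. -/
theorem hasGSH_metab {G : Type} [Group G] [Finite G] [Finite A] (N : Subgroup G) [N.Normal]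
    (hN : ∀ x ∈ N, ∀ y ∈ N, x * y = y * x) (p : ℕ) (hp : p.Prime)
    (hQ : ∀ x y : G ⧸ N, x * y = y * x) (hQp : ∀ x : G ⧸ N, x ^ p = 1) (φ : A → G) (S : Set G) :
    HasGSH 1 ({w | (w.map φ).prod ∈ S} : Language A) := by
  have := Fact.mk hp
  let _ : CommGroup (G ⧸ N) := { (inferInstance : Group (G ⧸ N)) with mul_comm := hQ }
  let _ : CommGroup N :=
    { (inferInstance : Group N) with mul_comm := fun x y => Subtype.ext (hN _ x.2 _ y.2) }
  let _ : Module (ZMod p) (Additive (G ⧸ N)) := AddCommGroup.zmodModule (fun x => by
    change Additive.ofMul (x.toMul ^ p) = 0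
    rw [hQp]
    rfl)
  have h := meas_group (A := A) p (E := Additive (G ⧸ N)) (K := N) N.subtype
    (fun g => Additive.ofMul (g : G ⧸ N)) (fun _ _ => rfl)
    (fun x => by
      obtain ⟨g, hg⟩ := QuotientGroup.mk_surjective x.toMul
      refine ⟨g, ?_⟩
      change Additive.ofMul (g : G ⧸ N) = x
      rw [hg]
      rfl)
    (fun g hg => ⟨⟨g, (QuotientGroup.eq_one_iff g).1 hg⟩, rfl⟩) φ
  exact hasGSH_of_meas h S

end Vale.Agent.P329
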