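import Vale.Agent.P329.Newton

/-!
Metabelian groups of nilpotency class at most four.
-/

namespace Vale.Agent.P329

open fwdDiff

variable {A : Type} [DecidableEq A]

section Abstract

variable {E : Type} [AddCommGroup E]

/-- The abstract form of the collection identities: the functions `m a` have vanishing fourth
differences. -/
theorem vd_of_collect (X : A → E →+ E) (ρ : (A → ℕ) → E →+ E) (m : A → (A → ℕ) → E) (c : A → A → E)
    (lt : A → A → Prop)
    (hXXX : ∀ i j k y, X i (X j (X k y)) = 0)
    (hρ : ∀ n b y, ρ (n + eb b) y = ρ n y + ρ n (X b y))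
    (hρX : ∀ n b y, ρ n (X b y) = X b (ρ n y))
    (hI : ∀ a b n, ¬ lt a b → m a (n + eb b) - m a n = X b (m a n))
    (hII : ∀ a b n, lt a b → m a (n + eb b) - m a n = X a (m b n) + ρ n (c b a)) (a : A) :
    VD 4 (m a) := by
  have dg : ∀ (y : E) (b : A), fwdDiff (eb b) (fun n => ρ n y) = fun n => ρ n (X b y) := by
    intro y b
    funext n
    simp only [fwdDiff]
    rw [hρ]
    abel
  have V1 : ∀ i j y, VD 1 (fun n => ρ n (X i (X j y))) := by
    intro i j y b n
    show fwdDiff (eb b) (fun n => ρ n (X i (X j y))) n = 0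
    rw [dg, hXXX]
    exact map_zero _
  have V2 : ∀ i y, VD 2 (fun n => ρ n (X i y)) := by
    intro i y b
    rw [dg]
    exact V1 _ _ _
  have V3 : ∀ y, VD 3 (fun n => ρ n y) := by
    intro y b
    rw [dg]
    exact V2 _ _
  have M2 : ∀ i j a, VD 2 (fun n => X i (X j (m a n))) := by
    intro i j a b
    by_cases h : lt a b
    · have : fwdDiff (eb b) (fun n => X i (X j (m a n))) =
          fun n => ρ n (X i (X j (c b a))) := by
        funext n
        simp only [fwdDiff]
        rw [← map_sub, ← map_sub, hII a b n h, map_add, map_add, hXXX, zero_add, hρX, hρX]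
      rw [this]
      exact V1 _ _ _
    · have : fwdDiff (eb b) (fun n => X i (X j (m a n))) = fun _ => 0 := by
        funext n
        simp only [fwdDiff]
        rw [← map_sub, ← map_sub, hI a b n h, hXXX]
      rw [this]
      exact VD_zero _
  have M1 : ∀ i a, VD 3 (fun n => X i (m a n)) := by
    intro i a b
    by_cases h : lt a b
    · have : fwdDiff (eb b) (fun n => X i (m a n)) =
          fun n => X i (X a (m b n)) + ρ n (X i (c b a)) := by
        funext n
        simp only [fwdDiff]
        rw [← map_sub, hII a b n h, map_add, hρX]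
      rw [this]
      exact (M2 _ _ _).add (V2 _ _)
    · have : fwdDiff (eb b) (fun n => X i (m a n)) = fun n => X i (X b (m a n)) := by
        funext n
        simp only [fwdDiff]
        rw [← map_sub, hI a b n h]
      rw [this]
      exact M2 _ _ _
  intro b
  by_cases h : lt a b
  · have : fwdDiff (eb b) (m a) = fun n => X a (m b n) + ρ n (c b a) := by
      funext n
      exact hII a b n h
    rw [this]
    exact (M1 _ _).add (V3 _)
  · have : fwdDiff (eb b) (m a) = fun n => X b (m a n) := by
      funext n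
      exact hI a b n h
    rw [this]
    exact M1 _ _

end Abstract

section Collect

variable {G : Type} [Group G] (x : A → G)

/-- The collected product. -/
def sL (L : List A) (n : A → ℕ) : G := (L.map (fun b => x b ^ n b)).prod

@[simp] theorem sL_nil (n : A → ℕ) : sL x [] n = 1 := rfl

@[simp] theorem sL_cons (b : A) (L : List A) (n : A → ℕ) :
    sL x (b :: L) n = x b ^ n b * sL x L n := by
  simp [sL]

theorem sL_append (L L' : List A) (n : A → ℕ) : sL x (L ++ L') n = sL x L n * sL x L' n := by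
  simp [sL]

theorem sL_add_notMem {L : List A} {a : A} (h : a ∉ L) (n : A → ℕ) :
    sL x L (n + eb a) = sL x L n := by
  induction L with
  | nil => rfl
  | cons b L ih =>
    have hb : b ≠ a := fun hb => h (by simp [hb])
    have hL : a ∉ L := fun hh => h (by simp [hh])
    simp [ih hL, eb, hb]

theorem add_eb_self (n : A → ℕ) (a : A) : (n + eb a) a = n a + 1 := by
  simp [eb]

/-- The correction factor. -/
def mval (l : List A) (a : A) (n : A → ℕ) : G := sL x l n * x a * (sL x l (n + eb a))⁻¹

theorem mval_split {l l₁ l₂ : List A} {a : A} (hl : l = l₁ ++ a :: l₂) (h1 : a ∉ l₁) (h2 : a ∉ l₂)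
    (n : A → ℕ) :
    mval x l a n = (sL x (l₁ ++ [a]) n) * (sL x l₂ n * x a * (sL x l₂ n)⁻¹ * (x a)⁻¹) *
      (sL x (l₁ ++ [a]) n)⁻¹ := by
  subst hl
  unfold mval
  simp only [sL_append, sL_cons, sL_nil, mul_one, sL_add_notMem x h1, sL_add_notMem x h2,
    add_eb_self, pow_succ]
  group

variable (N : Subgroup G) [N.Normal]

theorem commutator_mem_of_quot (hQ : ∀ p q : G ⧸ N, p * q = q * p) (g h : G) :
    g * h * g⁻¹ * h⁻¹ ∈ N := by
  rw [← QuotientGroup.eq_one_iff]
  have := hQ (g : G ⧸ N) (h : G ⧸ N)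
  rw [QuotientGroup.mk_mul, QuotientGroup.mk_mul, QuotientGroup.mk_mul, QuotientGroup.mk_inv,
    QuotientGroup.mk_inv, this]
  group

theorem comm_helper {Q : Type} [CommGroup Q] (u v w : Q) (k : ℕ) :
    u * v * (w * v ^ k) = u * w * (v ^ k * v) := by
  rw [mul_assoc, mul_assoc, mul_left_comm v w, mul_comm v (v ^ k)]

theorem mk_sL_add (b : A) (hQ : ∀ p q : G ⧸ N, p * q = q * p) (L : List A) (n : A → ℕ) :
    ((sL x L (n + eb b) : G) : G ⧸ N) = ((sL x L n : G) : G ⧸ N) * ((x b : G) : G ⧸ N) ^ L.count b := by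
  induction L with
  | nil => simp
  | cons c L ih =>
    rw [sL_cons, sL_cons, QuotientGroup.mk_mul, QuotientGroup.mk_mul, ih]
    by_cases hc : c = b
    · subst hc
      rw [add_eb_self, List.count_cons_self, pow_succ, pow_succ, QuotientGroup.mk_mul,
        QuotientGroup.mk_pow, ]
      let _ : CommGroup (G ⧸ N) := { (inferInstance : Group (G ⧸ N)) with mul_comm := hQ }
      exact comm_helper _ _ _ _
    · have h1 : (n + eb b) c = n c := by simp [eb, hc]
      rw [h1, List.count_cons_of_ne hc, mul_assoc]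

theorem conj_eq_of_mk_eq (hN : ∀ u ∈ N, ∀ v ∈ N, u * v = v * u) {g h : G}
    (hgh : (g : G ⧸ N) = (h : G ⧸ N)) {y : G} (hy : y ∈ N) : g * y * g⁻¹ = h * y * h⁻¹ := by
  have hz : g⁻¹ * h ∈ N := QuotientGroup.eq.1 hgh
  have hcomm := hN _ hz _ hy
  have hh : h = g * (g⁻¹ * h) := by group
  generalize g⁻¹ * h = z at hz hcomm hh
  subst hh
  calc g * y * g⁻¹ = g * (y * z) * z⁻¹ * g⁻¹ := by group
    _ = g * z * y * (g * z)⁻¹ := by rw [← hcomm]; group

/-- Splitting of a list without repetition. -/
theorem split_nodup {l l₁ l₂ : List A} {a : A} (hl : l = l₁ ++ a :: l₂) (hnd : l.Nodup) :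
    a ∉ l₁ ∧ a ∉ l₂ ∧ (∀ b ∈ l₁, b ∉ l₂) ∧ l₁.Nodup := by
  subst hl
  have h := List.nodup_append.1 hnd
  have h2 := List.nodup_cons.1 h.2.1
  refine ⟨fun h3 => ?_, h2.1, fun b hb hb' => ?_, h.1⟩
  · exact h.2.2 a h3 a (by simp) rfl
  · exact h.2.2 b hb b (by simp [hb']) rfl

theorem idxOf_split {l₁ l₂ : List A} {a b : A} (h1 : a ∉ l₁) (hb1 : b ∉ l₁) (hab : b ≠ a)
    (hb : b ∈ l₂) : (l₁ ++ a :: l₂).idxOf a < (l₁ ++ a :: l₂).idxOf b := by
  rw [List.idxOf_append_of_notMem h1, List.idxOf_append_of_notMem hb1]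
  simp [List.idxOf_cons_ne _ hab.symm]

variable {N}

theorem mval_mem {l : List A} (hnd : l.Nodup) {a : A} (ha : a ∈ l)
    (hQ : ∀ p q : G ⧸ N, p * q = q * p) (n : A → ℕ) : mval x l a n ∈ N := by
  obtain ⟨l₁, l₂, hl⟩ := List.append_of_mem ha
  obtain ⟨h1, h2, -, -⟩ := split_nodup hl hnd
  rw [mval_split x hl h1 h2]
  exact Subgroup.Normal.conj_mem inferInstance _ (commutator_mem_of_quot N hQ _ _) _

/-- Moving a letter at or before `a` only conjugates. -/
theorem mval_I {l : List A} (hnd : l.Nodup) {a b : A} (ha : a ∈ l) (hb : b ∈ l)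
    (hQ : ∀ p q : G ⧸ N, p * q = q * p) (hN : ∀ u ∈ N, ∀ v ∈ N, u * v = v * u)
    (hlt : ¬ l.idxOf a < l.idxOf b) (n : A → ℕ) :
    mval x l a (n + eb b) = x b * mval x l a n * (x b)⁻¹ := by
  obtain ⟨l₁, l₂, hl⟩ := List.append_of_mem ha
  obtain ⟨h1, h2, h3, h4⟩ := split_nodup hl hnd
  have hb2 : b ∉ l₂ := by
    intro hb2
    apply hlt
    subst hl
    have hab : b ≠ a := fun e => h2 (e ▸ hb2)
    exact idxOf_split h1 (fun hh => h3 b hh hb2) hab hb2
  have hc : (l₁ ++ [a]).count b = 1 := by
    rw [List.count_append]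
    by_cases hab : b = a
    · subst hab
      rw [List.count_eq_zero_of_not_mem h1]
      simp
    · have hb1 : b ∈ l₁ := by
        subst hl
        simp only [List.mem_append, List.mem_cons] at hb
        rcases hb with hb | hb | hb
        · exact hb
        · exact absurd hb hab
        · exact absurd hb hb2
      rw [List.count_eq_one_of_mem h4 hb1, List.count_singleton]
      simp [Ne.symm hab]
  rw [mval_split x hl h1 h2, mval_split x hl h1 h2, sL_add_notMem x hb2]
  set U := sL x (l₁ ++ [a]) n with hU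
  set U' := sL x (l₁ ++ [a]) (n + eb b) with hU'
  set κ := sL x l₂ n * x a * (sL x l₂ n)⁻¹ * (x a)⁻¹ with hκ
  have hκN : κ ∈ N := commutator_mem_of_quot N hQ _ _
  have hmk : (U' : G ⧸ N) = ((x b * U : G) : G ⧸ N) := by
    rw [hU', mk_sL_add x N b hQ, hc, pow_one, QuotientGroup.mk_mul]
    exact hQ _ _
  rw [conj_eq_of_mk_eq N hN hmk hκN]
  group

/-- The exchange of two letters. -/
theorem mval_II (l : List A) (a b : A) (n : A → ℕ) :
    mval x l a n * mval x l b (n + eb a) =
      (sL x l n * (x a * x b * (x a)⁻¹ * (x b)⁻¹) * (sL x l n)⁻¹) *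
        (mval x l b n * mval x l a (n + eb b)) := by
  unfold mval
  rw [add_right_comm n (eb a) (eb b)]
  group

end Collect

section Additive

open scoped IsMulCommutative

variable {G : Type} [Group G] (N : Subgroup G) [N.Normal] [IsMulCommutative N]

/-- The element of the group. -/
def vl (y : Additive N) : G := ((Additive.toMul y : N) : G)

variable {N}

theorem vl_mem (y : Additive N) : vl N y ∈ N := (Additive.toMul y : N).2

theorem vl_add (y z : Additive N) : vl N (y + z) = vl N y * vl N z := rfl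

theorem vl_zero : vl N (0 : Additive N) = 1 := rfl

theorem vl_neg (y : Additive N) : vl N (-y) = (vl N y)⁻¹ := rfl

theorem vl_sub (y z : Additive N) : vl N (y - z) = vl N y * (vl N z)⁻¹ := by
  rw [sub_eq_add_neg, vl_add, vl_neg]

theorem vl_inj {y z : Additive N} (h : vl N y = vl N z) : y = z :=
  Additive.toMul.injective (Subtype.ext h)

variable (N)

/-- Elements of `N` as elements of the additive group. -/
def ofN (g : G) (hg : g ∈ N) : Additive N := Additive.ofMul ⟨g, hg⟩

theorem vl_ofN (g : G) (hg : g ∈ N) : vl N (ofN N g hg) = g := rfl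

/-- Conjugation on the additive group. -/
noncomputable def rhoG (g : G) : Additive N →+ Additive N :=
  (MulAut.conjNormal g).toMonoidHom.toAdditive

variable {N}

theorem vl_rhoG (g : G) (y : Additive N) : vl N (rhoG N g y) = g * vl N y * g⁻¹ :=
  MulAut.conjNormal_apply g _

theorem rhoG_mul (g h : G) (y : Additive N) : rhoG N (g * h) y = rhoG N g (rhoG N h y) := by
  apply vl_inj
  simp only [vl_rhoG]
  group

theorem comm_of_isComm : ∀ u ∈ N, ∀ v ∈ N, u * v = v * u := by
  intro u hu v hv
  have := mul_comm (⟨u, hu⟩ : N) ⟨v, hv⟩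
  exact congrArg Subtype.val this

theorem rhoG_congr {g h : G} (hgh : (g : G ⧸ N) = (h : G ⧸ N)) (y : Additive N) :
    rhoG N g y = rhoG N h y := by
  apply vl_inj
  simp only [vl_rhoG]
  exact conj_eq_of_mk_eq N comm_of_isComm hgh (vl_mem y)

end Additive

section Main

open scoped IsMulCommutative

variable {G : Type} [Group G] (N : Subgroup G) [N.Normal] [IsMulCommutative N] (x : A → G)

/-- The commutator action. -/
noncomputable def XX (g : G) : Additive N →+ Additive N := rhoG N g - AddMonoidHom.id _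

variable {N}

theorem vl_XX (g : G) (y : Additive N) : vl N (XX N g y) = g * vl N y * g⁻¹ * (vl N y)⁻¹ := by
  show vl N (rhoG N g y - y) = _
  rw [vl_sub, vl_rhoG]

theorem rho_comm (hQ : ∀ p q : G ⧸ N, p * q = q * p) (g h : G) (y : Additive N) :
    rhoG N g (rhoG N h y) = rhoG N h (rhoG N g y) := by
  rw [← rhoG_mul, ← rhoG_mul]
  refine rhoG_congr ?_ y
  rw [QuotientGroup.mk_mul, QuotientGroup.mk_mul]
  exact hQ _ _

/-- The fourth differences of the correction factors vanish. -/
theorem vd_mval {l : List A} (hnd : l.Nodup) (hl : ∀ a, a ∈ l)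
    (hQ : ∀ p q : G ⧸ N, p * q = q * p)
    (h3 : ∀ p q r t : G, t ∈ N →
      (let C : G → G → G := fun g h => g * h * g⁻¹ * h⁻¹; C p (C q (C r t))) = 1) (a : A) :
    VD 4 (fun n => ofN N (mval x l a n) (mval_mem x hnd (hl a) hQ n)) := by
  classical
  refine vd_of_collect (fun b => XX N (x b)) (fun n => rhoG N (sL x l n))
    (fun a n => ofN N (mval x l a n) (mval_mem x hnd (hl a) hQ n))
    (fun b a => ofN N (x b * x a * (x b)⁻¹ * (x a)⁻¹) (commutator_mem_of_quot N hQ _ _))
    (fun a b => l.idxOf a < l.idxOf b) ?_ ?_ ?_ ?_ ?_ a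
  · intro i j k y
    apply vl_inj
    simp only [vl_XX, vl_zero]
    exact h3 _ _ _ _ (vl_mem y)
  · intro n b y
    have hc : l.count b = 1 := List.count_eq_one_of_mem hnd (hl b)
    have hmk : ((sL x l (n + eb b) : G) : G ⧸ N) = ((sL x l n * x b : G) : G ⧸ N) := by
      rw [mk_sL_add x N b hQ, hc, pow_one, QuotientGroup.mk_mul]
    show rhoG N (sL x l (n + eb b)) y = rhoG N (sL x l n) y + rhoG N (sL x l n) (rhoG N (x b) y - y)
    rw [rhoG_congr hmk, rhoG_mul, map_sub]
    abel
  · intro n b y
    show rhoG N (sL x l n) (rhoG N (x b) y - y) = rhoG N (x b) (rhoG N (sL x l n) y) - rhoG N (sL x l n) y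
    rw [map_sub, rho_comm hQ]
  · intro a b n hlt
    have h1 : ofN N (mval x l a (n + eb b)) (mval_mem x hnd (hl a) hQ _) =
        rhoG N (x b) (ofN N (mval x l a n) (mval_mem x hnd (hl a) hQ n)) := by
      apply vl_inj
      rw [vl_rhoG, vl_ofN, vl_ofN]
      exact mval_I x hnd (hl a) (hl b) hQ comm_of_isComm hlt n
    show ofN N (mval x l a (n + eb b)) (mval_mem x hnd (hl a) hQ _) -
      ofN N (mval x l a n) (mval_mem x hnd (hl a) hQ n) =
      rhoG N (x b) (ofN N (mval x l a n) (mval_mem x hnd (hl a) hQ n)) -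
      ofN N (mval x l a n) (mval_mem x hnd (hl a) hQ n)
    rw [h1]
  · intro a b n hlt
    have h1 : ofN N (mval x l b (n + eb a)) (mval_mem x hnd (hl b) hQ _) =
        rhoG N (x a) (ofN N (mval x l b n) (mval_mem x hnd (hl b) hQ n)) := by
      apply vl_inj
      rw [vl_rhoG, vl_ofN, vl_ofN]
      exact mval_I x hnd (hl b) (hl a) hQ comm_of_isComm (not_lt_of_gt hlt) n
    have h2 : ofN N (mval x l a n) (mval_mem x hnd (hl a) hQ n) +
        ofN N (mval x l b (n + eb a)) (mval_mem x hnd (hl b) hQ _) =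
        rhoG N (sL x l n) (ofN N (x a * x b * (x a)⁻¹ * (x b)⁻¹) (commutator_mem_of_quot N hQ _ _)) +
        (ofN N (mval x l b n) (mval_mem x hnd (hl b) hQ n) +
          ofN N (mval x l a (n + eb b)) (mval_mem x hnd (hl a) hQ _)) := by
      apply vl_inj
      simp only [vl_add, vl_rhoG, vl_ofN]
      exact mval_II x l a b n
    have h4 : ofN N (x b * x a * (x b)⁻¹ * (x a)⁻¹) (commutator_mem_of_quot N hQ _ _) =
        - ofN N (x a * x b * (x a)⁻¹ * (x b)⁻¹) (commutator_mem_of_quot N hQ _ _) := by
      apply vl_inj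
      rw [vl_neg, vl_ofN, vl_ofN]
      group
    show ofN N (mval x l a (n + eb b)) (mval_mem x hnd (hl a) hQ _) -
      ofN N (mval x l a n) (mval_mem x hnd (hl a) hQ n) =
      (rhoG N (x a) (ofN N (mval x l b n) (mval_mem x hnd (hl b) hQ n)) -
      ofN N (mval x l b n) (mval_mem x hnd (hl b) hQ n)) +
      rhoG N (sL x l n) (ofN N (x b * x a * (x b)⁻¹ * (x a)⁻¹) (commutator_mem_of_quot N hQ _ _))
    rw [h4, map_neg, ← h1]
    generalize rhoG N (sL x l n) (ofN N (x a * x b * (x a)⁻¹ * (x b)⁻¹) (commutator_mem_of_quot N hQ _ _)) = r at h2 ⊢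
    generalize ofN N (mval x l a (n + eb b)) (mval_mem x hnd (hl a) hQ _) = s1 at h2 ⊢
    generalize ofN N (mval x l a n) (mval_mem x hnd (hl a) hQ n) = s2 at h2 ⊢
    generalize ofN N (mval x l b (n + eb a)) (mval_mem x hnd (hl b) hQ _) = s3 at h2 ⊢
    generalize ofN N (mval x l b n) (mval_mem x hnd (hl b) hQ n) = s4 at h2 ⊢
    have h5 : s1 = s2 + s3 - r - s4 := by
      rw [h2]
      abel
    rw [h5]
    abel

theorem nvec_snoc (w : List A) (a : A) : nvec (w ++ [a]) = nvec w + eb a := by
  funext b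
  simp only [nvec, List.count_append, List.count_singleton, Pi.add_apply, eb]
  by_cases h : a = b
  · subst h
    simp
  · simp [h, Ne.symm h]

theorem sL_zero (L : List A) : sL x L (fun _ => 0) = 1 := by
  induction L with
  | nil => rfl
  | cons b L ih => simp [ih]

theorem sL_congr (L : List A) {n n' : A → ℕ} (h : ∀ b, x b ^ n b = x b ^ n' b) :
    sL x L n = sL x L n' := by
  induction L with
  | nil => rfl
  | cons b L ih => simp [ih, h]

/-- The collection formula. -/
theorem collect_formula [Fintype A] {l : List A} (hm : ∀ a n, mval x l a n ∈ N) (w : List A) :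
    (w.map x).prod = vl N (∑ a : A, psum a (fun p => ofN N (mval x l a (nvec p)) (hm a _)) w) *
      sL x l (nvec w) := by
  induction w using List.reverseRecOn with
  | nil =>
    have : nvec ([] : List A) = fun _ => 0 := rfl
    simp [this, sL_zero, vl_zero]
  | append_singleton w a ih =>
    have h1 : (∑ b : A, psum b (fun p => ofN N (mval x l b (nvec p)) (hm b _)) (w ++ [a])) =
        (∑ b : A, psum b (fun p => ofN N (mval x l b (nvec p)) (hm b _)) w) +
          ofN N (mval x l a (nvec w)) (hm a _) := by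
      simp only [psum_snoc, Finset.sum_add_distrib]
      congr 1
      simp
    rw [h1, vl_add, vl_ofN, nvec_snoc, List.map_append, List.prod_append, ih]
    simp [mval, mul_assoc]

/-- The product of a word is measurable. -/
theorem meas_group4 [Finite A] [Finite G] (hQ : ∀ p q : G ⧸ N, p * q = q * p)
    (h3 : ∀ p q r t : G, t ∈ N →
      (let C : G → G → G := fun g h => g * h * g⁻¹ * h⁻¹; C p (C q (C r t))) = 1) :
    Meas (fun w : List A => (w.map x).prod) := by
  classical
  have := Fintype.ofFinite A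
  set l : List A := Finset.univ.toList with hldef
  have hnd : l.Nodup := Finset.nodup_toList _
  have hl : ∀ a, a ∈ l := fun a => Finset.mem_toList.2 (Finset.mem_univ a)
  have hm : ∀ a n, mval x l a n ∈ N := fun a n => mval_mem x hnd (hl a) hQ n
  have hfin : Finite (Additive N) := by
    have : Finite N := inferInstance
    exact (Additive.ofMul (α := N)).finite_iff.1 this
  have h1 : Meas (fun w : List A =>
      ∑ a : A, psum a (fun p => ofN N (mval x l a (nvec p)) (hm a _)) w) :=
    Meas.fsum _ (fun a _ => meas_of_VD a (vd_mval x hnd hl hQ h3 a))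
  have hcard : NeZero (Nat.card G) := ⟨Nat.card_pos.ne'⟩
  have h2 : Meas (fun w : List A => fun b : A => ((nn b w : ℤ) : ZMod (Nat.card G))) :=
    Meas.pi (fun b => measZ_nn b (Nat.card G))
  refine (h1.map₂ h2 (fun e t => vl N e * sL x l (fun b => (t b).val))).congr (fun w => ?_)
  rw [collect_formula x hm w]
  congr 1
  apply sL_congr
  intro b
  have : ((nn b w : ℤ) : ZMod (Nat.card G)) = ((w.count b : ℕ) : ZMod (Nat.card G)) := by
    simp [nn]
  rw [this, ZMod.val_natCast, pow_mod_natCard]
  rfl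

end Main

/-- Commutators with an element of a term of the lower central series. -/
theorem lcs_step {G : Type} [Group G] {n : ℕ} {t : G} (ht : t ∈ (⊤ : Subgroup G).lowerCentralSeries n)
    (r : G) : r * t * r⁻¹ * t⁻¹ ∈ (⊤ : Subgroup G).lowerCentralSeries (n + 1) := by
  rw [Subgroup.lowerCentralSeries_succ, Subgroup.commutator_comm, ← commutatorElement_def]
  exact Subgroup.commutator_mem_commutator (Subgroup.mem_top r) ht

open scoped IsMulCommutative in
/-- Metabelian groups of nilpotency class at most four. -/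
theorem hasGSH_class4 {A G : Type} [Finite A] [Group G] [Finite G]
    (h4 : (⊤ : Subgroup G).lowerCentralSeries 4 = ⊥)
    (h2 : ∀ x ∈ commutator G, ∀ y ∈ commutator G, x * y = y * x) (φ : A → G) (S : Set G) :
    HasGSH 1 ({w | (w.map φ).prod ∈ S} : Language A) := by
  classical
  have hcomm : IsMulCommutative (commutator G) :=
    ⟨⟨fun a b => Subtype.ext (h2 _ a.2 _ b.2)⟩⟩
  have hQ : ∀ p q : G ⧸ commutator G, p * q = q * p := fun p q =>
    @mul_comm (Abelianization G) _ p q
  refine hasGSH_of_meas (meas_group4 (N := commutator G) φ hQ ?_) S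
  intro p q r t ht
  have h1 : t ∈ (⊤ : Subgroup G).lowerCentralSeries 1 := ht
  have h5 := lcs_step (lcs_step (lcs_step h1 r) q) p
  rw [h4] at h5
  exact (Subgroup.mem_bot.1 h5)

open scoped commutatorElement in
/-- Every group of nilpotency class at most three is metabelian. -/
theorem metab_of_class3 {G : Type} [Group G] (h3 : (⊤ : Subgroup G).lowerCentralSeries 3 = ⊥) :
    ∀ x ∈ commutator G, ∀ y ∈ commutator G, x * y = y * x := by
  have h1 : ⁅⁅(⊤ : Subgroup G), (⊤ : Subgroup G)⁆, commutator G⁆ = ⊥ := by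
    apply Subgroup.commutator_commutator_eq_bot_of_rotate
    · rw [Subgroup.commutator_comm (⊤ : Subgroup G) (commutator G)]
      exact h3
    · exact h3
  intro x hx y hy
  have h2 : ⁅x, y⁆ ∈ ⁅commutator G, commutator G⁆ := Subgroup.commutator_mem_commutator hx hy
  have h4 : ⁅commutator G, commutator G⁆ = ⊥ := h1
  rw [h4] at h2
  exact commutatorElement_eq_one_iff_mul_comm.1 (Subgroup.mem_bot.1 h2)

/-- All groups of nilpotency class at most three, and all metabelian groups of class at most four. -/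
theorem hasGSH_class3_or_metab4 {A G : Type} [Finite A] [Group G] [Finite G]
    (h : (⊤ : Subgroup G).lowerCentralSeries 3 = ⊥ ∨
      ((⊤ : Subgroup G).lowerCentralSeries 4 = ⊥ ∧
        ∀ x ∈ commutator G, ∀ y ∈ commutator G, x * y = y * x))
    (φ : A → G) (S : Set G) : HasGSH 1 ({w | (w.map φ).prod ∈ S} : Language A) := by
  rcases h with h | ⟨h1, h2⟩
  · have h4 : (⊤ : Subgroup G).lowerCentralSeries 4 = ⊥ := by
      have : (⊤ : Subgroup G).lowerCentralSeries 4 ≤ (⊤ : Subgroup G).lowerCentralSeries 3 :=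
        (⊤ : Subgroup G).lowerCentralSeries_antitone (Nat.le_succ 3)
      rw [h] at this
      exact le_bot_iff.1 this
    exact hasGSH_class4 h4 (metab_of_class3 h) φ S
  · exact hasGSH_class4 h1 h2 φ S

end Vale.Agent.P329
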