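import Vale.Agent.P329.Poly3

/-!
Functions on count vectors whose fourth differences vanish: the Newton expansion reduces the
weights with such values to polynomial weights of degree at most three.
-/

namespace Vale.Agent.P329

open fwdDiff

variable {A : Type} [DecidableEq A]

/-- The vector of letter counts. -/
def nvec (p : List A) : A → ℕ := fun b => p.count b

/-- The unit vector. -/
def eb (b : A) : A → ℕ := fun a => if a = b then 1 else 0

/-- Setting a coordinate to zero. -/
def upd (b : A) (n : A → ℕ) : A → ℕ := fun a => if a = b then 0 else n a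

theorem upd_add_self (b : A) (n : A → ℕ) : upd b (n + eb b) = upd b n := by
  funext a
  by_cases h : a = b <;> simp [upd, eb, h]

theorem upd_add_ne {b c : A} (h : c ≠ b) (n : A → ℕ) : upd b (n + eb c) = upd b n + eb c := by
  funext a
  by_cases h1 : a = b
  · subst h1
    simp [upd, eb, h.symm]
  · simp [upd, eb, h1]

theorem upd_decomp (b : A) (n : A → ℕ) : upd b n + n b • eb b = n := by
  funext a
  by_cases h : a = b
  · subst h
    simp [upd, eb]
  · simp [upd, eb, h]

variable {E : Type} [AddCommGroup E]

/-- All differences of order `k` vanish. -/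
def VD : ℕ → ((A → ℕ) → E) → Prop
  | 0, f => ∀ n, f n = 0
  | k + 1, f => ∀ b, VD k (fwdDiff (eb b) f)

theorem VD_zero (k : ℕ) : VD k (fun _ : A → ℕ => (0 : E)) := by
  induction k with
  | zero => intro n; rfl
  | succ k ih =>
    intro b
    have : fwdDiff (eb b) (fun _ : A → ℕ => (0 : E)) = fun _ => 0 := by
      funext n
      simp [fwdDiff]
    rw [this]
    exact ih

theorem VD.add {k : ℕ} {f g : (A → ℕ) → E} (hf : VD k f) (hg : VD k g) :
    VD k (fun n => f n + g n) := by
  induction k generalizing f g with
  | zero =>
    intro n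
    show f n + g n = 0
    rw [hf n, hg n, add_zero]
  | succ k ih =>
    intro b
    have : fwdDiff (eb b) (fun n => f n + g n) =
        fun n => fwdDiff (eb b) f n + fwdDiff (eb b) g n := by
      funext n
      simp only [fwdDiff]
      abel
    rw [this]
    exact ih (hf b) (hg b)

theorem VD.mono {k : ℕ} {f : (A → ℕ) → E} (hf : VD k f) : VD (k + 1) f := by
  induction k generalizing f with
  | zero =>
    intro b n
    have h1 : ∀ n, f n = 0 := hf
    simp [fwdDiff, h1]
  | succ k ih =>
    intro b
    exact ih (hf b)

theorem VD.iter {t : ℕ} (b : A) (i : ℕ) {f : (A → ℕ) → E} (hf : VD (t + i) f) :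
    VD t ((fwdDiff (eb b))^[i] f) := by
  induction i generalizing f with
  | zero => exact hf
  | succ i ih =>
    rw [Function.iterate_succ_apply]
    exact ih (hf b)

theorem VD.upd {t : ℕ} (b : A) {f : (A → ℕ) → E} (hf : VD t f) : VD t (fun n => f (upd b n)) := by
  induction t generalizing f with
  | zero => intro n; exact hf _
  | succ t ih =>
    intro c
    by_cases h : c = b
    · subst h
      have : fwdDiff (eb c) (fun n => f (Vale.Agent.P329.upd c n)) = fun _ => 0 := by
        funext n
        simp [fwdDiff, upd_add_self]
      rw [this]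
      exact VD_zero t
    · have : fwdDiff (eb c) (fun n => f (Vale.Agent.P329.upd b n)) =
          fun n => fwdDiff (eb c) f (Vale.Agent.P329.upd b n) := by
        funext n
        simp only [fwdDiff, upd_add_ne h]
      rw [this]
      exact ih (hf c)

theorem dep_iter {L : List A} {f : (A → ℕ) → E} (b : A)
    (hf : ∀ n n' : A → ℕ, (∀ c ∈ L, n c = n' c) → f n = f n') (i : ℕ) (n n' : A → ℕ)
    (h : ∀ c ∈ L, n c = n' c) : (fwdDiff (eb b))^[i] f n = (fwdDiff (eb b))^[i] f n' := by
  induction i generalizing f with
  | zero => exact hf n n' h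
  | succ i ih =>
    rw [Function.iterate_succ_apply]
    refine ih ?_
    intro m m' hm
    simp only [fwdDiff]
    rw [hf m m' hm, hf (m + eb b) (m' + eb b)]
    intro c hc
    simp [hm c hc]

theorem newton_expand (b : A) (f : (A → ℕ) → E) {k : ℕ} (hf : VD k f) (n : A → ℕ) :
    f n = ∑ i ∈ Finset.range k, (n b).choose i •
      ((fwdDiff (eb b))^[i] f) (Vale.Agent.P329.upd b n) := by
  have h1 := shift_eq_sum_fwdDiff_iter (eb b) f (n b) (Vale.Agent.P329.upd b n)
  rw [upd_decomp] at h1
  rw [h1]
  have hz : ∀ i, k ≤ i → ((fwdDiff (eb b))^[i] f) (Vale.Agent.P329.upd b n) = 0 := by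
    intro i hi
    have h2 : VD (0 + i) f := by
      obtain ⟨s, rfl⟩ := Nat.exists_eq_add_of_le hi
      rw [zero_add]
      clear h1 hi
      induction s with
      | zero => exact hf
      | succ s ih => exact ih.mono
    exact VD.iter b i h2 _
  have h3 : ∑ i ∈ Finset.range (n b + 1), (n b).choose i •
      ((fwdDiff (eb b))^[i] f) (Vale.Agent.P329.upd b n) =
      ∑ i ∈ Finset.range (n b + 1 + k), (n b).choose i •
      ((fwdDiff (eb b))^[i] f) (Vale.Agent.P329.upd b n) := by
    apply Finset.sum_subset
    · intro i hi
      simp only [Finset.mem_range] at hi ⊢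
      omega
    · intro i _ hi
      simp only [Finset.mem_range, not_lt] at hi
      rw [Nat.choose_eq_zero_of_lt (by omega), zero_smul]
  have h4 : ∑ i ∈ Finset.range k, (n b).choose i •
      ((fwdDiff (eb b))^[i] f) (Vale.Agent.P329.upd b n) =
      ∑ i ∈ Finset.range (n b + 1 + k), (n b).choose i •
      ((fwdDiff (eb b))^[i] f) (Vale.Agent.P329.upd b n) := by
    apply Finset.sum_subset
    · intro i hi
      simp only [Finset.mem_range] at hi ⊢
      omega
    · intro i _ hi
      simp only [Finset.mem_range, not_lt] at hi
      rw [hz i hi, smul_zero]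
  rw [h3, h4]

theorem Meas.fsum {R ι X : Type} [AddCommGroup R] [Finite R] (s : Finset ι)
    {f : ι → List X → R} (h : ∀ i ∈ s, Meas (f i)) : Meas (fun w => ∑ i ∈ s, f i w) := by
  classical
  induction s using Finset.induction_on with
  | empty => simpa using Meas.const (0 : R)
  | insert a s ha ih =>
    have := ((h a (by simp)).map₂ (ih (fun i hi => h i (by simp [hi]))) (fun x y => x + y))
    simpa [Finset.sum_insert ha] using this

theorem psum_zsmul_const (a : A) (P : List A → ℤ) (μ : E) (w : List A) :
    psum a (fun p => P p • μ) w = psum a P w • μ := by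
  induction w using List.reverseRecOn with
  | nil => simp
  | append_singleton w x ih =>
    rw [psum_snoc, psum_snoc, ih]
    by_cases h : x = a <;> simp [h, add_smul]

variable [Finite A] [Finite E]

/-- The main reduction. -/
theorem meas_weighted (a : A) (l : List A) : ∀ (k j : ℕ) (P : List A → ℤ) (f : (A → ℕ) → E),
    QPoly j P → VD k f → j + k ≤ 4 → (∀ n n' : A → ℕ, (∀ b ∈ l, n b = n' b) → f n = f n') →
    Meas (fun w => psum a (fun p => (P p) • f (nvec p)) w) := by
  induction l with
  | nil =>
    intro k j P f hP hf hjk hdep
    cases k with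
    | zero =>
      have h0 : ∀ n, f n = 0 := hf
      refine (Meas.const (0 : E)).congr (fun w => ?_)
      simp only [h0, smul_zero]
      induction w using List.reverseRecOn with
      | nil => simp
      | append_singleton w x ih =>
        rw [psum_snoc, ← ih]
        simp
    | succ k =>
      have hj : j ≤ 3 := by omega
      obtain ⟨K, hK, hKP⟩ := hP
      have hP3 : QPoly 3 P := ⟨K, hK, Pol_mono hj hKP⟩
      have hG : Good a P := good_of_qpoly3 hP3
      set μ := f (fun _ => 0) with hμ
      have hconst : ∀ n, f n = μ := fun n => hdep _ _ (by simp)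
      have : NeZero (Nat.card E) := ⟨Nat.card_pos.ne'⟩
      have h1 := (hG (Nat.card E)).comp (fun t : ZMod (Nat.card E) => t.val • μ)
      refine h1.congr (fun w => ?_)
      simp only [hconst]
      rw [psum_zsmul_const]
      rw [← natCast_zsmul, ZMod.val_intCast, mod_natCard_zsmul]
  | cons b l ih =>
    intro k j P f hP hf hjk hdep
    have h1 : Meas (fun w => ∑ i ∈ Finset.range k, psum a (fun p =>
        (P p * ((p.count b).choose i : ℤ)) •
          (fun n => ((fwdDiff (eb b))^[i] f) (Vale.Agent.P329.upd b n)) (nvec p)) w) := by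
      refine Meas.fsum _ (fun i hi => ?_)
      have hi : i < k := Finset.mem_range.1 hi
      refine ih (k - i) (j + i) _ (fun n => ((fwdDiff (eb b))^[i] f) (Vale.Agent.P329.upd b n))
        (hP.mul (QPoly.choose b i)) ?_ (by omega) ?_
      · refine VD.upd b (VD.iter b i ?_)
        rwa [Nat.sub_add_cancel hi.le]
      · intro n n' hn
        refine dep_iter b hdep i _ _ ?_
        intro c hc
        by_cases hcb : c = b
        · subst hcb
          simp [Vale.Agent.P329.upd]
        · simp only [Vale.Agent.P329.upd, hcb, if_false]
          exact hn c ((List.mem_cons.1 hc).resolve_left hcb)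
    refine h1.congr (fun w => ?_)
    rw [← psum_finset_sum]
    refine psum_congr a (fun p => ?_) w
    rw [newton_expand b f hf (nvec p), Finset.smul_sum]
    refine Finset.sum_congr rfl (fun i _ => ?_)
    rw [mul_smul, ← natCast_zsmul]
    rfl

/-- Functions with vanishing fourth differences. -/
theorem meas_of_VD (a : A) {f : (A → ℕ) → E} (hf : VD 4 f) :
    Meas (fun w => psum a (fun p => f (nvec p)) w) := by
  classical
  have := Fintype.ofFinite A
  have h := meas_weighted a (Finset.univ.toList) 4 0 (fun _ => 1) f QPoly.one hf (by norm_num)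
    (fun n n' hn => by
      have : n = n' := funext (fun b => hn b (by simp))
      rw [this])
  simpa using h

end Vale.Agent.P329
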