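import Vale.Agent.P329.Blocks

/-!
Weights of degree at most three.  The occurrences of a letter, weighted by any monomial of degree
at most three in the letter counts of the prefix, are measurable modulo any integer.
-/

namespace Vale.Agent.P329

variable {A : Type} [DecidableEq A]

/-- The sum over the occurrences of `c` of the weight `g` has all reductions measurable. -/
def Good (c : A) (g : List A → ℤ) : Prop := MeasZ (psum c g)

theorem Good.congr {c : A} {g g' : List A → ℤ} (h : ∀ p, g p = g' p) (hg : Good c g) : Good c g' := by
  have : g = g' := funext h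
  rwa [← this]

theorem Good.add {c : A} {g g' : List A → ℤ} (hg : Good c g) (hg' : Good c g') :
    Good c (fun p => g p + g' p) :=
  (MeasZ.add hg hg').congr (fun w => (psum_add c g g' w).symm)

theorem Good.sub {c : A} {g g' : List A → ℤ} (hg : Good c g) (hg' : Good c g') :
    Good c (fun p => g p - g' p) :=
  (MeasZ.sub hg hg').congr (fun w => (psum_sub c g g' w).symm)

theorem Good.smul {c : A} {g : List A → ℤ} (k : ℤ) (hg : Good c g) : Good c (fun p => k * g p) :=
  (MeasZ.smul k hg).congr (fun w => (psum_smul c k g w).symm)

theorem Good.neg {c : A} {g : List A → ℤ} (hg : Good c g) : Good c (fun p => - g p) :=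
  (hg.smul (-1)).congr (fun p => by ring)

theorem Good.zero {c : A} : Good c (fun _ => 0) :=
  (MeasZ.const (0 : ℤ)).congr (fun w => by
    induction w using List.reverseRecOn with
    | nil => simp
    | append_singleton w a ih =>
      rw [psum_snoc, ← ih]
      simp)

theorem Good.scale {c : A} {g : List A → ℤ} {k : ℕ} (hk : 0 < k)
    (hg : Good c (fun p => (k : ℤ) * g p)) : Good c g :=
  MeasZ.scale hk (MeasZ.congr (fun w => psum_smul c k g w) hg)

section Forms

theorem itot_e1 (x : A) (p : List A) : itot (fun a => if a = x then (1 : ℤ) else 0) p = nn x p := by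
  induction p with
  | nil => simp
  | cons a p ih =>
    rw [itot_cons, ih, nn_cons]
    ring

theorem itot_e2 (x y : A) (s : ℤ) (p : List A) :
    itot (fun a => (if a = x then (1 : ℤ) else 0) + if a = y then s else 0) p =
      nn x p + s * nn y p := by
  induction p with
  | nil => simp
  | cons a p ih =>
    rw [itot_cons, ih, nn_cons, nn_cons]
    by_cases h : a = y <;> simp [h] <;> ring

theorem itot_e3 (x y z : A) (p : List A) :
    itot (fun a => (if a = x then (1 : ℤ) else 0) + (if a = y then 1 else 0) +
      if a = z then 1 else 0) p = nn x p + nn y p + nn z p := by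
  induction p with
  | nil => simp
  | cons a p ih =>
    rw [itot_cons, ih, nn_cons, nn_cons, nn_cons]
    ring

variable [Finite A]

theorem good_itot {e : A → ℤ} (he1 : ∀ a, e a ≤ 1) (he2 : ∀ a, -1 ≤ e a) (c : A) (hc : e c = 0)
    (k : ℕ) : Good c (fun p => (itot e p) ^ k) := by
  intro M _
  refine (meas_psum_signed (m := M) he1 he2 c hc M (fun x => x ^ k)).congr (fun w => ?_)
  rw [psum_cast]
  push_cast
  rfl

variable {c : A}

theorem good_x {x : A} (hx : x ≠ c) (k : ℕ) : Good c (fun p => (nn x p) ^ k) := by
  refine (good_itot (e := fun a => if a = x then (1 : ℤ) else 0) ?_ ?_ c ?_ k).congr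
    (fun p => by rw [itot_e1])
  · intro a
    split_ifs <;> simp
  · intro a
    split_ifs <;> simp
  · simp [hx.symm]

theorem good_xy {x y : A} (hx : x ≠ c) (hy : y ≠ c) (hxy : x ≠ y) {s : ℤ} (hs : s = 1 ∨ s = -1)
    (k : ℕ) : Good c (fun p => (nn x p + s * nn y p) ^ k) := by
  refine (good_itot (e := fun a => (if a = x then (1 : ℤ) else 0) + if a = y then s else 0)
    ?_ ?_ c ?_ k).congr (fun p => by rw [itot_e2])
  · intro a
    show (if a = x then (1 : ℤ) else 0) + (if a = y then s else 0) ≤ 1
    split_ifs with h1 h2
    · exact absurd (h1.symm.trans h2) hxy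
    all_goals (rcases hs with rfl | rfl <;> norm_num)
  · intro a
    show -1 ≤ (if a = x then (1 : ℤ) else 0) + (if a = y then s else 0)
    split_ifs with h1 h2
    · exact absurd (h1.symm.trans h2) hxy
    all_goals (rcases hs with rfl | rfl <;> norm_num)
  · simp [hx.symm, hy.symm]

theorem good_xyz {x y z : A} (hx : x ≠ c) (hy : y ≠ c) (hz : z ≠ c) (hxy : x ≠ y) (hxz : x ≠ z)
    (hyz : y ≠ z) (k : ℕ) : Good c (fun p => (nn x p + nn y p + nn z p) ^ k) := by
  refine (good_itot (e := fun a => (if a = x then (1 : ℤ) else 0) + (if a = y then 1 else 0) +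
    if a = z then 1 else 0) ?_ ?_ c ?_ k).congr (fun p => by rw [itot_e3])
  · intro a
    show (if a = x then (1 : ℤ) else 0) + (if a = y then 1 else 0) + (if a = z then 1 else 0) ≤ 1
    split_ifs with h1 h2 h3 h3 h2 h3 <;> first
      | exact absurd (h1.symm.trans h2) hxy
      | exact absurd (h1.symm.trans h3) hxz
      | exact absurd (h2.symm.trans h3) hyz
      | norm_num
  · intro a
    show -1 ≤ (if a = x then (1 : ℤ) else 0) + (if a = y then 1 else 0) + (if a = z then 1 else 0)
    split_ifs <;> norm_num
  · simp [hx.symm, hy.symm, hz.symm]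

/-- Pairs of different letters, degree two. -/
theorem idle_xy {x y : A} (hx : x ≠ c) (hy : y ≠ c) : Good c (fun p => nn x p * nn y p) := by
  by_cases hxy : x = y
  · subst hxy
    exact (good_x hx 2).congr (fun p => by ring)
  · refine Good.scale (k := 2) (by norm_num) ?_
    refine (((good_xy hx hy hxy (Or.inl rfl) 2).sub (good_x hx 2)).sub (good_x hy 2)).congr
      (fun p => ?_)
    push_cast
    ring

/-- Degree three, no letter is the counted one. -/
theorem idle_xyz {x y z : A} (hx : x ≠ c) (hy : y ≠ c) (hz : z ≠ c) :
    Good c (fun p => nn x p * nn y p * nn z p) := by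
  have two : ∀ {x z : A}, x ≠ c → z ≠ c → x ≠ z → Good c (fun p => nn x p * nn x p * nn z p) := by
    intro x z hx hz hxz
    refine Good.scale (k := 6) (by norm_num) ?_
    refine (((good_xy hx hz hxz (Or.inl rfl) 3).sub (good_xy hx hz hxz (Or.inr rfl) 3)).sub
      ((good_x hz 3).smul 2)).congr (fun p => ?_)
    push_cast
    ring
  by_cases hxy : x = y
  · subst hxy
    by_cases hxz : x = z
    · subst hxz
      exact (good_x hx 3).congr (fun p => by ring)
    · exact two hx hz hxz
  · by_cases hxz : x = z
    · subst hxz
      exact (two hx hy hxy).congr (fun p => by ring)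
    · by_cases hyz : y = z
      · subst hyz
        exact (two hy hx (Ne.symm hxy)).congr (fun p => by ring)
      · refine Good.scale (k := 6) (by norm_num) ?_
        have h1 := good_xyz hx hy hz hxy hxz hyz 3
        have h2 := good_xy hx hy hxy (Or.inl rfl) 3
        have h3 := good_xy hx hz hxz (Or.inl rfl) 3
        have h4 := good_xy hy hz hyz (Or.inl rfl) 3
        have h5 := good_x hx 3
        have h6 := good_x hy 3
        have h7 := good_x hz 3
        refine (((((((h1.sub h2).sub h3).sub h4).add h5).add h6).add h7)).congr (fun p => ?_)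
        push_cast
        ring

end Forms

section Own

theorem psum_one (c : A) (w : List A) : psum c (fun _ => (1 : ℤ)) w = nn c w := by
  induction w using List.reverseRecOn with
  | nil => simp
  | append_singleton w a ih =>
    rw [psum_snoc, ih, nn_snoc]

theorem own1_id (c : A) (w : List A) : 2 * psum c (nn c) w = nn c w ^ 2 - nn c w := by
  induction w using List.reverseRecOn with
  | nil => simp
  | append_singleton w a ih =>
    rw [psum_snoc, nn_snoc]
    by_cases h : a = c
    · simp only [h, if_true]
      linear_combination ih
    · simp only [h, if_false]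
      linear_combination ih

theorem own2_id (c : A) (w : List A) :
    6 * psum c (fun p => nn c p ^ 2) w = 2 * nn c w ^ 3 - 3 * nn c w ^ 2 + nn c w := by
  induction w using List.reverseRecOn with
  | nil => simp
  | append_singleton w a ih =>
    rw [psum_snoc, nn_snoc]
    by_cases h : a = c
    · simp only [h, if_true]
      linear_combination ih
    · simp only [h, if_false]
      linear_combination ih

theorem own3_id (c : A) (w : List A) :
    4 * psum c (fun p => nn c p ^ 3) w = nn c w ^ 2 * (nn c w - 1) ^ 2 := by
  induction w using List.reverseRecOn with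
  | nil => simp
  | append_singleton w a ih =>
    rw [psum_snoc, nn_snoc]
    by_cases h : a = c
    · simp only [h, if_true]
      linear_combination ih
    · simp only [h, if_false]
      linear_combination ih

theorem own1y_id {c y : A} (hy : y ≠ c) (w : List A) :
    2 * psum c (fun p => nn c p * nn y p) w =
      (nn c w ^ 2 - nn c w) * nn y w - psum y (fun p => nn c p ^ 2 - nn c p) w := by
  induction w using List.reverseRecOn with
  | nil => simp
  | append_singleton w a ih =>
    rw [psum_snoc, psum_snoc, nn_snoc, nn_snoc]
    by_cases h : a = c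
    · subst h
      simp only [if_true, hy.symm, if_false]
      linear_combination ih
    · by_cases h2 : a = y
      · subst h2
        simp only [if_true, h, if_false]
        linear_combination ih
      · simp only [h, h2, if_false]
        linear_combination ih

theorem own2y_id {c y : A} (hy : y ≠ c) (w : List A) :
    6 * psum c (fun p => nn c p ^ 2 * nn y p) w =
      (2 * nn c w ^ 3 - 3 * nn c w ^ 2 + nn c w) * nn y w -
        psum y (fun p => 2 * nn c p ^ 3 - 3 * nn c p ^ 2 + nn c p) w := by
  induction w using List.reverseRecOn with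
  | nil => simp
  | append_singleton w a ih =>
    rw [psum_snoc, psum_snoc, nn_snoc, nn_snoc]
    by_cases h : a = c
    · subst h
      simp only [if_true, hy.symm, if_false]
      linear_combination ih
    · by_cases h2 : a = y
      · subst h2
        simp only [if_true, h, if_false]
        linear_combination ih
      · simp only [h, h2, if_false]
        linear_combination ih

theorem own1yz_id {c y z : A} (hy : y ≠ c) (hz : z ≠ c) (hyz : y ≠ z) (w : List A) :
    2 * psum c (fun p => nn c p * nn y p * nn z p) w =
      (nn c w ^ 2 - nn c w) * nn y w * nn z w -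
        psum y (fun p => (nn c p ^ 2 - nn c p) * nn z p) w -
        psum z (fun p => (nn c p ^ 2 - nn c p) * nn y p) w := by
  induction w using List.reverseRecOn with
  | nil => simp
  | append_singleton w a ih =>
    rw [psum_snoc, psum_snoc, psum_snoc, nn_snoc, nn_snoc, nn_snoc]
    by_cases h : a = c
    · subst h
      simp only [if_true, hy.symm, hz.symm, if_false]
      linear_combination ih
    · by_cases h2 : a = y
      · subst h2
        simp only [if_true, h, hyz, if_false]
        linear_combination ih
      · by_cases h3 : a = z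
        · subst h3
          simp only [if_true, h, h2, if_false]
          linear_combination ih
        · simp only [h, h2, h3, if_false]
          linear_combination ih

variable [Finite A] {c : A}

theorem good_one : Good c (fun _ => (1 : ℤ)) :=
  (measZ_nn c).congr (fun w => (psum_one c w).symm)

theorem good_own1 : Good c (nn c) := by
  refine MeasZ.scale (k := 2) (by norm_num) ?_
  refine (((measZ_nn c).pow 2).sub (measZ_nn c)).congr (fun w => ?_)
  push_cast
  rw [own1_id]

theorem good_own2 : Good c (fun p => nn c p ^ 2) := by
  refine MeasZ.scale (k := 6) (by norm_num) ?_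
  refine ((((((measZ_nn c).pow 3).smul 2).sub (((measZ_nn c).pow 2).smul 3)).add
    (measZ_nn c))).congr (fun w => ?_)
  push_cast
  rw [own2_id]

theorem good_own3 : Good c (fun p => nn c p ^ 3) := by
  refine MeasZ.scale (k := 4) (by norm_num) ?_
  refine (((measZ_nn c).pow 2).mul (((measZ_nn c).sub (MeasZ.const 1)).pow 2)).congr (fun w => ?_)
  push_cast
  rw [own3_id]

theorem good_own1y {y : A} (hy : y ≠ c) : Good c (fun p => nn c p * nn y p) := by
  refine MeasZ.scale (k := 2) (by norm_num) ?_
  have h1 : Good y (fun p => nn c p ^ 2 - nn c p) :=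
    (good_x hy.symm 2).sub ((good_x hy.symm 1).congr (fun p => by ring))
  refine ((((((measZ_nn c).pow 2).sub (measZ_nn c)).mul (measZ_nn y)).sub h1)).congr (fun w => ?_)
  push_cast
  rw [own1y_id hy]

theorem good_own2y {y : A} (hy : y ≠ c) : Good c (fun p => nn c p ^ 2 * nn y p) := by
  refine MeasZ.scale (k := 6) (by norm_num) ?_
  have h1 : Good y (fun p => 2 * nn c p ^ 3 - 3 * nn c p ^ 2 + nn c p) :=
    (((good_x hy.symm 3).smul 2).sub ((good_x hy.symm 2).smul 3)).add
      ((good_x hy.symm 1).congr (fun p => by ring))
  refine (((((((measZ_nn c).pow 3).smul 2).sub (((measZ_nn c).pow 2).smul 3)).add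
    (measZ_nn c)).mul (measZ_nn y)).sub h1).congr (fun w => ?_)
  push_cast
  rw [own2y_id hy]

theorem good_own1yz {y z : A} (hy : y ≠ c) (hz : z ≠ c) (hyz : y ≠ z) :
    Good c (fun p => nn c p * nn y p * nn z p) := by
  refine MeasZ.scale (k := 2) (by norm_num) ?_
  have h1 : Good y (fun p => (nn c p ^ 2 - nn c p) * nn z p) :=
    ((idle_xyz hy.symm hy.symm hyz.symm).sub (idle_xy hy.symm hyz.symm)).congr (fun p => by ring)
  have h2 : Good z (fun p => (nn c p ^ 2 - nn c p) * nn y p) :=
    ((idle_xyz hz.symm hz.symm hyz).sub (idle_xy hz.symm hyz)).congr (fun p => by ring)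
  refine ((((((((measZ_nn c).pow 2).sub (measZ_nn c)).mul (measZ_nn y)).mul (measZ_nn z)).sub
    h1).sub h2)).congr (fun w => ?_)
  push_cast
  rw [own1yz_id hy hz hyz]

/-- The map to a two letter alphabet, erasing everything else. -/
def toBool (c y : A) (a : A) : Option Bool :=
  if a = c then some true else if a = y then some false else none

theorem filterMap_toBool_length {c y : A} (hy : y ≠ c) (p : List A) :
    ((p.filterMap (toBool c y)).length : ℤ) = nn c p + nn y p := by
  induction p using List.reverseRecOn with
  | nil => simp
  | append_singleton w a ih =>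
    rw [List.filterMap_append, List.length_append, nn_snoc, nn_snoc]
    push_cast
    rw [ih]
    by_cases h : a = c
    · subst h
      simp [toBool, hy.symm]
      ring
    · by_cases h2 : a = y
      · subst h2
        simp [toBool, h]
        ring
      · simp [toBool, h, h2]

/-- The cube of the count of two letters, one of them the counted one. -/
theorem good_cube {y : A} (hy : y ≠ c) : Good c (fun p => (nn c p + nn y p) ^ 3) := by
  intro M _
  have hM : 0 < M := Nat.pos_of_ne_zero (NeZero.ne M)
  let f : ℕ → ℤ := fun n => ((n % M : ℕ) : ℤ) ^ 3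
  have hf : Function.Periodic f M := fun x => by simp [f]
  have hfc : ∀ n : ℕ, ((f n : ℤ) : ZMod M) = (n : ZMod M) ^ 3 := by
    intro n
    simp [f]
  have h1 := (meas_len true M hM f hf M).erase (toBool c y)
  refine h1.congr (fun w => ?_)
  induction w using List.reverseRecOn with
  | nil => simp [Tf]
  | append_singleton w a ih =>
    rw [List.filterMap_append, psum_snoc]
    push_cast
    rw [← ih]
    by_cases h : a = c
    · subst h
      have : [a].filterMap (toBool a y) = [true] := by simp [toBool]
      rw [this, Tf_snoc]
      push_cast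
      simp only [if_true]
      rw [hfc]
      have h3 := filterMap_toBool_length hy w
      have h4 : ((w.filterMap (toBool a y)).length : ZMod M) =
          ((nn a w : ℤ) : ZMod M) + ((nn y w : ℤ) : ZMod M) := by
        have := congrArg (fun z : ℤ => (z : ZMod M)) h3
        simpa using this
      rw [h4]
    · rw [if_neg h]
      by_cases h2 : a = y
      · subst h2
        have : [a].filterMap (toBool c a) = [false] := by simp [toBool, h]
        rw [this, Tf_snoc]
        simp
      · have : [a].filterMap (toBool c y) = [] := by simp [toBool, h, h2]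
        rw [this]
        simp

theorem good_own1yy {y : A} (hy : y ≠ c) : Good c (fun p => nn c p * nn y p * nn y p) := by
  refine Good.scale (k := 3) (by norm_num) ?_
  refine ((((good_cube hy).sub good_own3).sub ((good_own2y hy).smul 3)).sub
    (good_x hy 3)).congr (fun p => ?_)
  push_cast
  ring

theorem good_own1two {y z : A} (hy : y ≠ c) (hz : z ≠ c) :
    Good c (fun p => nn c p * nn y p * nn z p) := by
  by_cases hyz : y = z
  · subst hyz
    exact good_own1yy hy
  · exact good_own1yz hy hz hyz

/-- Degree two. -/
theorem good_deg2 (x y : A) : Good c (fun p => nn x p * nn y p) := by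
  by_cases hx : x = c
  · subst hx
    by_cases hy : y = x
    · subst hy
      exact good_own2.congr (fun p => by ring)
    · exact good_own1y hy
  · by_cases hy : y = c
    · subst hy
      exact (good_own1y hx).congr (fun p => by ring)
    · exact idle_xy hx hy

/-- Degree one. -/
theorem good_deg1 (x : A) : Good c (nn x) := by
  by_cases hx : x = c
  · subst hx
    exact good_own1
  · exact (good_x hx 1).congr (fun p => by ring)

/-- Degree three. -/
theorem good_deg3 (x y z : A) : Good c (fun p => nn x p * nn y p * nn z p) := by
  by_cases hx : x = c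
  · subst hx
    by_cases hy : y = x
    · subst hy
      by_cases hz : z = y
      · subst hz
        exact good_own3.congr (fun p => by ring)
      · exact (good_own2y hz).congr (fun p => by ring)
    · by_cases hz : z = x
      · subst hz
        exact (good_own2y hy).congr (fun p => by ring)
      · exact good_own1two hy hz
  · by_cases hy : y = c
    · subst hy
      by_cases hz : z = y
      · subst hz
        exact (good_own2y hx).congr (fun p => by ring)
      · exact (good_own1two hx hz).congr (fun p => by ring)
    · by_cases hz : z = c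
      · subst hz
        exact (good_own1two hx hy).congr (fun p => by ring)
      · exact idle_xyz hx hy hz

end Own

section Pol

/-- The product of the counts of the letters of a list. -/
def mon (v : List A) (p : List A) : ℤ := (v.map (fun b => nn b p)).prod

theorem mon_append (v v' : List A) (p : List A) : mon (v ++ v') p = mon v p * mon v' p := by
  simp [mon]

/-- Integer polynomials of degree at most `j` in the letter counts. -/
def Pol (A : Type) [DecidableEq A] (j : ℕ) : AddSubgroup (List A → ℤ) :=
  AddSubgroup.closure {g | ∃ v : List A, v.length ≤ j ∧ g = mon v}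

theorem Pol_mono {i j : ℕ} (h : i ≤ j) : Pol A i ≤ Pol A j := by
  apply AddSubgroup.closure_mono
  rintro g ⟨v, hv, rfl⟩
  exact ⟨v, hv.trans h, rfl⟩

theorem Pol_mul {i j : ℕ} {g h : List A → ℤ} (hg : g ∈ Pol A i) (hh : h ∈ Pol A j) :
    (fun p => g p * h p) ∈ Pol A (i + j) := by
  induction hg using AddSubgroup.closure_induction with
  | mem g hg =>
    obtain ⟨v, hv, rfl⟩ := hg
    induction hh using AddSubgroup.closure_induction with
    | mem h hh =>
      obtain ⟨v', hv', rfl⟩ := hh
      refine AddSubgroup.subset_closure ⟨v ++ v', by simp; omega, ?_⟩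
      funext p
      rw [mon_append]
    | zero =>
      refine (congrArg (· ∈ Pol A (i + j)) ?_).mp (Pol A (i + j)).zero_mem
      funext p
      simp
    | add x y _ _ hx hy =>
      have := (Pol A (i + j)).add_mem hx hy
      refine (congrArg (· ∈ Pol A (i + j)) ?_).mp this
      funext p
      simp [mul_add]
    | neg x _ hx =>
      have := (Pol A (i + j)).neg_mem hx
      refine (congrArg (· ∈ Pol A (i + j)) ?_).mp this
      funext p
      simp
  | zero =>
    refine (congrArg (· ∈ Pol A (i + j)) ?_).mp (Pol A (i + j)).zero_mem
    funext p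
    simp
  | add x y _ _ hx hy =>
    have := (Pol A (i + j)).add_mem hx hy
    refine (congrArg (· ∈ Pol A (i + j)) ?_).mp this
    funext p
    simp [add_mul]
  | neg x _ hx =>
    have := (Pol A (i + j)).neg_mem hx
    refine (congrArg (· ∈ Pol A (i + j)) ?_).mp this
    funext p
    simp

/-- Polynomials with rational coefficients, taking integer values. -/
def QPoly (j : ℕ) (P : List A → ℤ) : Prop :=
  ∃ k : ℕ, 0 < k ∧ (fun p => (k : ℤ) * P p) ∈ Pol A j

theorem QPoly.mul {i j : ℕ} {P Q : List A → ℤ} (hP : QPoly i P) (hQ : QPoly j Q) :
    QPoly (i + j) (fun p => P p * Q p) := by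
  obtain ⟨k, hk, h1⟩ := hP
  obtain ⟨k', hk', h2⟩ := hQ
  refine ⟨k * k', Nat.mul_pos hk hk', ?_⟩
  refine (congrArg (· ∈ Pol A (i + j)) ?_).mp (Pol_mul h1 h2)
  funext p
  push_cast
  ring

theorem QPoly.one : QPoly 0 (fun _ : List A => 1) :=
  ⟨1, one_pos, AddSubgroup.subset_closure ⟨[], by simp, by funext p; simp [mon]⟩⟩

theorem Pol_one (j : ℕ) : (fun _ : List A => (1 : ℤ)) ∈ Pol A j :=
  AddSubgroup.subset_closure ⟨[], by simp, by funext p; simp [mon]⟩

theorem Pol_const (j : ℕ) (k : ℤ) : (fun _ : List A => k) ∈ Pol A j := by
  have := (Pol A j).zsmul_mem (Pol_one j) k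
  refine (congrArg (· ∈ Pol A j) ?_).mp this
  funext p
  simp

theorem Pol_nn (b : A) : nn b ∈ Pol A 1 :=
  AddSubgroup.subset_closure ⟨[b], by simp, by funext p; simp [mon]⟩

theorem choose_succ_int (n i : ℕ) :
    ((n.choose (i + 1) : ℕ) : ℤ) * ((i : ℤ) + 1) = (n.choose i : ℤ) * ((n : ℤ) - i) := by
  have h1 := Nat.choose_succ_right_eq n i
  by_cases h : i ≤ n
  · have h2 := congrArg (fun m : ℕ => (m : ℤ)) h1
    simp only [Nat.cast_mul, Nat.cast_add, Nat.cast_one, Nat.cast_sub h] at h2
    exact h2
  · have h3 : n.choose i = 0 := Nat.choose_eq_zero_of_lt (by omega)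
    have h4 : n.choose (i + 1) = 0 := Nat.choose_eq_zero_of_lt (by omega)
    simp [h3, h4]

/-- The binomial coefficient of a letter count. -/
theorem QPoly.choose (b : A) (i : ℕ) :
    QPoly i (fun p => ((p.count b).choose i : ℤ)) := by
  induction i with
  | zero =>
    refine ⟨1, one_pos, (congrArg (· ∈ Pol A 0) ?_).mp (Pol_one 0)⟩
    funext p
    simp
  | succ i ih =>
    obtain ⟨k, hk, h1⟩ := ih
    refine ⟨k * (i + 1), Nat.mul_pos hk (Nat.succ_pos i), ?_⟩
    have h2 : (fun p : List A => nn b p - (i : ℤ)) ∈ Pol A 1 :=
      (Pol A 1).sub_mem (Pol_nn b) (Pol_const 1 (i : ℤ))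
    refine (congrArg (· ∈ Pol A (i + 1)) ?_).mp (Pol_mul h1 h2)
    funext p
    have := choose_succ_int (p.count b) i
    simp only [nn]
    push_cast
    linear_combination (-(k : ℤ)) * this

variable [Finite A] {c : A}

theorem good_of_pol3 {g : List A → ℤ} (hg : g ∈ Pol A 3) : Good c g := by
  induction hg using AddSubgroup.closure_induction with
  | mem g hg =>
    obtain ⟨v, hv, rfl⟩ := hg
    match v, hv with
    | [], _ => exact good_one.congr (fun p => by simp [mon])
    | [x], _ => exact (good_deg1 x).congr (fun p => by simp [mon])
    | [x, y], _ => exact (good_deg2 x y).congr (fun p => by simp [mon])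
    | [x, y, z], _ => exact (good_deg3 x y z).congr (fun p => by simp [mon]; ring)
    | _ :: _ :: _ :: _ :: _, hv => simp at hv; omega
  | zero => exact Good.zero
  | add x y _ _ hx hy => exact hx.add hy
  | neg x _ hx => exact hx.neg

/-- All polynomial weights of degree at most three. -/
theorem good_of_qpoly3 {P : List A → ℤ} (hP : QPoly 3 P) : Good c P := by
  obtain ⟨k, hk, h⟩ := hP
  exact Good.scale hk (good_of_pol3 h)

end Pol

end Vale.Agent.P329
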