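import Vale.Agent.P329.Subword3

/-!
Phases modulo a prime with arbitrary steps: the number of occurrences of a letter in a given
phase, modulo any integer, is measurable.
-/

namespace Vale.Agent.P329

variable {A Q : Type}

theorem noJump_append {δ : Q → A → Q} {J : Q → A → Prop} (q : Q) (x y : List A) :
    NoJump δ J q (x ++ y) ↔ NoJump δ J q x ∧ NoJump δ J (run δ q x) y := by
  induction x generalizing q with
  | nil => simp [NoJump]
  | cons a x ih =>
    simp only [List.cons_append, NoJump, run_cons, ih, and_assoc]

/-- Transfer of jump counts along a simulation. -/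
theorem jc_sim {Q' : Type} {δ : Q → A → Q} {δ' : Q' → A → Q'} {J : Q → A → Prop}
    {J' : Q' → A → Prop} (σ : Q → Q') (h1 : ∀ q a, σ (δ q a) = δ' (σ q) a)
    (h2 : ∀ q a, J q a ↔ J' (σ q) a) (q : Q) (w : List A) :
    jc δ J q w = jc δ' J' (σ q) w := by
  classical
  induction w generalizing q with
  | nil => rfl
  | cons a w ih =>
    simp only [jc]
    rw [ih, h1]
    by_cases h : J q a
    · simp [h, (h2 q a).1 h]
    · have h' : ¬ J' (σ q) a := fun hh => h ((h2 q a).2 hh)
      simp [h, h']

section Wsum

variable {R : Type} [AddCommGroup R]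

/-- A weighted sum along a run. -/
def wsum (δ : Q → A → Q) (g : Q → A → R) : Q → List A → R
  | _, [] => 0
  | q, a :: w => g q a + wsum δ g (δ q a) w

theorem wsum_add (δ : Q → A → Q) (g g' : Q → A → R) (q : Q) (w : List A) :
    wsum δ (fun q a => g q a + g' q a) q w = wsum δ g q w + wsum δ g' q w := by
  induction w generalizing q with
  | nil => simp [wsum]
  | cons a w ih =>
    simp only [wsum, ih]
    abel

theorem wsum_telescope (δ : Q → A → Q) (Φ : Q → R) (q : Q) (w : List A) :
    wsum δ (fun q a => Φ (δ q a) - Φ q) q w = Φ (run δ q w) - Φ q := by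
  induction w generalizing q with
  | nil => simp [wsum]
  | cons a w ih =>
    simp only [wsum, ih, run_cons]
    abel

theorem wsum_snoc (δ : Q → A → Q) (g : Q → A → R) (q : Q) (w : List A) (a : A) :
    wsum δ g q (w ++ [a]) = wsum δ g q w + g (run δ q w) a := by
  induction w generalizing q with
  | nil => simp [wsum]
  | cons b w ih =>
    simp only [List.cons_append, wsum, ih, run_cons, add_assoc]

end Wsum

theorem wsum_eq_sum_jc {R : Type} [CommRing R] [Fintype Q] [Fintype A] (δ : Q → A → Q)
    (g : Q → A → R) (q : Q) (w : List A) :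
    wsum δ g q w = ∑ q' : Q, ∑ a' : A, g q' a' *
      (jc δ (fun q'' a'' => q'' = q' ∧ a'' = a') q w : R) := by
  classical
  induction w generalizing q with
  | nil => simp [wsum, jc]
  | cons a w ih =>
    simp only [wsum, ih, jc]
    push_cast
    simp only [mul_add, Finset.sum_add_distrib]
    congr 1
    rw [Finset.sum_eq_single q, Finset.sum_eq_single a]
    · simp
    · intro b _ hb
      simp [hb.symm]
    · simp
    · intro b _ hb
      apply Finset.sum_eq_zero
      intro c _
      simp [hb.symm]
    · simp

section Phase

variable {p : ℕ} (t : A → ZMod p)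

/-- The total step of a word. -/
def tot (w : List A) : ZMod p := (w.map t).sum

@[simp] theorem tot_nil : tot t [] = 0 := rfl

@[simp] theorem tot_cons (a : A) (w : List A) : tot t (a :: w) = t a + tot t w := by
  simp [tot]

theorem tot_append (x y : List A) : tot t (x ++ y) = tot t x + tot t y := by
  simp [tot]

/-- The phase automaton. -/
def phaseStep (x : ZMod p) (a : A) : ZMod p := x + t a

theorem run_phaseStep (x : ZMod p) (w : List A) : run (phaseStep t) x w = x + tot t w := by
  induction w generalizing x with
  | nil => simp
  | cons a w ih =>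
    simp only [run_cons, ih, tot_cons, phaseStep]
    ring

/-- Moves that land on the phase `v`. -/
def landing (v x : ZMod p) (a : A) : Prop := t a ≠ 0 ∧ x + t a = v

theorem phase_iter (x : ZMod p) (u : List A) (k : ℕ) :
    (fun q => run (phaseStep t) q u)^[k] x = x + (k : ZMod p) * tot t u := by
  induction k with
  | zero => simp
  | succ k ih =>
    rw [Function.iterate_succ_apply', ih, run_phaseStep]
    push_cast
    ring

end Phase

section PrimePhase

variable {p : ℕ} [Fact p.Prime] (t : A → ZMod p)

theorem exists_mover {u : List A} (h : tot t u ≠ 0) :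
    ∃ u₁ e u₂, u = u₁ ++ e :: u₂ ∧ t e ≠ 0 ∧ ∀ z ∈ u₁, t z = 0 := by
  induction u with
  | nil => simp at h
  | cons a u ih =>
    by_cases ha : t a = 0
    · have : tot t u ≠ 0 := by simpa [ha] using h
      obtain ⟨u₁, e, u₂, rfl, he, h0⟩ := ih this
      refine ⟨a :: u₁, e, u₂, rfl, he, ?_⟩
      intro z hz
      rcases List.mem_cons.1 hz with rfl | hz
      · exact ha
      · exact h0 z hz
    · exact ⟨[], a, u, rfl, ha, by simp⟩

theorem exists_iter_eq {τ : ZMod p} (hτ : τ ≠ 0) (y : ZMod p) :
    ∃ k : ℕ, 0 < k ∧ (k : ZMod p) * τ = y := by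
  refine ⟨(y / τ).val + p, by have := (Fact.out : p.Prime).pos; omega, ?_⟩
  push_cast
  simp [hτ]

/-- The phase automaton with the landing moves is a cut. -/
theorem phase_cut (v : ZMod p) : Cut (phaseStep t) v (landing t v) := by
  refine ⟨fun q a h => h.2, ?_⟩
  intro u q hq
  by_cases hτ : tot t u = 0
  · refine ⟨0, ?_⟩
    simp [run_phaseStep, hτ]
  · exfalso
    obtain ⟨u₁, e, u₂, rfl, he, -⟩ := exists_mover t hτ
    obtain ⟨k, -, hk⟩ := exists_iter_eq hτ (v - q - tot t u₁ - t e)
    have h1 := hq k
    rw [phase_iter, noJump_append] at h1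
    have h2 : NoJump (phaseStep t) (landing t v)
        (run (phaseStep t) (q + (k : ZMod p) * tot t (u₁ ++ e :: u₂)) u₁) (e :: u₂) := h1.2
    apply h2.1
    refine ⟨he, ?_⟩
    rw [run_phaseStep, hk]
    ring

/-- The automaton remembering whether the last moving letter was `m`, forgetting it at `v`. -/
noncomputable def flagStep (m : A) (v : ZMod p) : ZMod p × Bool → A → ZMod p × Bool := by
  classical
  exact fun s a => if t a = 0 then s else
    if s.1 + t a = v then (v, false) else (s.1 + t a, decide (a = m))

/-- The counted transitions: the letter `b` lands on `v` right after the moving letter `m`. -/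
def flagF (b : A) (v : ZMod p) : ZMod p × Bool → A → Prop :=
  fun s a => a = b ∧ s.2 = true ∧ s.1 + t a = v

/-- The remaining landings. -/
def flagJ (b : A) (v : ZMod p) : ZMod p × Bool → A → Prop :=
  fun s a => t a ≠ 0 ∧ s.1 + t a = v ∧ ¬ flagF t b v s a

theorem flagStep_idle (m : A) (v : ZMod p) (s : ZMod p × Bool) {a : A} (h : t a = 0) :
    flagStep t m v s a = s := by
  simp [flagStep, h]

theorem flagStep_fst (m : A) (v : ZMod p) (s : ZMod p × Bool) (a : A) :
    (flagStep t m v s a).1 = s.1 + t a := by
  unfold flagStep
  by_cases h : t a = 0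
  · simp [h]
  · by_cases h2 : s.1 + t a = v
    · simp [h, h2]
    · simp [h, h2]

theorem run_flag_fst (m : A) (v : ZMod p) (s : ZMod p × Bool) (w : List A) :
    (run (flagStep t m v) s w).1 = s.1 + tot t w := by
  induction w generalizing s with
  | nil => simp
  | cons a w ih =>
    simp only [run_cons, ih, tot_cons, flagStep_fst]
    ring

theorem flag_iter_fst (m : A) (v : ZMod p) (s : ZMod p × Bool) (u : List A) (k : ℕ) :
    ((fun q => run (flagStep t m v) q u)^[k] s).1 = s.1 + (k : ZMod p) * tot t u := by
  induction k with
  | zero => simp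
  | succ k ih =>
    rw [Function.iterate_succ_apply', run_flag_fst, ih]
    push_cast
    ring

/-- If `u` contains a moving letter then the run of `u` forgets the flag. -/
theorem run_flag_indep (m : A) (v : ZMod p) (x : ZMod p) (f f' : Bool) {u : List A}
    (h : ∃ e ∈ u, t e ≠ 0) : run (flagStep t m v) (x, f) u = run (flagStep t m v) (x, f') u := by
  induction u generalizing x with
  | nil => simp at h
  | cons a u ih =>
    simp only [run_cons]
    by_cases ha : t a = 0
    · rw [flagStep_idle t m v _ ha, flagStep_idle t m v _ ha]
      apply ih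
      obtain ⟨e, he, hte⟩ := h
      rcases List.mem_cons.1 he with rfl | he
      · exact absurd ha hte
      · exact ⟨e, he, hte⟩
    · have : flagStep t m v (x, f) a = flagStep t m v (x, f') a := by
        simp [flagStep, ha]
      rw [this]

theorem run_flag_all_idle (m : A) (v : ZMod p) (s : ZMod p × Bool) {u : List A}
    (h : ∀ e ∈ u, t e = 0) : run (flagStep t m v) s u = s := by
  induction u generalizing s with
  | nil => rfl
  | cons a u ih =>
    simp only [run_cons]
    rw [flagStep_idle t m v _ (h a (by simp))]
    exact ih _ (fun e he => h e (by simp [he]))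

/-- If all moving letters of `u` are `b ≠ m`, and there is one, the flag is down after `u`. -/
theorem run_flag_down {m b : A} (hmb : b ≠ m) (v : ZMod p) (s : ZMod p × Bool) {u : List A}
    (h : ∀ e ∈ u, t e ≠ 0 → e = b) (h2 : ∃ e ∈ u, t e ≠ 0) :
    (run (flagStep t m v) s u).2 = false := by
  have key : ∀ (u : List A) (s : ZMod p × Bool), (∀ e ∈ u, t e ≠ 0 → e = b) →
      s.2 = false → (run (flagStep t m v) s u).2 = false := by
    intro u
    induction u with
    | nil => intro s _ hs; exact hs
    | cons a u ih =>
      intro s h hs
      simp only [run_cons]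
      apply ih _ (fun e he => h e (by simp [he]))
      by_cases ha : t a = 0
      · rw [flagStep_idle t m v _ ha]
        exact hs
      · have hab : a = b := h a (by simp) ha
        subst hab
        by_cases h3 : s.1 + t a = v <;> simp [flagStep, ha, h3, hmb]
  induction u generalizing s with
  | nil => simp at h2
  | cons a u ih =>
    simp only [run_cons]
    by_cases ha : t a = 0
    · rw [flagStep_idle t m v _ ha]
      apply ih _ (fun e he => h e (by simp [he]))
      obtain ⟨e, he, hte⟩ := h2
      rcases List.mem_cons.1 he with rfl | he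
      · exact absurd ha hte
      · exact ⟨e, he, hte⟩
    · have hab : a = b := h a (by simp) ha
      subst hab
      apply key u _ (fun e he => h e (by simp [he]))
      by_cases h3 : s.1 + t a = v <;> simp [flagStep, ha, h3, hmb]

/-- The flag automaton has the remaining landings as a cut. -/
theorem flag_cut {m b : A} (hmb : b ≠ m) (v : ZMod p) :
    Cut (flagStep t m v) (v, false) (flagJ t b v) := by
  classical
  refine ⟨?_, ?_⟩
  · rintro s a ⟨h1, h2, -⟩
    simp [flagStep, h1, h2]
  · intro u s hs
    by_cases hτ : tot t u = 0
    · -- the phase comes back: the second iterate equals the first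
      refine ⟨1, ?_⟩
      simp only [Function.iterate_succ, Function.iterate_zero, Function.comp_apply, id]
      by_cases hm : ∃ e ∈ u, t e ≠ 0
      · have h1 : (run (flagStep t m v) s u).1 = s.1 := by
          rw [run_flag_fst, hτ, add_zero]
        have hr : run (flagStep t m v) s u = (s.1, (run (flagStep t m v) s u).2) :=
          Prod.ext h1 rfl
        conv_lhs => rw [hr]
        exact run_flag_indep t m v s.1 _ s.2 hm
      · push Not at hm
        rw [run_flag_all_idle t m v _ hm, run_flag_all_idle t m v _ hm]
    · exfalso
      by_cases hall : ∀ e ∈ u, t e ≠ 0 → e = b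
      · -- all moving letters are `b`
        obtain ⟨u₁, e, u₂, rfl, he, hidle⟩ := exists_mover t hτ
        have heb : e = b := hall e (by simp) he
        subst heb
        obtain ⟨k, hk0, hk⟩ := exists_iter_eq hτ (v - s.1 - t e)
        obtain ⟨k', rfl⟩ : ∃ k', k = k' + 1 := ⟨k - 1, by omega⟩
        have h1 := hs (k' + 1)
        rw [noJump_append] at h1
        have h2 := h1.2.1
        apply h2
        have hf : ((fun q => run (flagStep t m v) q (u₁ ++ e :: u₂))^[k' + 1] s).2 = false := by
          rw [Function.iterate_succ_apply']
          exact run_flag_down t hmb v _ hall ⟨e, by simp, he⟩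
        have hst := run_flag_all_idle t m v
          ((fun q => run (flagStep t m v) q (u₁ ++ e :: u₂))^[k' + 1] s) hidle
        rw [hst]
        have hph := flag_iter_fst t m v s (u₁ ++ e :: u₂) (k' + 1)
        refine ⟨he, ?_, ?_⟩
        · rw [hph, hk]
          ring
        · rintro ⟨-, h3, -⟩
          rw [hf] at h3
          exact Bool.false_ne_true h3
      · push Not at hall
        obtain ⟨e, he, hte, heb⟩ := hall
        obtain ⟨u₁, u₂, rfl⟩ := List.mem_iff_append.1 he
        obtain ⟨k, -, hk⟩ := exists_iter_eq hτ (v - s.1 - tot t u₁ - t e)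
        have h1 := hs k
        rw [noJump_append] at h1
        apply h1.2.1
        have hph := flag_iter_fst t m v s (u₁ ++ e :: u₂) k
        refine ⟨hte, ?_, ?_⟩
        · rw [run_flag_fst, hph, hk]
          ring
        · rintro ⟨h3, -, -⟩
          exact heb h3

end PrimePhase

end Vale.Agent.P329
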