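import Vale.Agent.P329.Prime

/-!
Telescoping: counts of moving letters in a given phase modulo a prime.
-/

namespace Vale.Agent.P329

variable {A : Type}

section Scale

/-- Division by a known factor, using a larger modulus. -/
theorem meas_scale {k n : ℕ} [NeZero n] (hk : 0 < k) {f : List A → ℕ}
    (h : Meas (fun w => ((k * f w : ℕ) : ZMod (k * n)))) : Meas (fun w => (f w : ZMod n)) := by
  have : NeZero (k * n) := ⟨by simp [hk.ne', NeZero.ne n]⟩
  let halve : ZMod (k * n) → ZMod n := fun t => ((t.val / k : ℕ) : ZMod n)
  refine (h.comp halve).congr (fun w => ?_)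
  simp only [halve]
  rw [ZMod.val_natCast, Nat.mul_mod_mul_left, Nat.mul_div_cancel_left _ hk]
  simp

end Scale

/-- A number of occurrences of the letter `c` at prefixes satisfying `P`. -/
noncomputable def occ [DecidableEq A] (c : A) (P : List A → Prop) (w : List A) : ℕ := by
  classical
  exact psum c (fun u => if P u then 1 else 0) w

open Classical in
theorem occ_snoc [DecidableEq A] (c : A) (P : List A → Prop) (w : List A) (a : A) :
    occ c P (w ++ [a]) = occ c P w + if a = c ∧ P w then 1 else 0 := by
  unfold occ
  rw [psum_snoc]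
  by_cases h : a = c <;> by_cases h2 : P w <;> simp [h, h2]

@[simp] theorem occ_nil [DecidableEq A] (c : A) (P : List A → Prop) : occ c P [] = 0 := rfl

section PrimePhase

variable {p : ℕ} [Fact p.Prime] (t : A → ZMod p)

/-- The automaton with the phase and the last moving letter. -/
def mst (q : ZMod p × A) (a : A) : ZMod p × A := if t a = 0 then q else (q.1 + t a, a)

theorem run_mst_fst (q : ZMod p × A) (w : List A) : (run (mst t) q w).1 = q.1 + tot t w := by
  induction w generalizing q with
  | nil => simp
  | cons a w ih =>
    simp only [run_cons, ih, tot_cons]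
    by_cases h : t a = 0
    · simp [mst, h]
    · simp [mst, h]
      ring

/-- The automaton with the last moving letter only. -/
def lmStep (o : A) (a : A) : A := if t a = 0 then o else a

theorem run_lm_idle {u : List A} (h : ∀ e ∈ u, t e = 0) (o : A) : run (lmStep t) o u = o := by
  induction u generalizing o with
  | nil => rfl
  | cons a u ih =>
    simp only [run_cons]
    rw [ih (fun e he => h e (by simp [he]))]
    simp [lmStep, h a (by simp)]

theorem run_lm_indep {u : List A} (h : ∃ e ∈ u, t e ≠ 0) (o o' : A) :
    run (lmStep t) o u = run (lmStep t) o' u := by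
  induction u generalizing o o' with
  | nil => simp at h
  | cons a u ih =>
    simp only [run_cons]
    by_cases ha : t a = 0
    · have : ∃ e ∈ u, t e ≠ 0 := by
        obtain ⟨e, he, hte⟩ := h
        rcases List.mem_cons.1 he with rfl | he
        · exact absurd ha hte
        · exact ⟨e, he, hte⟩
      simp only [lmStep, ha, if_true]
      exact ih this _ _
    · simp [lmStep, ha]

theorem lm_cut (a : A) : Cut (lmStep t) a (fun _ _ => False) := by
  refine ⟨fun _ _ h => h.elim, ?_⟩
  intro u o _
  refine ⟨1, ?_⟩
  simp only [Function.iterate_succ, Function.iterate_zero, Function.comp_apply, id]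
  by_cases hm : ∃ e ∈ u, t e ≠ 0
  · exact run_lm_indep t hm _ _
  · push Not at hm
    rw [run_lm_idle t hm, run_lm_idle t hm]

theorem run_mst_snd (q : ZMod p × A) (w : List A) :
    (run (mst t) q w).2 = run (lmStep t) q.2 w := by
  induction w generalizing q with
  | nil => rfl
  | cons a w ih =>
    simp only [run_cons, ih]
    by_cases h : t a = 0
    · simp [mst, lmStep, h]
    · simp [mst, lmStep, h]

variable [Finite A]

theorem meas_run_mst (q : ZMod p × A) : Meas (fun w => run (mst t) q w) := by
  rintro ⟨x, o⟩
  have h1 : S1 (fun w : List A => run (phaseStep t) q.1 w = x) := (phase_cut t x).s1 _ _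
  have h2 : S1 (fun w : List A => run (lmStep t) q.2 w = o) := (lm_cut t q.2).s1 _ _
  refine (h1.and h2).congr (fun w => ?_)
  rw [run_phaseStep, Prod.ext_iff, run_mst_fst, run_mst_snd]

/-- Counting the transitions out of a given phase, with a given last moving letter `m`, by a
moving letter `b ≠ m`. -/
theorem meas_pair [DecidableEq A] {m b : A} (hmb : b ≠ m) (hb : t b ≠ 0) (x : ZMod p) (q₀ : ZMod p × A)
    (M : ℕ) [NeZero M] :
    Meas (fun w => (jc (mst t) (fun q a => q = (x, m) ∧ a = b) q₀ w : ZMod M)) := by
  classical
  set v : ZMod p := x + t b with hv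
  let σ : ZMod p × A → ZMod p × Bool := fun q =>
    if q.1 = v then (v, false) else (q.1, decide (q.2 = m))
  have hx : x ≠ v := by
    intro h
    apply hb
    have : x + t b = x + 0 := by rw [add_zero, ← hv, h]
    exact add_left_cancel this
  have h1 : ∀ q a, σ (mst t q a) = flagStep t m v (σ q) a := by
    intro q a
    by_cases ha : t a = 0
    · rw [flagStep_idle t m v _ ha]
      simp [mst, ha]
    · have hm : mst t q a = (q.1 + t a, a) := by simp [mst, ha]
      rw [hm]
      have hfst : (σ q).1 = q.1 := by
        simp only [σ]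
        split_ifs with h
        · exact h.symm
        · rfl
      simp only [flagStep, ha, if_false, hfst, σ]
      by_cases h2 : q.1 + t a = v <;> simp [h2]
  have h2 : ∀ q a, (q = (x, m) ∧ a = b) ↔ flagF t b v (σ q) a := by
    rintro ⟨y, o⟩ a
    simp only [flagF, σ]
    by_cases hy : y = v
    · subst hy
      simp only [if_true, Prod.mk.injEq]
      constructor
      · rintro ⟨⟨h, -⟩, -⟩
        exact absurd h.symm hx
      · rintro ⟨-, h, -⟩
        exact absurd h (by simp)
    · simp only [hy, if_false, Prod.mk.injEq, decide_eq_true_eq]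
      constructor
      · rintro ⟨⟨rfl, rfl⟩, rfl⟩
        exact ⟨rfl, rfl, rfl⟩
      · rintro ⟨rfl, rfl, h3⟩
        refine ⟨⟨?_, rfl⟩, rfl⟩
        have : y + t a = x + t a := by rw [h3]
        exact add_right_cancel this
  have h3 : Meas (fun w => (jc (flagStep t m v) (flagF t b v) (σ q₀) w : ZMod M)) := by
    refine (flag_cut t hmb v).meas_free ?_ ?_ M (σ q₀)
    · rintro s a ⟨rfl, -, h⟩
      simp [flagStep, hb, h]
    · intro s a hF hJ
      exact hJ.2.2 hF
  refine h3.congr (fun w => ?_)
  rw [jc_sim σ h1 h2 q₀ w]

/-- A potential for a function of sum zero along a nonzero step. -/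
theorem exists_potential {R : Type} [AddCommGroup R] {τ : ZMod p} (hτ : τ ≠ 0) (f : ZMod p → R)
    (hf : ∑ y, f y = 0) : ∃ h : ZMod p → R, ∀ y, h (y + τ) - h y = f y := by
  have hp : p.Prime := Fact.out
  refine ⟨fun y => ∑ j ∈ Finset.range (y / τ).val, f ((j : ZMod p) * τ), fun y => ?_⟩
  have hall : ∑ j ∈ Finset.range p, f ((j : ZMod p) * τ) = 0 := by
    rw [← hf]
    refine Finset.sum_nbij' (fun j => (j : ZMod p) * τ) (fun z => (z / τ).val) ?_ ?_ ?_ ?_ ?_
    · simp
    · intro z _
      exact Finset.mem_range.2 (ZMod.val_lt _)
    · intro j hj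
      have hj' : j < p := Finset.mem_range.1 hj
      simp only [mul_div_assoc, div_self hτ, mul_one]
      rw [ZMod.val_natCast, Nat.mod_eq_of_lt hj']
    · intro z _
      simp only [ZMod.natCast_zmod_val]
      field_simp
    · intro _ _
      rfl
  set J := (y / τ).val with hJ
  have hJlt : J < p := ZMod.val_lt _
  have hy : (J : ZMod p) * τ = y := by
    rw [hJ, ZMod.natCast_zmod_val]
    field_simp
  have hstep : (y + τ) / τ = ((J + 1 : ℕ) : ZMod p) := by
    push_cast
    rw [← hy]
    field_simp
  by_cases hJ1 : J + 1 < p
  · have hval : ((y + τ) / τ).val = J + 1 := by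
      rw [hstep, ZMod.val_natCast, Nat.mod_eq_of_lt hJ1]
    simp only
    rw [hval, Finset.sum_range_succ, hy]
    abel
  · have hJp : J + 1 = p := by omega
    have hzero : ((y + τ) / τ).val = 0 := by
      rw [hstep, hJp]
      simp
    simp only
    rw [hzero, Finset.range_zero, Finset.sum_empty, zero_sub]
    have hall' : ∑ j ∈ Finset.range (J + 1), f ((j : ZMod p) * τ) = 0 := by
      have : Finset.range (J + 1) = Finset.range p := by rw [hJp]
      rw [this]
      exact hall
    rw [Finset.sum_range_succ, hy] at hall'
    rw [← hJ]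
    rw [eq_comm, ← add_eq_zero_iff_eq_neg]
    rw [add_comm]
    exact hall'

/-- The telescoping: weighted counts of a moving letter, for weights of sum zero. -/
theorem meas_mover [DecidableEq A] {a : A} (ha : t a ≠ 0) (M : ℕ) [NeZero M] (f : ZMod p → ZMod M)
    (hf : ∑ y, f y = 0) : Meas (fun w => psum a (fun u => f (tot t u)) w) := by
  classical
  have := Fintype.ofFinite A
  obtain ⟨h, hh⟩ := exists_potential ha f hf
  let q₀ : ZMod p × A := (0, a)
  let Φ : ZMod p × A → ZMod M := fun q => if q.2 = a then h q.1 else 0
  let g₂ : ZMod p × A → A → ZMod M := fun q l =>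
    if t l = 0 then 0 else h q.1 * ((if q.2 = a then 1 else 0) - (if l = a then 1 else 0))
  let g₁ : ZMod p × A → A → ZMod M := fun q l => if l = a then f q.1 else 0
  have hg : ∀ q l, g₁ q l = (Φ (mst t q l) - Φ q) + g₂ q l := by
    rintro ⟨x, o⟩ l
    by_cases hl : t l = 0
    · have hla : l ≠ a := fun e => ha (e ▸ hl)
      simp [g₁, g₂, Φ, mst, hl, hla]
    · by_cases hla : l = a
      · subst hla
        have := hh x
        by_cases ho : o = l
        · simp [g₁, g₂, Φ, mst, hl, ho, this.symm]
        · simp [g₁, g₂, Φ, mst, hl, ho, this.symm, sub_eq_add_neg]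
      · by_cases ho : o = a
        · simp [g₁, g₂, Φ, mst, hl, hla, ho]
        · simp [g₁, g₂, Φ, mst, hl, hla, ho]
  have hpsum : ∀ w, psum a (fun u => f (tot t u)) w = wsum (mst t) g₁ q₀ w := by
    intro w
    induction w using List.reverseRecOn with
    | nil => rfl
    | append_singleton w l ih =>
      rw [psum_snoc, wsum_snoc, ih]
      congr 1
      have := run_mst_fst t q₀ w
      simp only [q₀, zero_add] at this
      simp only [g₁, this, q₀]
  have hsplit : ∀ w, wsum (mst t) g₁ q₀ w =
      (Φ (run (mst t) q₀ w) - Φ q₀) + wsum (mst t) g₂ q₀ w := by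
    intro w
    rw [← wsum_telescope, ← wsum_add]
    congr 1
    funext q l
    exact hg q l
  have h1 : Meas (fun w => Φ (run (mst t) q₀ w)) := (meas_run_mst t q₀).comp Φ
  have h2 : Meas (fun w => wsum (mst t) g₂ q₀ w) := by
    have : Meas (fun w => ∑ q' : ZMod p × A, ∑ a' : A, g₂ q' a' *
        (jc (mst t) (fun q'' a'' => q'' = q' ∧ a'' = a') q₀ w : ZMod M)) := by
      refine Meas.finset_sum _ (fun q' => Meas.finset_sum _ (fun a' => ?_))
      by_cases h0 : g₂ q' a' = 0
      · simp only [h0, zero_mul]
        exact Meas.const 0
      · refine (Meas.const _).mul ?_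
        have hmov : t a' ≠ 0 := by
          intro h3
          exact h0 (by simp [g₂, h3])
        have hne : a' ≠ q'.2 := by
          intro h3
          apply h0
          simp only [g₂, h3]
          simp
        obtain ⟨x, m⟩ := q'
        exact meas_pair t hne hmov x q₀ M
    exact this.congr (fun w => (wsum_eq_sum_jc _ g₂ q₀ w).symm)
  refine ((h1.sub (Meas.const (Φ q₀))).add h2).congr (fun w => ?_)
  rw [hpsum, hsplit]

/-- Counts in a given phase modulo a prime with arbitrary steps. -/
theorem meas_occ_prime [DecidableEq A] (c : A) (s : ZMod p) (M : ℕ) [NeZero M] :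
    Meas (fun w => (occ c (fun u => tot t u = s) w : ZMod M)) := by
  classical
  have hp : p.Prime := Fact.out
  by_cases hc : t c = 0
  · -- an idle letter
    let F : ZMod p → A → Prop := fun x a => x = s ∧ a = c
    have h1 := (phase_cut t s).meas_free (F := F) (by
      rintro x a ⟨rfl, rfl⟩
      simp [phaseStep, hc]) (by
      rintro x a ⟨-, rfl⟩ hJ
      exact hJ.1 hc) M 0
    refine h1.congr (fun w => ?_)
    congr 1
    induction w using List.reverseRecOn with
    | nil => rfl
    | append_singleton w a ih =>
      rw [jc_snoc, occ_snoc, ih, run_phaseStep, zero_add]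
      congr 1
      by_cases h2 : a = c
      · by_cases h3 : tot t w = s <;> simp [F, h2, h3]
      · simp [F, h2]
  · -- a moving letter
    have hp0 : 0 < p := hp.pos
    have : NeZero (p * M) := ⟨by simp [hp0.ne', NeZero.ne M]⟩
    apply meas_scale hp0
    let f : ZMod p → ZMod (p * M) := fun y => (p : ZMod (p * M)) * (if y = s then 1 else 0) - 1
    have hf : ∑ y, f y = 0 := by
      simp only [f, Finset.sum_sub_distrib, ← Finset.mul_sum]
      simp [ZMod.card]
    have h1 := meas_mover t hc (p * M) f hf
    have h2 := meas_cnt (fun a => a = c) (p * M)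
    refine (h1.add h2).congr (fun w => ?_)
    induction w using List.reverseRecOn with
    | nil => simp
    | append_singleton w a ih =>
      rw [psum_snoc, cnt_snoc, occ_snoc]
      push_cast at ih ⊢
      by_cases h3 : a = c
      · by_cases h4 : tot t w = s
        · simp only [f] at ih
          simp only [h3, h4, if_true, f, and_self, mul_one]
          linear_combination ih
        · simp only [f] at ih
          simp only [h3, h4, if_true, if_false, f, and_false, mul_zero]
          linear_combination ih
      · simp only [h3, if_false, false_and]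
        linear_combination ih

end PrimePhase

end Vale.Agent.P329
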