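import Vale.Agent.P329.Prime2

/-!
From prime phases to phases in an elementary abelian group, through linear functionals.
-/

namespace Vale.Agent.P329

variable {A : Type}

section Radon

variable {E : Type} [AddCommGroup E]

/-- The sum of the letter values along a word. -/
def xi (e : A → E) (w : List A) : E := (w.map e).sum

@[simp] theorem xi_nil (e : A → E) : xi e [] = 0 := rfl

@[simp] theorem xi_cons (e : A → E) (a : A) (w : List A) : xi e (a :: w) = e a + xi e w := by
  simp [xi]

theorem xi_append (e : A → E) (x y : List A) : xi e (x ++ y) = xi e x + xi e y := by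
  simp [xi]

section Dual

variable {p : ℕ} [Fact p.Prime] [Module (ZMod p) E]

theorem tot_dual (ℓ : Module.Dual (ZMod p) E) (e : A → E) (w : List A) :
    tot (fun a => ℓ (e a)) w = ℓ (xi e w) := by
  induction w with
  | nil => simp
  | cons a w ih => simp [ih]

theorem dual_finite [Finite E] : Finite (Module.Dual (ZMod p) E) :=
  Finite.of_injective (fun ℓ : Module.Dual (ZMod p) E => (ℓ : E → ZMod p)) DFunLike.coe_injective

/-- A nonzero vector is killed by one functional in `p`. -/
theorem dual_count [Fintype (Module.Dual (ZMod p) E)] [DecidableEq (ZMod p)] {δ : E} (hδ : δ ≠ 0) :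
    p * (Finset.univ.filter (fun ℓ : Module.Dual (ZMod p) E => ℓ δ = 0)).card =
      Fintype.card (Module.Dual (ZMod p) E) := by
  classical
  obtain ⟨ℓ₁, hℓ₁⟩ : ∃ ℓ : Module.Dual (ZMod p) E, ℓ δ ≠ 0 := by
    by_contra h
    push Not at h
    exact hδ ((Module.forall_dual_apply_eq_zero_iff (ZMod p) δ).1 h)
  have h1 : ∀ k : ZMod p, (Finset.univ.filter (fun ℓ : Module.Dual (ZMod p) E => ℓ δ = k)).card =
      (Finset.univ.filter (fun ℓ : Module.Dual (ZMod p) E => ℓ δ = 0)).card := by
    intro k
    refine Finset.card_bij' (fun ℓ _ => ℓ - (k / ℓ₁ δ) • ℓ₁) (fun ℓ _ => ℓ + (k / ℓ₁ δ) • ℓ₁)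
      ?_ ?_ ?_ ?_
    · intro ℓ hℓ
      simp only [Finset.mem_filter, Finset.mem_univ, true_and] at hℓ ⊢
      simp [hℓ, div_mul_cancel₀ _ hℓ₁]
    · intro ℓ hℓ
      simp only [Finset.mem_filter, Finset.mem_univ, true_and] at hℓ ⊢
      simp [hℓ, div_mul_cancel₀ _ hℓ₁]
    · intro ℓ _
      simp
    · intro ℓ _
      simp
  have h2 : Fintype.card (Module.Dual (ZMod p) E) =
      ∑ k : ZMod p, (Finset.univ.filter (fun ℓ : Module.Dual (ZMod p) E => ℓ δ = k)).card := by
    rw [← Finset.card_univ]
    exact Finset.card_eq_sum_card_fiberwise (fun _ _ => Finset.mem_univ _)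
  rw [h2, Finset.sum_congr rfl (fun k _ => h1 k)]
  simp [ZMod.card]

end Dual

variable [DecidableEq A] [Finite A]

/-- The letter `c` in a given position of an elementary abelian group. -/
theorem meas_occ_xi (p : ℕ) [Fact p.Prime] [Module (ZMod p) E] [Finite E] (e : A → E) (c : A) (x₀ : E) (M : ℕ) [NeZero M] :
    Meas (fun w => (occ c (fun u => xi e u = x₀) w : ZMod M)) := by
  classical
  have hp : p.Prime := Fact.out
  have := dual_finite (p := p) (E := E)
  let _ : Fintype (Module.Dual (ZMod p) E) := Fintype.ofFinite _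
  set D := Fintype.card (Module.Dual (ZMod p) E) with hD
  have hDpos : 0 < D := Fintype.card_pos
  set r := D / p with hr
  have hrlt : r < D := Nat.div_lt_self hDpos hp.one_lt
  set k := D - r with hk
  have hkpos : 0 < k := Nat.sub_pos_of_lt hrlt
  have hcount : ∀ u : List A, (Finset.univ.filter
      (fun ℓ : Module.Dual (ZMod p) E => ℓ (xi e u) = ℓ x₀)).card =
      r + if xi e u = x₀ then k else 0 := by
    intro u
    by_cases hu : xi e u = x₀
    · subst hu
      simp only [if_true, Finset.filter_true, Finset.card_univ]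
      omega
    · simp only [hu, if_false, add_zero]
      have hδ : xi e u - x₀ ≠ 0 := sub_ne_zero.2 hu
      have h1 := dual_count (p := p) hδ
      have h2 : (Finset.univ.filter (fun ℓ : Module.Dual (ZMod p) E => ℓ (xi e u) = ℓ x₀)) =
          Finset.univ.filter (fun ℓ : Module.Dual (ZMod p) E => ℓ (xi e u - x₀) = 0) := by
        ext ℓ
        simp [sub_eq_zero]
      rw [h2, hr, hD, ← h1, Nat.mul_div_cancel_left _ hp.pos]
  have hsum : ∀ w : List A, ∑ ℓ : Module.Dual (ZMod p) E,
      occ c (fun u => ℓ (xi e u) = ℓ x₀) w =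
      r * cnt (fun a => a = c) w + k * occ c (fun u => xi e u = x₀) w := by
    intro w
    induction w using List.reverseRecOn with
    | nil => simp [cnt]
    | append_singleton w a ih =>
      simp only [occ_snoc, cnt_snoc, Finset.sum_add_distrib, ih]
      by_cases hac : a = c
      · have := hcount w
        simp only [hac, true_and]
        rw [Finset.sum_boole]
        simp only [Nat.cast_id]
        rw [this]
        by_cases hu : xi e w = x₀ <;> simp only [hu, if_true, if_false] <;> ring
      · simp [hac]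
  have : NeZero (k * M) := ⟨by simp [hkpos.ne', NeZero.ne M]⟩
  apply meas_scale hkpos
  have h1 : Meas (fun w => ∑ ℓ : Module.Dual (ZMod p) E,
      ((occ c (fun u => ℓ (xi e u) = ℓ x₀) w : ℕ) : ZMod (k * M))) := by
    refine Meas.finset_sum _ (fun ℓ => ?_)
    have := meas_occ_prime (fun a => ℓ (e a)) c (ℓ x₀) (k * M)
    simpa only [tot_dual] using this
  have h2 := meas_cnt (fun a => a = c) (k * M)
  refine (h1.sub ((Meas.const (r : ZMod (k * M))).mul h2)).congr (fun w => ?_)
  have h3 := congrArg (fun n : ℕ => (n : ZMod (k * M))) (hsum w)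
  simp only [Nat.cast_sum, Nat.cast_add, Nat.cast_mul] at h3
  rw [h3]
  push_cast
  ring

/-- The position in an elementary abelian group is measurable. -/
theorem meas_xi (p : ℕ) [Fact p.Prime] [Module (ZMod p) E] [Finite E] (e : A → E) : Meas (fun w => xi e w) := by
  classical
  have := dual_finite (p := p) (E := E)
  intro x
  have h1 : S1 (fun w => ∀ ℓ : Module.Dual (ZMod p) E, ℓ (xi e w) = ℓ x) := by
    refine S1.fin_forall (fun ℓ => ?_)
    have h2 := (phase_cut (fun a => ℓ (e a)) (ℓ x)).s1 0 (ℓ x)
    refine h2.congr (fun w => ?_)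
    rw [run_phaseStep, zero_add, tot_dual]
  refine h1.congr (fun w => ?_)
  constructor
  · intro h
    rw [← sub_eq_zero, ← Module.forall_dual_apply_eq_zero_iff (ZMod p)]
    intro ℓ
    rw [map_sub, h ℓ, sub_self]
  · rintro rfl ℓ
    rfl

end Radon

end Vale.Agent.P329
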