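import Vale.Agent.P329.Basic

/-!
Schutzenberger's theorem, the direction needed here: a finite deterministic automaton whose
transition monoid is aperiodic has star-free path languages.  The proof is by induction on
the number of states and the number of letters.
-/

namespace Vale.Agent.P329

variable {A Q : Type}

/-- The run of a deterministic automaton. -/
def run (δ : Q → A → Q) (q : Q) (w : List A) : Q := w.foldl δ q

@[simp] theorem run_nil (δ : Q → A → Q) (q : Q) : run δ q [] = q := rfl

@[simp] theorem run_cons (δ : Q → A → Q) (q : Q) (a : A) (w : List A) :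
    run δ q (a :: w) = run δ (δ q a) w := rfl

theorem run_append (δ : Q → A → Q) (q : Q) (x y : List A) :
    run δ q (x ++ y) = run δ (run δ q x) y := List.foldl_append ..

/-- Aperiodicity of the transformation monoid, state by state. -/
def Aper (δ : Q → A → Q) : Prop :=
  ∀ (u : List A) (q : Q), ∃ n, (fun p => run δ p u)^[n + 1] q = (fun p => run δ p u)^[n] q

/-- Parsing of a word of `(B* a)*` into letters of a derived alphabet. -/
inductive Parse {C : Type} (a : A) (P : List A → C → Prop) : List A → List C → Prop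
  | nil : Parse a P [] []
  | cons {v w : List A} {c : C} {u : List C} :
      P v c → Parse a P w u → Parse a P (v ++ a :: w) (c :: u)

section ParseLemmas

variable {C : Type} {a : A} {P : List A → C → Prop}

theorem append_cons_inj_aux {a : A} {v v' w w' : List A} (h : a ∉ v) (h' : a ∉ v')
    (e : v ++ a :: w = v' ++ a :: w') : v = v' ∧ w = w' := by
  induction v generalizing v' with
  | nil =>
    cases v' with
    | nil => simpa using e
    | cons b v'' =>
      simp only [List.nil_append, List.cons_append, List.cons.injEq] at e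
      exact absurd (e.1 ▸ List.mem_cons_self) h'
  | cons b v₀ ih =>
    cases v' with
    | nil =>
      simp only [List.nil_append, List.cons_append, List.cons.injEq] at e
      exact absurd (e.1 ▸ List.mem_cons_self) h
    | cons b' v'' =>
      simp only [List.cons_append, List.cons.injEq] at e
      obtain ⟨rfl, e⟩ := e
      obtain ⟨h1, h2⟩ := ih (fun hh => h (by simp [hh])) (fun hh => h' (by simp [hh])) e
      exact ⟨by rw [h1], h2⟩

theorem Parse.unique (hA : ∀ v c, P v c → a ∉ v) (hF : ∀ v c c', P v c → P v c' → c = c')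
    {w : List A} {u u' : List C} (h : Parse a P w u) (h' : Parse a P w u') : u = u' := by
  induction h generalizing u' with
  | nil =>
    generalize hr : ([] : List A) = r at h'
    cases h' with
    | nil => rfl
    | cons _ _ => simp at hr
  | @cons v w c u hv _ ih =>
    generalize hr : v ++ a :: w = r at h'
    cases h' with
    | nil => simp at hr
    | @cons v' w' c' u' hv' hw' =>
      obtain ⟨rfl, rfl⟩ := append_cons_inj_aux (hA v c hv) (hA v' c' hv') hr
      rw [hF v c c' hv hv', ih hw']

theorem Parse.append {x y : List A} {u u' : List C} (h : Parse a P x u) (h' : Parse a P y u') :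
    Parse a P (x ++ y) (u ++ u') := by
  induction h with
  | nil => simpa using h'
  | cons hv _ ih => simpa using Parse.cons hv ih

theorem Parse.split {w : List A} (u₁ : List C) {u₂ : List C} (h : Parse a P w (u₁ ++ u₂)) :
    ∃ x y, w = x ++ y ∧ Parse a P x u₁ ∧ Parse a P y u₂ := by
  induction u₁ generalizing w with
  | nil => exact ⟨[], w, rfl, Parse.nil, h⟩
  | cons c u₁ ih =>
    generalize hr : (c :: u₁) ++ u₂ = r at h
    cases h with
    | nil => simp at hr
    | @cons v w' c' u' hv hw =>
      simp only [List.cons_append, List.cons.injEq] at hr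
      obtain ⟨rfl, rfl⟩ := hr
      obtain ⟨x, y, rfl, hx, hy⟩ := ih hw
      exact ⟨v ++ a :: x, y, by simp, Parse.cons hv hx, hy⟩

theorem parse_nil_iff {w : List A} : Parse a P w ([] : List C) ↔ w = [] := by
  constructor
  · intro h
    cases h
    rfl
  · rintro rfl
    exact Parse.nil

theorem parse_single_iff {w : List A} {c : C} :
    Parse a P w [c] ↔ ∃ v, w = v ++ [a] ∧ P v c := by
  constructor
  · intro h
    cases h with
    | cons hv hw =>
      cases hw
      exact ⟨_, rfl, hv⟩
  · rintro ⟨v, rfl, hv⟩
    exact Parse.cons hv Parse.nil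

/-- The substitution from star-free languages over the derived alphabet to star-free languages
over the original one. -/
theorem theta_sf (hA : ∀ v c, P v c → a ∉ v) (hF : ∀ v c c', P v c → P v c' → c = c')
    (hLetter : ∀ c, SF (fun w => ∃ v, w = v ++ [a] ∧ P v c))
    (hDom : SF (fun w => ∃ u, Parse a P w u)) :
    ∀ e : GRE C, e.sh = 0 → SF (fun w => ∃ u, Parse a P w u ∧ u ∈ e.lang) := by
  intro e
  induction e with
  | zero =>
    intro _
    exact SF.false.congr (fun w => by simp [GRE.lang])
  | one =>
    intro _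
    refine SF.nil.congr (fun w => ?_)
    simp only [GRE.lang, Language.mem_one]
    constructor
    · rintro rfl
      exact ⟨[], Parse.nil, rfl⟩
    · rintro ⟨u, hu, rfl⟩
      exact parse_nil_iff.1 hu
  | lit c =>
    intro _
    refine (hLetter c).congr (fun w => ?_)
    constructor
    · intro h
      exact ⟨[c], parse_single_iff.2 h, rfl⟩
    · rintro ⟨u, hu, hc⟩
      have : u = [c] := hc
      subst this
      exact parse_single_iff.1 hu
  | plus e f ihe ihf =>
    intro h
    simp only [GRE.sh, Nat.max_eq_zero_iff] at h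
    refine ((ihe h.1).or (ihf h.2)).congr (fun w => ?_)
    simp only [GRE.lang, Language.mem_add]
    constructor
    · rintro (⟨u, hu, h⟩ | ⟨u, hu, h⟩)
      · exact ⟨u, hu, Or.inl h⟩
      · exact ⟨u, hu, Or.inr h⟩
    · rintro ⟨u, hu, h | h⟩
      · exact Or.inl ⟨u, hu, h⟩
      · exact Or.inr ⟨u, hu, h⟩
  | mul e f ihe ihf =>
    intro h
    simp only [GRE.sh, Nat.max_eq_zero_iff] at h
    refine ((ihe h.1).cat (ihf h.2)).congr (fun w => ?_)
    simp only [GRE.lang, Language.mem_mul]
    constructor
    · rintro ⟨x, y, rfl, ⟨u, hu, hue⟩, ⟨u', hu', hue'⟩⟩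
      exact ⟨u ++ u', hu.append hu', u, hue, u', hue', rfl⟩
    · rintro ⟨u, hu, u₁, hu₁, u₂, hu₂, rfl⟩
      obtain ⟨x, y, rfl, hx, hy⟩ := Parse.split u₁ hu
      exact ⟨x, y, rfl, ⟨u₁, hx, hu₁⟩, ⟨u₂, hy, hu₂⟩⟩
  | compl e ihe =>
    intro h
    simp only [GRE.sh] at h
    refine (hDom.and (ihe h).not).congr (fun w => ?_)
    constructor
    · rintro ⟨⟨u, hu⟩, hn⟩
      exact ⟨u, hu, fun hue => hn ⟨u, hu, hue⟩⟩
    · rintro ⟨u, hu, hn⟩
      refine ⟨⟨u, hu⟩, ?_⟩
      rintro ⟨u', hu', hue'⟩
      rw [Parse.unique hA hF hu hu'] at hn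
      exact hn hue'
  | star e _ =>
    intro h
    simp [GRE.sh] at h

end ParseLemmas

theorem SF.contains (x : A) : SF (fun w : List A => x ∈ w) := by
  have h : SF (fun w : List A => ∃ y r, w = y ++ r ∧ True ∧
      ∃ s t, r = s ++ t ∧ s = [x] ∧ True) :=
    SF.true.cat ((SF.lit x).cat SF.true)
  refine h.congr (fun w => ?_)
  rw [List.mem_iff_append]
  constructor
  · rintro ⟨y, r, rfl, -, s, t, rfl, rfl, -⟩
    exact ⟨y, t, by simp⟩
  · rintro ⟨y, t, rfl⟩
    exact ⟨y, x :: t, rfl, trivial, [x], t, rfl, rfl, trivial⟩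

theorem SF.allIn [Finite A] (S : Set A) : SF (fun w : List A => ∀ x ∈ w, x ∈ S) := by
  have h : SF (fun w : List A => ¬ ∃ x : A, x ∉ S ∧ x ∈ w) :=
    (SF.fin_exists (fun x => (SF.const (x ∉ S)).and (SF.contains x))).not
  refine h.congr (fun w => ?_)
  constructor
  · intro hn x hx
    by_contra hxS
    exact hn ⟨x, hxS, hx⟩
  · rintro hall ⟨x, hxS, hx⟩
    exact hxS (hall x hx)

/-- The core induction of Schutzenberger's theorem. -/
theorem aper_sf_aux (n : ℕ) : ∀ (Q A : Type) [Finite Q] [Finite A] (δ : Q → A → Q),
    Nat.card Q = n → Aper δ → ∀ (S : Set A) (q q' : Q),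
      SF (fun w : List A => (∀ x ∈ w, x ∈ S) ∧ run δ q w = q') := by
  induction n using Nat.strong_induction_on with
  | _ n IHQ =>
  intro Q A _ _ δ hcard hAper S
  induction hm : S.ncard using Nat.strong_induction_on generalizing S with
  | _ m IHS =>
  intro q q'
  by_cases hall : ∀ a ∈ S, ∀ p, δ p a = p
  · -- all letters of `S` act as the identity
    have hid : ∀ (w : List A) (p : Q), (∀ x ∈ w, x ∈ S) → run δ p w = p := by
      intro w
      induction w with
      | nil => intro p _; rfl
      | cons b w ih =>
        intro p hw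
        simp only [run_cons]
        rw [hall b (hw b (by simp)) p]
        exact ih p (fun x hx => hw x (by simp [hx]))
    refine ((SF.allIn S).and (SF.const (q = q'))).congr (fun w => ?_)
    constructor
    · rintro ⟨hw, rfl⟩
      exact ⟨hw, hid w q hw⟩
    · rintro ⟨hw, h⟩
      exact ⟨hw, by rw [← h, hid w q hw]⟩
  · push Not at hall
    obtain ⟨a, haS, p₀, hp₀⟩ := hall
    classical
    -- the smaller letter set
    set S' : Set A := S \ {a} with hS'
    have haS' : a ∉ S' := by simp [hS']
    have hSS' : ∀ x, x ∈ S' → x ∈ S := fun x hx => hx.1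
    have hltS : S'.ncard < m := by
      rw [← hm]
      exact Set.ncard_sdiff_singleton_lt_of_mem haS (Set.toFinite S)
    have hIHS : ∀ q q', SF (fun w : List A => (∀ x ∈ w, x ∈ S') ∧ run δ q w = q') :=
      fun q q' => IHS S'.ncard hltS S' rfl q q'
    -- the smaller state set
    set f : Q → Q := fun p => δ p a with hf
    have hfnotinj : ¬ Function.Injective f := by
      intro hinj
      obtain ⟨k, hk⟩ := hAper [a] p₀
      have h1 : (fun p => run δ p [a]) = f := rfl
      rw [h1, Function.iterate_succ_apply] at hk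
      exact hp₀ ((Function.Injective.iterate hinj k) hk)
    have hfnotsurj : ¬ Function.Surjective f := fun hs =>
      hfnotinj (Finite.injective_iff_surjective.2 hs)
    have hltQ : Nat.card {x // x ∈ Set.range f} < n := by
      simp only [Function.Surjective, not_forall] at hfnotsurj
      obtain ⟨y, hy⟩ := hfnotsurj
      have := Fintype.ofFinite Q
      rw [← hcard, Nat.card_eq_fintype_card, Nat.card_eq_fintype_card]
      exact Fintype.card_subtype_lt (x := y) (by simpa using hy)
    let Q' : Type := {x // x ∈ Set.range f}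
    let tau : List A → Q' → Q' := fun v q₁ => ⟨δ (run δ q₁.1 v) a, ⟨_, rfl⟩⟩
    let C : Type := {τ : Q' → Q' // ∃ v : List A, (∀ x ∈ v, x ∈ S') ∧ τ = tau v}
    let δ' : Q' → C → Q' := fun q₁ c => c.1 q₁
    -- aperiodicity of the derived automaton
    have hAper' : Aper δ' := by
      choose rep hrep₁ hrep₂ using (fun c : C => c.2)
      intro u q₁
      let ub : List A := u.flatMap (fun c => rep c ++ [a])
      have hrun : ∀ (u : List C) (q₁ : Q'),
          (run δ' q₁ u).1 = run δ q₁.1 (u.flatMap (fun c => rep c ++ [a])) := by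
        intro u
        induction u with
        | nil => intro q₁; rfl
        | cons c u ih =>
          intro q₁
          simp only [run_cons, List.flatMap_cons, run_append]
          rw [ih]
          congr 1
          have : δ' q₁ c = tau (rep c) q₁ := by
            show c.1 q₁ = tau (rep c) q₁
            rw [← hrep₂ c]
          rw [this]
          simp [tau]
      have hiter : ∀ (k : ℕ) (q₁ : Q'),
          (((fun p => run δ' p u)^[k]) q₁).1 = ((fun p => run δ p ub)^[k]) q₁.1 := by
        intro k
        induction k with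
        | zero => intro q₁; rfl
        | succ k ih =>
          intro q₁
          rw [Function.iterate_succ_apply', Function.iterate_succ_apply', ← ih]
          exact hrun u _
      obtain ⟨k, hk⟩ := hAper ub q₁.1
      refine ⟨k, Subtype.ext ?_⟩
      rw [hiter, hiter, hk]
    have hIHQ : ∀ q₁ q₂ : Q', SF (fun u : List C => (∀ x ∈ u, x ∈ (Set.univ : Set C)) ∧
        run δ' q₁ u = q₂) := by
      intro q₁ q₂
      have : Finite Q' := inferInstance
      have : Finite C := inferInstance
      exact IHQ (Nat.card Q') hltQ Q' C δ' rfl hAper' Set.univ q₁ q₂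
    -- the parsing relation
    let P : List A → C → Prop := fun v c => (∀ x ∈ v, x ∈ S') ∧ c.1 = tau v
    have hPA : ∀ v c, P v c → a ∉ v := fun v c h hav => haS' (h.1 a hav)
    have hPF : ∀ v c c', P v c → P v c' → c = c' := fun v c c' h h' =>
      Subtype.ext (h.2.trans h'.2.symm)
    have hPT : ∀ v, (∀ x ∈ v, x ∈ S') → ∃ c, P v c := fun v hv =>
      ⟨⟨tau v, v, hv, rfl⟩, hv, rfl⟩
    have hLetter : ∀ c, SF (fun w => ∃ v, w = v ++ [a] ∧ P v c) := by
      intro c
      have h1 : SF (fun x : List A => (∀ z ∈ x, z ∈ S') ∧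
          ∀ q₁ : Q', ∃ q'' : Q, δ q'' a = (c.1 q₁).1 ∧
            ((∀ z ∈ x, z ∈ S') ∧ run δ q₁.1 x = q'')) := by
        refine (SF.allIn S').and (SF.fin_forall (fun q₁ => SF.fin_exists (fun q'' => ?_)))
        exact (SF.const _).and (hIHS _ _)
      refine (h1.cat (SF.lit a)).congr (fun w => ?_)
      constructor
      · rintro ⟨x, y, rfl, ⟨hx, hxq⟩, rfl⟩
        refine ⟨x, rfl, hx, ?_⟩
        funext q₁
        obtain ⟨q'', h2, -, h3⟩ := hxq q₁
        apply Subtype.ext
        rw [← h2, ← h3]
      · rintro ⟨v, rfl, hv, hc⟩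
        refine ⟨v, [a], rfl, ⟨hv, fun q₁ => ⟨run δ q₁.1 v, ?_, hv, rfl⟩⟩, rfl⟩
        rw [hc]
    have hDomLetters : ∀ {w : List A} {u : List C}, Parse a P w u → ∀ x ∈ w, x ∈ S := by
      intro w u h
      induction h with
      | nil => simp
      | cons hv _ ih =>
        intro x hx
        simp only [List.mem_append, List.mem_cons] at hx
        rcases hx with hx | rfl | hx
        · exact hSS' _ (hv.1 x hx)
        · exact haS
        · exact ih x hx
    have hConsOther : ∀ (b : A) (r : List A) (u : List C), b ∈ S' → Parse a P r u → r ≠ [] →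
        ∃ u', Parse a P (b :: r) u' := by
      intro b r u hb hr hne
      cases hr with
      | nil => exact absurd rfl hne
      | @cons v w c u hv hw =>
        have hv' : ∀ x ∈ b :: v, x ∈ S' := by
          intro x hx
          rcases List.mem_cons.1 hx with rfl | hx
          · exact hb
          · exact hv.1 x hx
        obtain ⟨c', hc'⟩ := hPT (b :: v) hv'
        exact ⟨c' :: u, Parse.cons (v := b :: v) hc' hw⟩
    have hConsA : ∀ (r : List A) (u : List C), Parse a P r u → ∃ u', Parse a P (a :: r) u' := by
      intro r u hr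
      obtain ⟨c', hc'⟩ := hPT [] (by simp)
      exact ⟨c' :: u, Parse.cons (v := []) hc' hr⟩
    have hDom : SF (fun w => ∃ u, Parse a P w u) := by
      have h1 : SF (fun w : List A => w = [] ∨
          ∃ x y, w = x ++ y ∧ (∀ z ∈ x, z ∈ S) ∧ y = [a]) :=
        SF.nil.or ((SF.allIn S).cat (SF.lit a))
      refine h1.congr (fun w => ?_)
      constructor
      · rintro (rfl | ⟨x, y, rfl, hx, rfl⟩)
        · exact ⟨[], Parse.nil⟩
        · induction x with
          | nil => exact hConsA [] [] Parse.nil
          | cons b x ih =>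
            obtain ⟨u, hu⟩ := ih (fun z hz => hx z (by simp [hz]))
            by_cases hb : b = a
            · subst hb
              exact hConsA _ u hu
            · refine hConsOther b _ u ⟨hx b (by simp), by simpa using hb⟩ hu (by simp)
      · rintro ⟨u, hu⟩
        induction hu with
        | nil => exact Or.inl rfl
        | @cons v w c u hv hw ih =>
          right
          have hvS : ∀ z ∈ v, z ∈ S := fun z hz => hSS' _ (hv.1 z hz)
          rcases ih with rfl | ⟨x, y, rfl, hx, rfl⟩
          · exact ⟨v, [a], rfl, hvS, rfl⟩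
          · refine ⟨v ++ a :: x, [a], by simp, ?_, rfl⟩
            intro z hz
            simp only [List.mem_append, List.mem_cons] at hz
            rcases hz with hz | rfl | hz
            · exact hvS z hz
            · exact haS
            · exact hx z hz
    have hTheta : ∀ q₁ q₂ : Q', SF (fun w => ∃ u, Parse a P w u ∧ run δ' q₁ u = q₂) := by
      intro q₁ q₂
      obtain ⟨e, he, hw⟩ := hIHQ q₁ q₂
      refine (theta_sf hPA hPF hLetter hDom e he).congr (fun w => ?_)
      constructor
      · rintro ⟨u, hu, hue⟩
        exact ⟨u, hu, ((hw u).1 hue).2⟩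
      · rintro ⟨u, hu, hue⟩
        exact ⟨u, hu, (hw u).2 ⟨fun _ _ => trivial, hue⟩⟩
    have hParseRun : ∀ {w : List A} {u : List C}, Parse a P w u → ∀ q₁ : Q',
        (run δ' q₁ u).1 = run δ q₁.1 w := by
      intro w u h
      induction h with
      | nil => intro q₁; rfl
      | @cons v w c u hv _ ih =>
        intro q₁
        simp only [run_cons, run_append]
        rw [ih]
        congr 1
        show (c.1 q₁).1 = _
        rw [hv.2]
    have hDecomp : ∀ w : List A, (∀ x ∈ w, x ∈ S) →
        ∃ x y u, w = x ++ y ∧ Parse a P x u ∧ ∀ z ∈ y, z ∈ S' := by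
      intro w
      induction w with
      | nil => intro _; exact ⟨[], [], [], rfl, Parse.nil, by simp⟩
      | cons b w ih =>
        intro hw
        obtain ⟨x, y, u, rfl, hx, hy⟩ := ih (fun z hz => hw z (by simp [hz]))
        by_cases hb : b = a
        · subst hb
          obtain ⟨u', hu'⟩ := hConsA x u hx
          exact ⟨b :: x, y, u', rfl, hu', hy⟩
        · have hbS' : b ∈ S' := ⟨hw b (by simp), by simpa using hb⟩
          by_cases hxn : x = []
          · subst hxn
            refine ⟨[], b :: y, [], rfl, Parse.nil, ?_⟩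
            intro z hz
            rcases List.mem_cons.1 hz with rfl | hz
            · exact hbS'
            · exact hy z hz
          · obtain ⟨u', hu'⟩ := hConsOther b x u hbS' hx hxn
            exact ⟨b :: x, y, u', rfl, hu', hy⟩
    -- the final union
    have hFinal : SF (fun w : List A => ((∀ x ∈ w, x ∈ S') ∧ run δ q w = q') ∨
        ∃ (q'' : Q) (q₁ q₂ : Q'), δ q'' a = q₁.1 ∧
          ∃ x₀ r, w = x₀ ++ r ∧ ((∀ x ∈ x₀, x ∈ S') ∧ run δ q x₀ = q'') ∧
            ∃ r₁ r₂, r = r₁ ++ r₂ ∧ r₁ = [a] ∧
              ∃ r₃ r₄, r₂ = r₃ ++ r₄ ∧ (∃ u, Parse a P r₃ u ∧ run δ' q₁ u = q₂) ∧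
                ((∀ x ∈ r₄, x ∈ S') ∧ run δ q₂.1 r₄ = q')) := by
      refine (hIHS q q').or (SF.fin_exists fun q'' => SF.fin_exists fun q₁ => SF.fin_exists
        fun q₂ => (SF.const _).and ?_)
      exact (hIHS q q'').cat ((SF.lit a).cat ((hTheta q₁ q₂).cat (hIHS _ _)))
    refine hFinal.congr (fun w => ?_)
    constructor
    · rintro (⟨hw, hr⟩ | ⟨q'', q₁, q₂, h1, x₀, r, rfl, ⟨hx₀, hrx₀⟩, r₁, r₂, rfl, rfl, r₃, r₄, rfl,
        ⟨u, hu, hru⟩, hr₄, hrr₄⟩)
      · exact ⟨fun x hx => hSS' x (hw x hx), hr⟩
      · constructor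
        · intro x hx
          simp only [List.mem_append, List.mem_singleton] at hx
          rcases hx with hx | rfl | hx | hx
          · exact hSS' _ (hx₀ x hx)
          · exact haS
          · exact hDomLetters hu x hx
          · exact hSS' _ (hr₄ x hx)
        · simp only [run_append, run_cons, run_nil]
          rw [hrx₀, h1, ← hParseRun hu q₁, hru, hrr₄]
    · rintro ⟨hw, hr⟩
      obtain ⟨x, y, u, rfl, hx, hy⟩ := hDecomp w hw
      cases hx with
      | nil => exact Or.inl ⟨hy, hr⟩
      | @cons v x' c u' hv hx' =>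
        right
        refine ⟨run δ q v, ⟨δ (run δ q v) a, ⟨_, rfl⟩⟩, run δ' ⟨δ (run δ q v) a, ⟨_, rfl⟩⟩ u',
          rfl, v, [a] ++ (x' ++ y), by simp, ⟨hv.1, rfl⟩, [a], x' ++ y, rfl, rfl, x', y, rfl,
          ⟨u', hx', rfl⟩, hy, ?_⟩
        rw [hParseRun hx']
        simpa [run_append] using hr

/-- Schutzenberger's theorem: the path languages of an aperiodic automaton are star-free. -/
theorem aper_sf {Q A : Type} [Finite Q] [Finite A] (δ : Q → A → Q) (h : Aper δ) (q q' : Q) :
    SF (fun w : List A => run δ q w = q') :=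
  (aper_sf_aux _ Q A δ rfl h Set.univ q q').congr (fun _ => by simp)

end Vale.Agent.P329
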