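import Vale.Agent.P329.Metab

/-!
Phases modulo any integer in which every letter moves by at most one, in either direction.
-/

namespace Vale.Agent.P329

variable {A : Type}

section Signed

variable {m : ℕ} [NeZero m] (e : A → ℤ)

/-- The integer total of a word. -/
def itot (w : List A) : ℤ := (w.map e).sum

@[simp] theorem itot_nil : itot e [] = 0 := rfl

@[simp] theorem itot_cons (a : A) (w : List A) : itot e (a :: w) = e a + itot e w := by
  simp [itot]

theorem itot_snoc (w : List A) (a : A) : itot e (w ++ [a]) = itot e w + e a := by
  simp [itot]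

/-- The steps modulo `m`. -/
def stp (m : ℕ) (a : A) : ZMod m := (e a : ZMod m)

theorem tot_stp (w : List A) : tot (stp e m) w = (itot e w : ZMod m) := by
  induction w with
  | nil => simp
  | cons a w ih => simp [ih, stp]

/-- The moves that land on `v`. -/
def sland (m : ℕ) (v x : ZMod m) (a : A) : Prop := e a ≠ 0 ∧ x + stp e m a = v

variable {e}

theorem noJump_up (he : ∀ a, e a ≤ 1) {v : ZMod m} {V : ℤ} (hV : (V : ZMod m) = v) (w : List A)
    (z : ℤ) (hz : z < V)
    (h : NoJump (phaseStep (stp e m)) (sland e m v) (z : ZMod m) w) : z + itot e w < V := by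
  induction w generalizing z with
  | nil => simpa using hz
  | cons a w ih =>
    have h1 : ¬ sland e m v (z : ZMod m) a := h.1
    have h2 : NoJump (phaseStep (stp e m)) (sland e m v) ((z : ZMod m) + stp e m a) w := h.2
    have hcast : (z : ZMod m) + stp e m a = ((z + e a : ℤ) : ZMod m) := by
      simp [stp]
    rw [hcast] at h2
    have hlt : z + e a < V := by
      have hle : z + e a ≤ V := by
        have := he a
        omega
      rcases lt_or_eq_of_le hle with h3 | h3
      · exact h3
      · exfalso
        apply h1
        refine ⟨by omega, ?_⟩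
        rw [hcast, h3, hV]
    have := ih (z + e a) hlt h2
    rw [itot_cons]
    linarith

theorem noJump_down (he : ∀ a, -1 ≤ e a) {v : ZMod m} {V : ℤ} (hV : (V : ZMod m) = v) (w : List A)
    (z : ℤ) (hz : V < z)
    (h : NoJump (phaseStep (stp e m)) (sland e m v) (z : ZMod m) w) : V < z + itot e w := by
  induction w generalizing z with
  | nil => simpa using hz
  | cons a w ih =>
    have h1 : ¬ sland e m v (z : ZMod m) a := h.1
    have h2 : NoJump (phaseStep (stp e m)) (sland e m v) ((z : ZMod m) + stp e m a) w := h.2
    have hcast : (z : ZMod m) + stp e m a = ((z + e a : ℤ) : ZMod m) := by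
      simp [stp]
    rw [hcast] at h2
    have hlt : V < z + e a := by
      have hle : V ≤ z + e a := by
        have := he a
        omega
      rcases lt_or_eq_of_le hle with h3 | h3
      · exact h3
      · exfalso
        apply h1
        refine ⟨by omega, ?_⟩
        rw [hcast, ← h3, hV]
    have := ih (z + e a) hlt h2
    rw [itot_cons]
    linarith

/-- A phase automaton whose letters move by at most one has the landings as a cut. -/
theorem signed_cut (he1 : ∀ a, e a ≤ 1) (he2 : ∀ a, -1 ≤ e a) (v : ZMod m) :
    Cut (phaseStep (stp e m)) v (sland e m v) := by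
  refine ⟨fun q a h => h.2, ?_⟩
  intro u q hq
  by_cases hτ : itot e u = 0
  · refine ⟨0, ?_⟩
    simp [run_phaseStep, tot_stp, hτ]
  · exfalso
    have hm : (0 : ℤ) < m := by exact_mod_cast Nat.pos_of_ne_zero (NeZero.ne m)
    set z₀ : ℤ := (q.val : ℤ) with hz₀
    have hq0 : (z₀ : ZMod m) = q := by simp [hz₀]
    have hit : ∀ k : ℕ, (fun p => run (phaseStep (stp e m)) p u)^[k] q =
        ((z₀ + k * itot e u : ℤ) : ZMod m) := by
      intro k
      rw [phase_iter, tot_stp]
      push_cast
      rw [hq0]
    rcases lt_or_gt_of_ne hτ with hneg | hpos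
    · -- going down
      set V : ℤ := z₀ - ((q - v).val : ℤ) - m with hVdef
      have hV : (V : ZMod m) = v := by
        simp [hVdef, hz₀]
      have hVlt : V < z₀ := by
        have : (0 : ℤ) ≤ ((q - v).val : ℤ) := by positivity
        omega
      have key : ∀ k : ℕ, V < z₀ + k * itot e u := by
        intro k
        induction k with
        | zero => simpa using hVlt
        | succ k ih =>
          have h1 := hq k
          rw [hit k] at h1
          have := noJump_down he2 hV u _ ih h1
          push_cast
          linarith
      have h2 := key (z₀ - V).toNat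
      have h3 : (((z₀ - V).toNat : ℕ) : ℤ) = z₀ - V := Int.toNat_of_nonneg (by omega)
      rw [h3] at h2
      nlinarith
    · -- going up
      set V : ℤ := z₀ + ((v - q).val : ℤ) + m with hVdef
      have hV : (V : ZMod m) = v := by
        simp [hVdef, hz₀]
      have hVlt : z₀ < V := by
        have : (0 : ℤ) ≤ ((v - q).val : ℤ) := by positivity
        omega
      have key : ∀ k : ℕ, z₀ + k * itot e u < V := by
        intro k
        induction k with
        | zero => simpa using hVlt
        | succ k ih =>
          have h1 := hq k
          rw [hit k] at h1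
          have := noJump_up he1 hV u _ ih h1
          push_cast
          linarith
      have h2 := key (V - z₀).toNat
      have h3 : (((V - z₀).toNat : ℕ) : ℤ) = V - z₀ := Int.toNat_of_nonneg (by omega)
      rw [h3] at h2
      nlinarith

variable [Finite A] [DecidableEq A]

/-- Occurrences of a letter that does not move, in a given phase. -/
theorem meas_signed_count (he1 : ∀ a, e a ≤ 1) (he2 : ∀ a, -1 ≤ e a) (c : A) (hc : e c = 0)
    (n : ℕ) [NeZero n] (x : ZMod m) :
    Meas (fun w => psum c (fun p => if x + (itot e p : ZMod m) = 0 then (1 : ZMod n) else 0) w) := by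
  classical
  let F : ZMod m → A → Prop := fun s a => a = c ∧ s = 0
  have hF : ∀ q a, F q a → phaseStep (stp e m) q a = 0 := by
    rintro q a ⟨rfl, rfl⟩
    simp [phaseStep, stp, hc]
  have hd : ∀ q a, F q a → ¬ sland e m 0 q a := by
    rintro q a ⟨rfl, -⟩ ⟨h, -⟩
    exact h hc
  have h1 := (signed_cut he1 he2 (0 : ZMod m)).meas_free hF hd n x
  refine h1.congr (fun w => ?_)
  induction w using List.reverseRecOn with
  | nil => simp [jc]
  | append_singleton w a ih =>
    rw [jc_snoc, psum_snoc, ← ih]
    push_cast
    congr 1
    have h2 := run_phaseStep (stp e m) x w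
    rw [tot_stp] at h2
    by_cases ha : a = c
    · simp only [F, ha, true_and, h2, if_true]
    · simp [F, ha]

/-- Occurrences of a letter that does not move, with general weights of the phase. -/
theorem meas_psum_signed (he1 : ∀ a, e a ≤ 1) (he2 : ∀ a, -1 ≤ e a) (c : A) (hc : e c = 0)
    (n : ℕ) [NeZero n] (h : ZMod m → ZMod n) :
    Meas (fun w => psum c (fun p => h (itot e p : ZMod m)) w) := by
  classical
  have h1 : Meas (fun w => ∑ τ : ZMod m, h τ *
      psum c (fun p => if -τ + (itot e p : ZMod m) = 0 then (1 : ZMod n) else 0) w) := by
    refine Meas.finset_sum _ (fun τ => ?_)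
    exact (Meas.const (h τ)).mul (meas_signed_count he1 he2 c hc n (-τ))
  refine h1.congr (fun w => ?_)
  induction w using List.reverseRecOn with
  | nil => simp
  | append_singleton w a ih =>
    rw [psum_snoc, ← ih]
    simp only [psum_snoc, mul_add, Finset.sum_add_distrib]
    congr 1
    by_cases ha : a = c
    · simp only [ha, if_true]
      rw [Finset.sum_eq_single ((itot e w : ℤ) : ZMod m)]
      · simp
      · intro b _ hb
        have : -b + ((itot e w : ℤ) : ZMod m) ≠ 0 := by
          intro h0
          apply hb
          linear_combination -h0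
        simp [this]
      · simp
    · simp [ha]

end Signed

end Vale.Agent.P329
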