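import Vale.Agent.P329.Meas

/-!
Scattered subword counts of length at most three, modulo any integer, are measurable.
-/

namespace Vale.Agent.P329

variable {A : Type} [DecidableEq A]

theorem sw_empty (w : List A) : subwordCount [] w = 1 := by
  induction w using List.reverseRecOn with
  | nil => rfl
  | append_singleton w a ih =>
    unfold subwordCount at ih ⊢
    rw [List.sublists_concat, List.count_append, ih]
    have : List.count [] (List.map (fun x => x ++ [a]) w.sublists) = 0 := by
      apply List.count_eq_zero.2
      simp
    rw [this]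

theorem sw_nil_cons (b : A) (v : List A) : subwordCount (b :: v) [] = 0 := by
  simp [subwordCount]

theorem sw_nil_append (v : List A) (b : A) : subwordCount (v ++ [b]) [] = 0 := by
  simp [subwordCount]

theorem sw_snoc (v : List A) (b a : A) (w : List A) :
    subwordCount (v ++ [b]) (w ++ [a]) =
      subwordCount (v ++ [b]) w + if a = b then subwordCount v w else 0 := by
  unfold subwordCount
  rw [List.sublists_concat, List.count_append]
  congr 1
  by_cases h : a = b
  · subst h
    rw [if_pos rfl]
    exact List.count_map_of_injective _ (fun x => x ++ [a])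
      (fun x y hxy => List.append_cancel_right hxy) v
  · rw [if_neg h]
    apply List.count_eq_zero.2
    simp only [List.mem_map, not_exists, not_and]
    intro x _ hx
    have := List.getLast?_append (l := x) (l' := [a])
    have h2 : (x ++ [a]).getLast? = some a := by simp
    have h3 : (v ++ [b]).getLast? = some b := by simp
    rw [hx, h3] at h2
    exact h (Option.some.inj h2).symm

theorem sw1 (b a : A) (w : List A) :
    subwordCount [b] (w ++ [a]) = subwordCount [b] w + if a = b then 1 else 0 := by
  have := sw_snoc [] b a w
  simpa [sw_empty] using this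

theorem sw2 (x b a : A) (w : List A) :
    subwordCount [x, b] (w ++ [a]) =
      subwordCount [x, b] w + if a = b then subwordCount [x] w else 0 :=
  sw_snoc [x] b a w

theorem sw3 (x y b a : A) (w : List A) :
    subwordCount [x, y, b] (w ++ [a]) =
      subwordCount [x, y, b] w + if a = b then subwordCount [x, y] w else 0 :=
  sw_snoc [x, y] b a w

section Id

variable {R : Type} [CommRing R]

/-- The identities of the subword counts. -/
theorem id1 {x y : A} (hxy : x ≠ y) (w : List A) :
    (subwordCount [x, y] w : R) + subwordCount [y, x] w =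
      (subwordCount [x] w : R) * subwordCount [y] w := by
  induction w using List.reverseRecOn with
  | nil => simp [sw_nil_cons]
  | append_singleton w a ih =>
    simp only [sw1, sw2]
    by_cases h1 : a = x
    · have h2 : a ≠ y := fun h => hxy (h1.symm.trans h)
      simp only [h1, if_true, hxy, if_false]
      push_cast
      linear_combination ih
    · by_cases h2 : a = y
      · simp only [h2, if_true, hxy.symm, if_false]
        push_cast
        linear_combination ih
      · simp only [h1, h2, if_false]
        push_cast
        linear_combination ih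

theorem id2 (x : A) (w : List A) :
    (subwordCount [x] w : R) * subwordCount [x] w =
      2 * (subwordCount [x, x] w : R) + subwordCount [x] w := by
  induction w using List.reverseRecOn with
  | nil => simp [sw_nil_cons]
  | append_singleton w a ih =>
    simp only [sw1, sw2]
    by_cases h1 : a = x
    · simp only [h1, if_true]
      push_cast
      linear_combination ih
    · simp only [h1, if_false]
      push_cast
      linear_combination ih

theorem id3 {x y : A} (hxy : x ≠ y) (w : List A) :
    (subwordCount [x] w : R) * subwordCount [x, y] w =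
      2 * (subwordCount [x, x, y] w : R) + subwordCount [x, y, x] w + subwordCount [x, y] w := by
  induction w using List.reverseRecOn with
  | nil => simp [sw_nil_cons]
  | append_singleton w a ih =>
    simp only [sw1, sw2, sw3]
    by_cases h1 : a = x
    · simp only [h1, if_true, hxy, if_false]
      push_cast
      linear_combination ih
    · by_cases h2 : a = y
      · simp only [h2, if_true, hxy.symm, if_false]
        push_cast
        linear_combination ih + id2 (R := R) x w
      · simp only [h1, h2, if_false]
        push_cast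
        linear_combination ih

theorem id4 {x y : A} (hxy : x ≠ y) (w : List A) :
    (subwordCount [y] w : R) * subwordCount [x, y] w =
      subwordCount [y, x, y] w + 2 * (subwordCount [x, y, y] w : R) + subwordCount [x, y] w := by
  induction w using List.reverseRecOn with
  | nil => simp [sw_nil_cons]
  | append_singleton w a ih =>
    simp only [sw1, sw2, sw3]
    by_cases h1 : a = y
    · simp only [h1, if_true, hxy.symm, if_false]
      push_cast
      linear_combination ih - id1 (R := R) hxy w
    · by_cases h2 : a = x
      · simp only [h2, if_true, hxy, if_false]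
        push_cast
        linear_combination ih
      · simp only [h1, h2, if_false]
        push_cast
        linear_combination ih

theorem id5 {x y z : A} (hxy : x ≠ y) (hxz : x ≠ z) (hyz : y ≠ z) (w : List A) :
    (subwordCount [x] w : R) * subwordCount [y, z] w =
      subwordCount [x, y, z] w + subwordCount [y, x, z] w + subwordCount [y, z, x] w := by
  induction w using List.reverseRecOn with
  | nil => simp [sw_nil_cons]
  | append_singleton w a ih =>
    simp only [sw1, sw2, sw3]
    by_cases h1 : a = x
    · simp only [h1, if_true, hxz, if_false]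
      push_cast
      linear_combination ih
    · by_cases h2 : a = z
      · simp only [h2, if_true, hxz.symm, if_false]
        push_cast
        linear_combination ih - id1 (R := R) hxy w
      · simp only [h1, h2, if_false]
        push_cast
        linear_combination ih

theorem sw_append_eq_psum (v : List A) (b : A) (w : List A) :
    (subwordCount (v ++ [b]) w : R) = psum b (fun p => (subwordCount v p : R)) w := by
  induction w using List.reverseRecOn with
  | nil => simp [sw_nil_append]
  | append_singleton w a ih =>
    rw [sw_snoc, psum_snoc, ← ih]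
    by_cases h : a = b <;> simp [h]

end Id

theorem cnt_eq_sw1 (x : A) (w : List A) : cnt (fun a => a = x) w = subwordCount [x] w := by
  induction w using List.reverseRecOn with
  | nil => simp [sw_nil_cons]
  | append_singleton w a ih =>
    rw [cnt_snoc, sw1, ih]
    congr

theorem cnt_eq_sw1_add {x y : A} (hxy : x ≠ y) (w : List A) :
    cnt (fun a => a = x ∨ a = y) w = subwordCount [x] w + subwordCount [y] w := by
  classical
  induction w using List.reverseRecOn with
  | nil => simp [sw_nil_cons]
  | append_singleton w a ih =>
    rw [cnt_snoc, sw1, sw1, ih]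
    by_cases h1 : a = x
    · have h2 : a ≠ y := fun h => hxy (h1.symm.trans h)
      simp [h1, hxy]
      omega
    · by_cases h2 : a = y
      · simp [h2, hxy.symm]
        omega
      · simp [h1, h2]

theorem sw_xx_eq_choose (x : A) (w : List A) :
    subwordCount [x, x] w = (subwordCount [x] w).choose 2 := by
  induction w using List.reverseRecOn with
  | nil => simp [sw_nil_cons]
  | append_singleton w a ih =>
    rw [sw2, sw1, ih]
    by_cases h : a = x
    · simp only [h, if_true]
      have h2 : (subwordCount [x] w + 1).choose 2 =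
          (subwordCount [x] w).choose 1 + (subwordCount [x] w).choose 2 :=
        Nat.choose_succ_succ' _ 1
      rw [h2, Nat.choose_one_right]
      omega
    · simp [h]

theorem sw_xxx_eq_choose (x : A) (w : List A) :
    subwordCount [x, x, x] w = (subwordCount [x] w).choose 3 := by
  induction w using List.reverseRecOn with
  | nil => simp [sw_nil_cons]
  | append_singleton w a ih =>
    rw [sw3, sw1, ih, sw_xx_eq_choose]
    by_cases h : a = x
    · simp only [h, if_true]
      have h2 : (subwordCount [x] w + 1).choose 3 =
          (subwordCount [x] w).choose 2 + (subwordCount [x] w).choose 3 :=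
        Nat.choose_succ_succ' _ 2
      rw [h2]
      omega
    · simp [h]

/-! Periodicity of binomial coefficients. -/

theorem choose_add_two (s M : ℕ) : (s + M).choose 2 = s.choose 2 + s * M + M.choose 2 := by
  induction M with
  | zero => simp
  | succ M ih =>
    rw [← add_assoc, Nat.choose_succ_succ' _ 1, Nat.choose_succ_succ' M 1, ih,
      Nat.choose_one_right, Nat.choose_one_right]
    ring

theorem choose_add_three (s M : ℕ) :
    (s + M).choose 3 = s.choose 3 + s.choose 2 * M + s * M.choose 2 + M.choose 3 := by
  induction M with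
  | zero => simp
  | succ M ih =>
    rw [← add_assoc, Nat.choose_succ_succ' _ 2, Nat.choose_succ_succ' M 2,
      Nat.choose_succ_succ' M 1, ih, choose_add_two, Nat.choose_one_right]
    ring

theorem dvd_choose_two (n : ℕ) : n ∣ (2 * n).choose 2 := by
  rw [Nat.choose_two_right, mul_assoc, Nat.mul_div_cancel_left _ (by norm_num)]
  exact Dvd.intro _ rfl

theorem dvd_choose_two' (n : ℕ) : n ∣ (6 * n).choose 2 := by
  rw [Nat.choose_two_right, show 6 * n * (6 * n - 1) = 2 * (3 * n * (6 * n - 1)) by ring,
    Nat.mul_div_cancel_left _ (by norm_num)]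
  exact Dvd.intro_left (3) (by ring) |>.mul_right _

theorem dvd_choose_three (n : ℕ) : n ∣ (6 * n).choose 3 := by
  rcases Nat.eq_zero_or_pos n with rfl | hn
  · simp
  have h := Nat.descFactorial_eq_factorial_mul_choose (6 * n) 3
  have h2 : (6 * n).descFactorial 3 = (6 * n - 2) * ((6 * n - 1) * (6 * n)) := by
    simp [Nat.descFactorial]
  rw [h2] at h
  have h3 : (3 : ℕ).factorial = 6 := rfl
  rw [h3] at h
  have h4 : (6 * n).choose 3 = (6 * n - 2) * (6 * n - 1) * n := by
    have : 6 * ((6 * n - 2) * (6 * n - 1) * n) = 6 * (6 * n).choose 3 := by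
      rw [← h]
      ring
    omega
  rw [h4]
  exact Dvd.intro_left _ rfl

theorem choose_two_periodic (n k j : ℕ) :
    (((k + (2 * n) * j).choose 2 : ℕ) : ZMod n) = (k.choose 2 : ZMod n) := by
  induction j with
  | zero => simp
  | succ j ih =>
    rw [show k + 2 * n * (j + 1) = (k + 2 * n * j) + 2 * n by ring, choose_add_two]
    push_cast
    rw [ih]
    have h1 : ((2 * n : ℕ) : ZMod n) = 0 := (ZMod.natCast_eq_zero_iff _ _).2 (Dvd.intro_left _ rfl)
    have h2 : (((2 * n).choose 2 : ℕ) : ZMod n) = 0 :=
      (ZMod.natCast_eq_zero_iff _ _).2 (dvd_choose_two n)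
    push_cast at h1 h2
    rw [h1, h2]
    simp

theorem choose_three_periodic (n k j : ℕ) :
    (((k + (6 * n) * j).choose 3 : ℕ) : ZMod n) = (k.choose 3 : ZMod n) := by
  induction j with
  | zero => simp
  | succ j ih =>
    rw [show k + 6 * n * (j + 1) = (k + 6 * n * j) + 6 * n by ring, choose_add_three]
    push_cast
    rw [ih]
    have h1 : ((6 * n : ℕ) : ZMod n) = 0 := (ZMod.natCast_eq_zero_iff _ _).2 (Dvd.intro_left _ rfl)
    have h2 : (((6 * n).choose 2 : ℕ) : ZMod n) = 0 :=
      (ZMod.natCast_eq_zero_iff _ _).2 (dvd_choose_two' n)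
    have h3 : (((6 * n).choose 3 : ℕ) : ZMod n) = 0 :=
      (ZMod.natCast_eq_zero_iff _ _).2 (dvd_choose_three n)
    push_cast at h1 h2 h3
    rw [h1, h2, h3]
    simp

/-- The value of `choose 2` read off from the residue modulo `2 n`. -/
def ch2 (n : ℕ) (t : ZMod (2 * n)) : ZMod n := (t.val.choose 2 : ℕ)

/-- The value of `choose 3` read off from the residue modulo `6 n`. -/
def ch3 (n : ℕ) (t : ZMod (6 * n)) : ZMod n := (t.val.choose 3 : ℕ)

theorem ch2_natCast (n : ℕ) [NeZero n] (k : ℕ) :
    ch2 n (k : ZMod (2 * n)) = (k.choose 2 : ZMod n) := by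
  unfold ch2
  rw [ZMod.val_natCast]
  conv_rhs => rw [← Nat.mod_add_div k (2 * n)]
  rw [choose_two_periodic]

theorem ch3_natCast (n : ℕ) [NeZero n] (k : ℕ) :
    ch3 n (k : ZMod (6 * n)) = (k.choose 3 : ZMod n) := by
  unfold ch3
  rw [ZMod.val_natCast]
  conv_rhs => rw [← Nat.mod_add_div k (6 * n)]
  rw [choose_three_periodic]

section MeasSw

variable [Finite A]

instance neZero_two_mul (n : ℕ) [NeZero n] : NeZero (2 * n) := ⟨by simp [NeZero.ne n]⟩

instance neZero_six_mul (n : ℕ) [NeZero n] : NeZero (6 * n) := ⟨by simp [NeZero.ne n]⟩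

theorem meas_cnt (B : A → Prop) (n : ℕ) [NeZero n] : Meas (fun w => (cnt B w : ZMod n)) := by
  intro t
  refine ((phaseAut_cut B n).s1 ((), 0) ((), t)).congr (fun w => ?_)
  have h := run_phaseAut B n w ((), 0)
  simp only [zero_add] at h
  constructor
  · intro h1
    rw [h1] at h
    exact h.symm
  · intro h1
    exact Prod.ext rfl (h.trans h1)

theorem meas_sw1 (x : A) (n : ℕ) [NeZero n] : Meas (fun w => (subwordCount [x] w : ZMod n)) :=
  (meas_cnt (fun a => a = x) n).congr (fun w => by rw [cnt_eq_sw1])

theorem meas_sw_xy {x y : A} (hxy : x ≠ y) (n : ℕ) [NeZero n] :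
    Meas (fun w => (subwordCount [x, y] w : ZMod n)) := by
  refine (meas_psum_phase y (fun a => a = x) hxy.symm n n id).congr (fun w => ?_)
  have := sw_append_eq_psum (R := ZMod n) [x] y w
  simp only [List.singleton_append] at this
  rw [this]
  refine psum_congr _ (fun p => ?_) _
  rw [cnt_eq_sw1]
  rfl

theorem meas_sw_xx (x : A) (n : ℕ) [NeZero n] :
    Meas (fun w => (subwordCount [x, x] w : ZMod n)) := by
  refine ((meas_sw1 x (2 * n)).comp (ch2 n)).congr (fun w => ?_)
  rw [ch2_natCast, sw_xx_eq_choose]

theorem meas_sw_xxx (x : A) (n : ℕ) [NeZero n] :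
    Meas (fun w => (subwordCount [x, x, x] w : ZMod n)) := by
  refine ((meas_sw1 x (6 * n)).comp (ch3 n)).congr (fun w => ?_)
  rw [ch3_natCast, sw_xxx_eq_choose]

theorem meas_sw_xxz {x z : A} (hxz : x ≠ z) (n : ℕ) [NeZero n] :
    Meas (fun w => (subwordCount [x, x, z] w : ZMod n)) := by
  refine (meas_psum_phase z (fun a => a = x) hxz.symm (2 * n) n (ch2 n)).congr (fun w => ?_)
  have := sw_append_eq_psum (R := ZMod n) [x, x] z w
  simp only [List.cons_append, List.nil_append] at this
  rw [this]
  refine psum_congr _ (fun p => ?_) _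
  rw [ch2_natCast, cnt_eq_sw1, sw_xx_eq_choose]

theorem meas_sw_xyx {x y : A} (hxy : x ≠ y) (n : ℕ) [NeZero n] :
    Meas (fun w => (subwordCount [x, y, x] w : ZMod n)) := by
  have h1 := ((meas_sw1 x n).mul (meas_sw_xy hxy n)).sub
    (((Meas.const (2 : ZMod n)).mul (meas_sw_xxz hxy n)).add (meas_sw_xy hxy n))
  refine h1.congr (fun w => ?_)
  have := id3 (R := ZMod n) hxy w
  rw [this]
  ring

theorem meas_half {n : ℕ} [NeZero n] {f : List A → ℕ}
    (h : Meas (fun w => 2 * (f w : ZMod (2 * n)))) : Meas (fun w => (f w : ZMod n)) := by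
  let halve : ZMod (2 * n) → ZMod n := fun t => ((t.val / 2 : ℕ) : ZMod n)
  refine (h.comp halve).congr (fun w => ?_)
  simp only [halve]
  have h1 : (2 * ((f w : ℕ) : ZMod (2 * n))) = ((2 * f w : ℕ) : ZMod (2 * n)) := by
    push_cast
    rfl
  rw [h1, ZMod.val_natCast, Nat.mul_mod_mul_left, Nat.mul_div_cancel_left _ (by norm_num)]
  simp

theorem meas_sw_xyy {x y : A} (hxy : x ≠ y) (n : ℕ) [NeZero n] :
    Meas (fun w => (subwordCount [x, y, y] w : ZMod n)) := by
  apply meas_half
  have h1 := ((meas_sw1 y (2 * n)).mul (meas_sw_xy hxy (2 * n))).sub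
    ((meas_sw_xyx hxy.symm (2 * n)).add (meas_sw_xy hxy (2 * n)))
  refine h1.congr (fun w => ?_)
  have := id4 (R := ZMod (2 * n)) hxy w
  rw [this]
  ring

theorem meas_psum_xy {x y z : A} (hxy : x ≠ y) (hxz : x ≠ z) (hyz : y ≠ z) (n : ℕ) [NeZero n] :
    Meas (fun w => psum z (fun p => (subwordCount [x] p : ZMod n) * subwordCount [y] p) w) := by
  have hB : ¬ (z = x ∨ z = y) := by
    rintro (h | h)
    · exact hxz h.symm
    · exact hyz h.symm
  have h1 := ((meas_psum_phase z (fun a => a = x ∨ a = y) hB (2 * n) n (ch2 n)).sub
    (meas_sw_xxz hxz n)).sub (meas_sw_xxz hyz n)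
  refine h1.congr (fun w => ?_)
  have e1 := sw_append_eq_psum (R := ZMod n) [x, x] z w
  have e2 := sw_append_eq_psum (R := ZMod n) [y, y] z w
  simp only [List.cons_append, List.nil_append] at e1 e2
  rw [e1, e2, ← psum_sub, ← psum_sub]
  refine psum_congr _ (fun p => ?_) _
  rw [ch2_natCast, cnt_eq_sw1_add hxy, choose_add_two, sw_xx_eq_choose, sw_xx_eq_choose]
  push_cast
  ring

theorem meas_sw_distinct {p q r : A} (hpq : p ≠ q) (hpr : p ≠ r) (hqr : q ≠ r) (n : ℕ) [NeZero n] :
    Meas (fun w => (subwordCount [p, q, r] w : ZMod n)) := by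
  have h1 := ((meas_sw1 r n).mul (meas_sw_xy hpq n)).sub (meas_psum_xy hpr.symm hqr.symm hpq n)
  refine h1.congr (fun w => ?_)
  have e1 := id5 (R := ZMod n) hpr.symm hqr.symm hpq w
  have e2 := sw_append_eq_psum (R := ZMod n) [r, p] q w
  have e3 := sw_append_eq_psum (R := ZMod n) [p, r] q w
  simp only [List.cons_append, List.nil_append] at e2 e3
  have e4 : psum q (fun p_1 => (subwordCount [r] p_1 : ZMod n) * subwordCount [p] p_1) w =
      psum q (fun p_1 => (subwordCount [r, p] p_1 : ZMod n) + subwordCount [p, r] p_1) w :=
    psum_congr _ (fun x => (id1 hpr.symm x).symm) _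
  rw [e1, e4, psum_add, ← e2, ← e3]
  ring

/-- All subword counts of length at most three modulo `n` are measurable. -/
theorem meas_sw {v : List A} (hv : v.length ≤ 3) (n : ℕ) [NeZero n] :
    Meas (fun w => (subwordCount v w : ZMod n)) := by
  match v, hv with
  | [], _ =>
    refine (Meas.const (1 : ZMod n)).congr (fun w => ?_)
    simp [sw_empty]
  | [x], _ => exact meas_sw1 x n
  | [x, y], _ =>
    by_cases h : x = y
    · subst h
      exact meas_sw_xx x n
    · exact meas_sw_xy h n
  | [x, y, z], _ =>
    by_cases h1 : x = y
    · subst h1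
      by_cases h2 : x = z
      · subst h2
        exact meas_sw_xxx x n
      · exact meas_sw_xxz h2 n
    · by_cases h2 : x = z
      · subst h2
        exact meas_sw_xyx h1 n
      · by_cases h3 : y = z
        · subst h3
          exact meas_sw_xyy h1 n
        · exact meas_sw_distinct h1 h2 h3 n

end MeasSw

end Vale.Agent.P329
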